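/-
P235-M (helper802).  From every vertex lies on a shortest path from `s` to `t` to every edge
does: interfaces.
-/
import Vale.Agent.P235.H536.PlaneDefs

namespace Vale.Agent.P235.Tight

/-- `h` is a height which moves by at most the length along every edge; every vertex except `t`
has a tight upward edge, every vertex except `s` a tight downward edge. -/
structure Bip {V : Type} (G : SimpleGraph V) (ℓ : Sym2 V → ℝ) (h : V → ℝ) (s t : V) : Prop where
  conn : G.Connected
  pos : ∀ u v, G.Adj u v → 0 < ℓ s(u, v)
  lip : ∀ u v, G.Adj u v → |h u - h v| ≤ ℓ s(u, v)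
  up : ∀ v, v ≠ t → ∃ w, G.Adj v w ∧ h w - h v = ℓ s(v, w)
  dn : ∀ v, v ≠ s → ∃ w, G.Adj v w ∧ h v - h w = ℓ s(v, w)

/-- a plane map with `s` and `t` on one face -/
def StPlane {V : Type} (G : SimpleGraph V) (s t : V) : Prop :=
  ∃ (σ : Equiv.Perm G.Dart) (d₀ : G.Dart), PlaneMap G σ ∧ s ∈ onFace σ d₀ ∧ t ∈ onFace σ d₀

/-- one new vertex `none`, joined to `a`, `b` and `q` -/
def addZ {V : Type} (G : SimpleGraph V) (a b q : V) : SimpleGraph (Option V) where
  Adj
    | some x, some y => G.Adj x y
    | none, some x => x = a ∨ x = b ∨ x = q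
    | some x, none => x = a ∨ x = b ∨ x = q
    | none, none => False
  symm := ⟨by
    rintro (_ | x) (_ | y) h
    all_goals first | exact h | exact SimpleGraph.Adj.symm h⟩
  loopless := ⟨by
    rintro (_ | x) h
    all_goals first | exact h | exact SimpleGraph.irrefl G h⟩

/-- deleting an edge which has two different sides, if the graph stays connected -/
def RowDel : Prop :=
  ∀ (V : Type) [Finite V] (G : SimpleGraph V) (σ : Equiv.Perm G.Dart) (d₀ e : G.Dart) (s t : V),
    PlaneMap G σ → s ∈ onFace σ d₀ → t ∈ onFace σ d₀ →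
    ¬ (faceNext σ).SameCycle e e.symm → (G.deleteEdges {e.edge}).Connected →
    StPlane (G.deleteEdges {e.edge}) s t

/-- adding a vertex inside the face of the dart `e`, joined to both ends of `e` and to a third
vertex `q` of this face; `s` and `t` lie on another face -/
def RowStar : Prop :=
  ∀ (V : Type) [Finite V] (G : SimpleGraph V) (σ : Equiv.Perm G.Dart) (d₀ e : G.Dart)
    (q s t : V), G.Connected → PlaneMap G σ → s ∈ onFace σ d₀ → t ∈ onFace σ d₀ →
    ¬ (faceNext σ).SameCycle d₀ e → q ∈ onFace σ e → q ≠ e.fst → q ≠ e.snd →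
    StPlane (addZ G e.fst e.snd q) (some s) (some t)

end Vale.Agent.P235.Tight
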