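import Vale.Agent.P235.R2.H802.Mix

/-!
# Rounds: the distortion (helper802)
-/

set_option linter.all false

namespace Vale.Agent.P235.SqR

open Finset Vale.Agent.P235 Vale.Agent.P235.Red H206 H536 H341W

theorem pointedQ_embeds {V : Type} [Finite V] {G : SimpleGraph V} {ℓ : Sym2 V → ℝ}
    (hc : G.Connected) (hℓ : ∀ e ∈ G.edgeSet, 0 < ℓ e) {κ K : ℝ} (hκ : 0 ≤ κ) (hK : 0 < K)
    (h : ∀ H : V → ℝ, (∀ v, 0 < H v) → (∀ u v, G.Adj u v → |H u - H v| ≤ ℓ s(u, v)) →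
      PointedQ G ℓ H (pathDist G ℓ) κ K) :
    EmbedsL1 (pathDist G ℓ) (32000 * √κ + 16000 * K) := by
  have := Fintype.ofFinite V
  have hd := pathDist_isMet hc hℓ
  obtain ⟨R, hR0, hR⟩ : ∃ R : ℝ, 0 < R ∧ ∀ x y, pathDist G ℓ x y ≤ R := by
    refine ⟨∑ x, ∑ y, pathDist G ℓ x y + 1, ?_, ?_⟩
    · have : 0 ≤ ∑ x, ∑ y, pathDist G ℓ x y :=
        Finset.sum_nonneg fun x _ => Finset.sum_nonneg fun y _ => hd.nonneg x y
      linarith
    intro x y
    have e1 : pathDist G ℓ x y ≤ ∑ y, pathDist G ℓ x y :=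
      Finset.single_le_sum (f := fun y => pathDist G ℓ x y) (fun y _ => hd.nonneg x y)
        (Finset.mem_univ y)
    have e2 : ∑ y, pathDist G ℓ x y ≤ ∑ x, ∑ y, pathDist G ℓ x y :=
      Finset.single_le_sum (f := fun x => ∑ y, pathDist G ℓ x y)
        (fun x _ => Finset.sum_nonneg fun y _ => hd.nonneg x y) (Finset.mem_univ x)
    linarith
  obtain ⟨N, σ, hN, h1, h2, -, -, h5⟩ := h (fun _ => R) (fun _ => hR0) (fun u v huv => by
      rw [sub_self, abs_zero]; exact (hℓ _ huv).le)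
  obtain ⟨F, hF, hFN⟩ := hN.toL1
  have hK' : 0 < 32000 * √κ + 16000 * K := by positivity
  have hI := ((hF.comap (some : V → Option V)).smul (by norm_num : (0 : ℝ) ≤ 32000)).add
    ((h1.comap (some : V → Option V)).smul (by norm_num : (0 : ℝ) ≤ 16000))
  refine hI.embeds (fun x y => ?_) (pathDist_semi hc hK' (fun x => hI.self x)
    (fun x y z => hI.tri x y z) fun u v huv => ?_)
  · show pathDist G ℓ x y ≤ 32000 * F (some x) (some y) + 16000 * σ (some x) (some y)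
    have nF := hF.nonneg (some x) (some y)
    have nσ := h1.nonneg (some x) (some y)
    rcases (hd.nonneg x y).eq_or_lt with h0 | h0
    · linarith
    rcases h5 x y (pathDist G ℓ x y / 8) (by linarith) (by linarith [hR x y])
      (by linarith [hR x y]) (by linarith) with h6 | h6
    · have h7 := (hFN (some x) (some y)).2
      have h8 : pathDist G ℓ x y / 8 ≤ 2000 * √(N (some x) (some y)) := by
        have e : 2000 * √(N (some x) (some y)) = √(4000000 * N (some x) (some y)) := by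
          rw [Real.sqrt_mul (by norm_num), show (4000000 : ℝ) = 2000 ^ 2 by norm_num,
            Real.sqrt_sq (by norm_num)]
        rw [e]
        exact Real.le_sqrt_of_sq_le h6
      linarith
    · linarith
  · have hl0 := hℓ s(u, v) huv
    have h6 := h2 u v huv
    have h7 := (hFN (some u) (some v)).1
    have h8 : √(N (some u) (some v)) ≤ √κ * ℓ s(u, v) := by
      have e1 : κ * ℓ s(u, v) ^ 2 = (√κ * ℓ s(u, v)) ^ 2 := by
        rw [mul_pow, Real.sq_sqrt hκ]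
      exact (Real.sqrt_le_left (by positivity)).2 (h6.1.trans e1.le)
    show 32000 * F (some u) (some v) + 16000 * σ (some u) (some v) ≤ _
    have h9 := h6.2
    nlinarith

theorem rounds_distortion {A : ℝ} (hA : 1 ≤ A) (hT : StepS A) {Q : ℝ} (hQ : 0 < Q)
    {s g k j : ℕ} {β : ℝ} (hβ : 0 ≤ β) {V : Type} [Finite V] {G : SimpleGraph V}
    {ℓ : Sym2 V → ℝ} (hc : G.Connected)
    (hℓ : ∀ e ∈ G.edgeSet, 0 < ℓ e) (h : Pk.Rounds Q s g k j β G ℓ) :
    EmbedsL1 (pathDist G ℓ) (160000 * √(k : ℝ) * ((Nat.log 2 s + 1 : ℕ) : ℝ) +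
      16000 * (96 * Q + 112 + β * (A + 4) + j * (((g + 1 : ℕ) : ℝ) + 4))) := by
  set m : ℝ := ((Nat.log 2 s + 1 : ℕ) : ℝ) with hm
  have hm0 : (0 : ℝ) ≤ m := Nat.cast_nonneg _
  have h1 := pointedQ_embeds hc hℓ (κ := k * (24 * m ^ 2))
    (K := 96 * Q + 112 + β * (A + 4) + j * (((g + 1 : ℕ) : ℝ) + 4))
    (by positivity) (by positivity)
    (rounds_pointed hA hT hQ h hβ inferInstance hc hℓ)
  have h2 : √((k : ℝ) * (24 * m ^ 2)) ≤ 5 * √(k : ℝ) * m := by
    refine (Real.sqrt_le_left (by positivity)).2 ?_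
    rw [mul_pow, mul_pow, Real.sq_sqrt (Nat.cast_nonneg k)]
    have : (0 : ℝ) ≤ k * m ^ 2 := by positivity
    nlinarith
  obtain ⟨Ω, μ', μ, f, hf⟩ := h1
  refine ⟨Ω, μ', μ, f, fun x y => ⟨(hf x y).1, (hf x y).2.trans
    (mul_le_mul_of_nonneg_right ?_ (pathDist_isMet hc hℓ |>.nonneg x y))⟩⟩
  linarith

/-- **Rounds**: `k` rounds of `s` lanes cost `√k log (s + 2)`, `j` rounds of faces of Euler genus
`g` cost `j (g + 1)`, a round which deletes any set `X` of a plane graph costs the distortion of the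
metric of `X` -/
theorem rounds_final {A : ℝ} (hA : 1 ≤ A) (hT : StepS A) {Q : ℝ} (hQ : 1 ≤ Q)
    {s g k j : ℕ} {β : ℝ} (hβ : 0 ≤ β) {V : Type} [Finite V] {G : SimpleGraph V}
    {ℓ : Sym2 V → ℝ} (hc : G.Connected)
    (hℓ : ∀ e ∈ G.edgeSet, 0 < ℓ e) (h : Pk.Rounds Q s g k j β G ℓ) :
    EmbedsL1 (pathDist G ℓ) (4000000 * A * (Q + √(k : ℝ) * Real.log ((s : ℝ) + 2) +
      j * ((g : ℝ) + 1) + β)) := by
  obtain ⟨Ω, μ', μ, f, hf⟩ := rounds_distortion hA hT (by linarith) hβ hc hℓ h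
  refine ⟨Ω, μ', μ, f, fun x y => ⟨(hf x y).1, (hf x y).2.trans
    (mul_le_mul_of_nonneg_right ?_ (pathDist_isMet hc hℓ |>.nonneg x y))⟩⟩
  have hs0 : (0 : ℝ) ≤ s := Nat.cast_nonneg _
  have hlog : ((Nat.log 2 s + 1 : ℕ) : ℝ) ≤ 4 * Real.log ((s : ℝ) + 2) := by
    have h2 : (1 : ℝ) / 2 ≤ Real.log 2 := by
      have := Real.log_two_gt_d9
      linarith
    have h3 : Real.log 2 ≤ Real.log ((s : ℝ) + 2) := Real.log_le_log (by norm_num) (by linarith)
    rcases Nat.eq_zero_or_pos s with rfl | hs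
    · simp only [Nat.log_zero_right, zero_add, Nat.cast_one]
      linarith
    · have h4 : (2 : ℝ) ^ (Nat.log 2 s) ≤ s := by
        exact_mod_cast Nat.pow_log_le_self 2 hs.ne'
      have h5 : (Nat.log 2 s : ℝ) * Real.log 2 ≤ Real.log ((s : ℝ) + 2) := by
        rw [← Real.log_pow]
        exact Real.log_le_log (by positivity) (h4.trans (by linarith))
      have h6 : (0 : ℝ) ≤ (Nat.log 2 s : ℝ) := Nat.cast_nonneg _
      push_cast
      nlinarith
  have hk0 : 0 ≤ √(k : ℝ) := Real.sqrt_nonneg _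
  have e1 : 160000 * √(k : ℝ) * ((Nat.log 2 s + 1 : ℕ) : ℝ) ≤
      640000 * (√(k : ℝ) * Real.log ((s : ℝ) + 2)) := by
    have := mul_le_mul_of_nonneg_left hlog (by positivity : 0 ≤ 160000 * √(k : ℝ))
    linarith
  have hL0 : 0 ≤ Real.log ((s : ℝ) + 2) := Real.log_nonneg (by linarith)
  have e2 : √(k : ℝ) * Real.log ((s : ℝ) + 2) ≤ A * (√(k : ℝ) * Real.log ((s : ℝ) + 2)) :=
    le_mul_of_one_le_left (by positivity) hA
  have e3 : Q ≤ A * Q := le_mul_of_one_le_left (by linarith) hA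
  have e4 : β * (A + 4) ≤ 5 * (A * β) := by nlinarith
  have e5 : 0 ≤ A * β := by positivity
  have hj0 : (0 : ℝ) ≤ j := Nat.cast_nonneg _
  have hg0 : (0 : ℝ) ≤ g := Nat.cast_nonneg _
  have e6 : (j : ℝ) * (((g + 1 : ℕ) : ℝ) + 4) ≤ 5 * (j * ((g : ℝ) + 1)) := by
    push_cast
    nlinarith
  have e7 : (j : ℝ) * ((g : ℝ) + 1) ≤ A * (j * ((g : ℝ) + 1)) :=
    le_mul_of_one_le_left (by positivity) hA
  nlinarith

end Vale.Agent.P235.SqR
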