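import Vale.Agent.P235.R2.H802.Mix2
import Vale.Agent.P235.R2.RED.ClassesF

/-!
# Rounds which delete lanes (square root) or arbitrary sets (additive) (helper802, after helper686)
-/

set_option linter.all false

namespace Vale.Agent.P235.Pf

open Finset Vale.Agent.P235 Vale.Agent.P235.Red H206 H536 H341W SqR

/-- the step which deletes any set from a graph without `K_r` minor, with the constant `A` -/
def StepK (r : ℕ) (A : ℝ) : Prop :=
  ∀ (V : Type) [Finite V] (G : SimpleGraph V) (ℓ : Sym2 V → ℝ), G.Connected →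
    ¬ H134.IsMinor (⊤ : SimpleGraph (Fin r)) G → (∀ e ∈ G.edgeSet, 0 < ℓ e) →
    ∀ (X : Set V) (B : ℝ), X.Nonempty → 1 ≤ B →
    EmbedsL1 (fun u v : X => pathDist G ℓ u v) B →
    ∃ F : V → V → ℝ, IsL1 F ∧ (∀ u v, G.Adj u v → F u v ≤ ℓ s(u, v)) ∧
      ∀ ν : V → V, Near G ℓ X ν → ∀ x y δ, 0 < δ → pathDist G ℓ x (ν x) ≤ δ →
        pathDist G ℓ y (ν y) ≤ 5 / 4 * δ → 8 * δ ≤ pathDist G ℓ x y →
        2 * δ ≤ A * B * F x y

/-- the rounds, pointed form -/
theorem rounds_pointed {r : ℕ} {A : ℝ} (hA : 1 ≤ A) (hT : StepK r A) {Q : ℝ} (hQ : 0 < Q)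
    {s k : ℕ} {β : ℝ} {V : Type} {G : SimpleGraph V} {ℓ : Sym2 V → ℝ}
    (h : Rounds Q s r k β G ℓ) : 0 ≤ β → Finite V → G.Connected →
      (∀ e ∈ G.edgeSet, 0 < ℓ e) → ∀ H : V → ℝ, (∀ v, 0 < H v) →
      (∀ u v, G.Adj u v → |H u - H v| ≤ ℓ s(u, v)) →
      PointedQ G ℓ H (pathDist G ℓ) (k * (24 * ((Nat.log 2 s + 1 : ℕ) : ℝ) ^ 2))
        (96 * Q + 112 + β * (A + 4)) := by
  induction h with
  | @leaf k β V G ℓ hD =>
    intro hβ _ hc hℓ H hH hHl
    refine pointedQ_monoK hℓ hH ?_ ((pointedQ_of (pointed_iff.2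
      (pointed_leafW hQ hc hℓ hH hHl hD))).mono (by positivity))
    have : (0 : ℝ) ≤ β * (A + 4) := by positivity
    linarith
  | @lanes k β V G ℓ X S hX hR hp _ ih =>
    intro hβ hfin hc hℓ H hH hHl
    obtain ⟨u, L, hs, hne, hu, hiso, rfl⟩ := laneSet_lanes hX hR
    have h1 := pointedQ_step hc hℓ hH hHl hs le_rfl hne hu hiso
      (k := k * (24 * ((Nat.log 2 s + 1 : ℕ) : ℝ) ^ 2))
      (K := 96 * Q + 112 + β * (A + 4))
      (by positivity)
      (by positivity) fun v hv => piece_stepQ hc hℓ hv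
        (H341W.Piece.induce hc hℓ (hp v hv).1 (hp v hv).2) (by positivity)
        (by positivity)
        fun H' hH' hHl' => ih v hv hβ inferInstance (hp v hv).2 (induce_pos hℓ _) H' hH' hHl'
    refine h1.mono (le_of_eq ?_)
    push_cast
    ring
  | @set k β B V G ℓ X S hK hX hB hβ hE hp _ ih =>
    intro _ hfin hc hℓ H hH hHl
    obtain ⟨F, hF, hF1, hF2⟩ := hT V G ℓ hc hK hℓ X B hX hB hE
    have hAB : (1 : ℝ) ≤ A * B := by nlinarith
    have h1 := pointedQ_stepL (F := F) (L := A * B) hc hℓ hH hHl hX hF hF1 hAB hF2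
      (k := k * (24 * ((Nat.log 2 s + 1 : ℕ) : ℝ) ^ 2))
      (K := 96 * Q + 112 + β * (A + 4))
      (by positivity)
      (by positivity) fun v hv => piece_stepQ hc hℓ hv
        (H341W.Piece.induce hc hℓ (hp v hv).1 (hp v hv).2) (by positivity)
        (by positivity)
        fun H' hH' hHl' => ih v hv hβ inferInstance (hp v hv).2 (induce_pos hℓ _) H' hH' hHl'
    refine pointedQ_monoK hℓ hH ?_ h1
    nlinarith

/-- **Rounds**: `k` rounds of `s` lanes cost `√k log (s + 2)`, a round which deletes any set `X` of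
a graph without `K_r` minor costs `A` times the distortion of the metric of `X` -/
theorem rounds_final {r : ℕ} {A : ℝ} (hA : 1 ≤ A) (hT : StepK r A) {Q : ℝ} (hQ : 1 ≤ Q)
    {s k : ℕ} {β : ℝ} (hβ : 0 ≤ β) {V : Type} [Finite V] {G : SimpleGraph V}
    {ℓ : Sym2 V → ℝ} (hc : G.Connected)
    (hℓ : ∀ e ∈ G.edgeSet, 0 < ℓ e) (h : Rounds Q s r k β G ℓ) :
    EmbedsL1 (pathDist G ℓ) (4000000 * (Q + √(k : ℝ) * Real.log ((s : ℝ) + 2) + A * β)) := by
  set m : ℝ := ((Nat.log 2 s + 1 : ℕ) : ℝ) with hm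
  have hm0 : (0 : ℝ) ≤ m := Nat.cast_nonneg _
  have h1 := pointedQ_embeds hc hℓ (κ := k * (24 * m ^ 2))
    (K := 96 * Q + 112 + β * (A + 4))
    (by positivity) (by positivity)
    (rounds_pointed hA hT (by linarith) h hβ inferInstance hc hℓ)
  have h2 : √((k : ℝ) * (24 * m ^ 2)) ≤ 5 * √(k : ℝ) * m := by
    refine (Real.sqrt_le_left (by positivity)).2 ?_
    rw [mul_pow, mul_pow, Real.sq_sqrt (Nat.cast_nonneg k)]
    have : (0 : ℝ) ≤ k * m ^ 2 := by positivity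
    nlinarith
  obtain ⟨Ω, μ', μ, f, hf⟩ := h1
  refine ⟨Ω, μ', μ, f, fun x y => ⟨(hf x y).1, (hf x y).2.trans
    (mul_le_mul_of_nonneg_right ?_ (pathDist_isMet hc hℓ |>.nonneg x y))⟩⟩
  have hs0 : (0 : ℝ) ≤ s := Nat.cast_nonneg _
  have hlog : m ≤ 4 * Real.log ((s : ℝ) + 2) := by
    have h2 : (1 : ℝ) / 2 ≤ Real.log 2 := by
      have := Real.log_two_gt_d9
      linarith
    have h3 : Real.log 2 ≤ Real.log ((s : ℝ) + 2) := Real.log_le_log (by norm_num) (by linarith)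
    rcases Nat.eq_zero_or_pos s with rfl | hs
    · rw [hm]
      simp only [Nat.log_zero_right, zero_add, Nat.cast_one]
      linarith
    · have h4 : (2 : ℝ) ^ (Nat.log 2 s) ≤ s := by
        exact_mod_cast Nat.pow_log_le_self 2 hs.ne'
      have h5 : (Nat.log 2 s : ℝ) * Real.log 2 ≤ Real.log ((s : ℝ) + 2) := by
        rw [← Real.log_pow]
        exact Real.log_le_log (by positivity) (h4.trans (by linarith))
      have h6 : (0 : ℝ) ≤ (Nat.log 2 s : ℝ) := Nat.cast_nonneg _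
      rw [hm]
      push_cast
      nlinarith
  have hk0 : 0 ≤ √(k : ℝ) := Real.sqrt_nonneg _
  have e1 : √(k : ℝ) * m ≤ 4 * (√(k : ℝ) * Real.log ((s : ℝ) + 2)) := by
    have := mul_le_mul_of_nonneg_left hlog hk0
    linarith
  have e2 : 32000 * √((k : ℝ) * (24 * m ^ 2)) ≤ 32000 * (5 * (√(k : ℝ) * m)) := by
    have : 5 * √(k : ℝ) * m = 5 * (√(k : ℝ) * m) := by ring
    rw [this] at h2
    linarith
  have e4 : β * (A + 4) ≤ 5 * (A * β) := by nlinarith
  have e5 : 0 ≤ A * β := by positivity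
  have e6 : 0 ≤ √(k : ℝ) * Real.log ((s : ℝ) + 2) :=
    mul_nonneg hk0 (Real.log_nonneg (by linarith))
  linarith

end Vale.Agent.P235.Pf
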