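import Vale.Agent.P235.R2.H582.KprSpec
import Vale.Agent.P235.R2.H643.StepT

/-!
# Unions of sets in plane graphs (helper802)

If `G` is plane and the metric of `G` restricted to `X i` embeds into `L₁` with distortion `B i`,
then the metric restricted to the union embeds with distortion `5003 ∑ B i`.
-/

set_option linter.all false

namespace Vale.Agent.P235.Uni

open SimpleGraph Vale.Agent.P235

variable {V : Type} [Finite V] {G : SimpleGraph V} {ℓ : Sym2 V → ℝ}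

/-- random retractions of `(G, ℓ)` onto every set, with the constant `E` -/
def Retr (G : SimpleGraph V) (ℓ : Sym2 V → ℝ) (E : ℝ) : Prop :=
  ∀ (X : Set V) (ν : V → V), Near G ℓ X ν →
    ∃ (ι : Type) (_ : Fintype ι) (w : ι → ℝ) (π : ι → V → V), (∀ i, 0 ≤ w i) ∧ ∑ i, w i = 1 ∧
      (∀ i v, π i v ∈ X) ∧
      (∀ u v, G.Adj u v → ∑ i, w i * pathDist G ℓ (π i u) (π i v) ≤ E * ℓ s(u, v)) ∧
      ∀ i v, pathDist G ℓ v (π i v) ≤ 3 * pathDist G ℓ v (ν v)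

/-- one set: an `L₁` metric on all vertices which separates `x ∈ X` from every vertex -/
theorem set_map {E : ℝ} (hE1 : 1 ≤ E) (h7 : Retr G ℓ E) (hc : G.Connected)
    (hℓ : ∀ e ∈ G.edgeSet, 0 < ℓ e) {X : Set V} {B : ℝ} (hB : 1 ≤ B)
    (hE : EmbedsL1 (fun u v : X => pathDist G ℓ u v) B) :
    ∃ F : V → V → ℝ, IsL1 F ∧ (∀ u v, F u v ≤ (E + 3) * B * pathDist G ℓ u v) ∧
      ∀ x ∈ X, ∀ y, pathDist G ℓ x y ≤ F x y := by
  classical
  have hd := pathDist_isMet hc hℓ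
  rcases X.eq_empty_or_nonempty with rfl | hX
  · refine ⟨fun _ _ => |(0 : ℝ) - 0|, isL1_line (fun _ : V => (0 : ℝ)), fun u v => ?_, fun x hx => ?_⟩
    · have := hd.nonneg u v
      rw [sub_zero, abs_zero]
      positivity
    · exact absurd hx (Set.notMem_empty x)
  obtain ⟨ν, hν⟩ := exists_near (X := X) hc hℓ hX
  obtain ⟨κ, hκ, w, π, hw, hw1, hπ1, hπ3, hπ4⟩ := h7 X ν hν
  obtain ⟨ρ, hρL, hρ1, hρ2, -⟩ := hE.toL1S
  have hρI : IsL1 ρ := hρL.isL1
  let F₁ : V → V → ℝ := fun x y => ∑ i, w i * ρ ⟨π i x, hπ1 i x⟩ ⟨π i y, hπ1 i y⟩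
  let F₂ : V → V → ℝ := fun x y => |pathDist G ℓ x (ν x) - pathDist G ℓ y (ν y)|
  have hF₁ : IsL1 F₁ := IsL1.sum Finset.univ
    (fun i x y => w i * ρ ⟨π i x, hπ1 i x⟩ ⟨π i y, hπ1 i y⟩)
    fun i _ => (hρI.comap (fun x => (⟨π i x, hπ1 i x⟩ : X))).smul (hw i)
  have hF₂ : IsL1 F₂ := isL1_line (fun v => pathDist G ℓ v (ν v))
  have hF₁u : ∀ x y, F₁ x y ≤ E * B * pathDist G ℓ x y := by
    refine pathDist_semi hc (by positivity) (fun x => hF₁.self x) (fun x y z => hF₁.tri x y z)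
      fun u v huv => ?_
    have h1 : F₁ u v ≤ ∑ i, B * (w i * pathDist G ℓ (π i u) (π i v)) := by
      refine Finset.sum_le_sum fun i _ => ?_
      have h2 : ρ ⟨π i u, hπ1 i u⟩ ⟨π i v, hπ1 i v⟩ ≤ B * pathDist G ℓ (π i u) (π i v) :=
        hρ2 ⟨π i u, hπ1 i u⟩ ⟨π i v, hπ1 i v⟩
      have := mul_le_mul_of_nonneg_left h2 (hw i)
      linarith
    rw [← Finset.mul_sum] at h1
    have h2 := mul_le_mul_of_nonneg_left (hπ3 u v huv) (by linarith : (0 : ℝ) ≤ B)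
    linarith
  refine ⟨fun x y => F₁ x y + 3 * F₂ x y, hF₁.add (hF₂.smul (by norm_num)), fun u v => ?_,
    fun x hx y => ?_⟩
  · have h1 := hF₁u u v
    have h2 : F₂ u v ≤ pathDist G ℓ u v := by
      have a1 := hν.lip hc hℓ u v
      have a2 := hν.lip hc hℓ v u
      rw [hd.symm v u] at a2
      show |pathDist G ℓ u (ν u) - pathDist G ℓ v (ν v)| ≤ _
      rw [abs_le]; constructor <;> linarith
    have h3 := hd.nonneg u v
    have h4 : 3 * pathDist G ℓ u v ≤ 3 * (B * pathDist G ℓ u v) := by nlinarith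
    have h5 : (E + 3) * B * pathDist G ℓ u v =
        E * B * pathDist G ℓ u v + 3 * (B * pathDist G ℓ u v) := by ring
    show F₁ u v + 3 * F₂ u v ≤ _
    rw [h5]
    linarith
  · have hx0 : pathDist G ℓ x (ν x) = 0 := by
      rw [hν.self x hx]
      exact hd.self x
    have h0 : ∀ i, pathDist G ℓ x y - 3 * pathDist G ℓ y (ν y) ≤
        ρ ⟨π i x, hπ1 i x⟩ ⟨π i y, hπ1 i y⟩ := by
      intro i
      have h2 : pathDist G ℓ (π i x) (π i y) ≤ ρ ⟨π i x, hπ1 i x⟩ ⟨π i y, hπ1 i y⟩ :=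
        hρ1 ⟨π i x, hπ1 i x⟩ ⟨π i y, hπ1 i y⟩
      have h3 := hd.tri x (π i x) y
      have h4 := hd.tri (π i x) (π i y) y
      rw [hd.symm (π i y) y] at h4
      have h5 := hπ4 i x
      have h6 := hπ4 i y
      rw [hx0] at h5
      linarith
    have h1 : ∑ i, w i * (pathDist G ℓ x y - 3 * pathDist G ℓ y (ν y)) ≤ F₁ x y :=
      Finset.sum_le_sum fun i _ => mul_le_mul_of_nonneg_left (h0 i) (hw i)
    rw [← Finset.sum_mul, hw1, one_mul] at h1
    have h2 : F₂ x y = pathDist G ℓ y (ν y) := by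
      show |pathDist G ℓ x (ν x) - pathDist G ℓ y (ν y)| = _
      rw [hx0, zero_sub, abs_neg, abs_of_nonneg (hd.nonneg _ _)]
    show _ ≤ F₁ x y + 3 * F₂ x y
    rw [h2]
    linarith

/-- **unions of sets** -/
theorem union_of_retr {E : ℝ} (hE1 : 1 ≤ E) (h7 : Retr G ℓ E) (hc : G.Connected)
    (hℓ : ∀ e ∈ G.edgeSet, 0 < ℓ e) {m : ℕ}
    {X : Fin m → Set V} {B : Fin m → ℝ} (hB : ∀ i, 1 ≤ B i)
    (hE : ∀ i, EmbedsL1 (fun u v : X i => pathDist G ℓ u v) (B i)) :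
    EmbedsL1 (fun u v : (⋃ i, X i : Set V) => pathDist G ℓ u v) ((E + 3) * ∑ i, B i) := by
  classical
  have hd := pathDist_isMet hc hℓ
  choose F hF h1 h2 using fun i => set_map hE1 h7 hc hℓ (hB i) (hE i)
  have hS : IsL1 fun x y => ∑ i, F i x y := IsL1.sum Finset.univ (fun i x y => F i x y)
    fun i _ => hF i
  refine (hS.comap (fun x : (⋃ i, X i : Set V) => x.1)).embeds (fun x y => ?_) (fun x y => ?_)
  · obtain ⟨i, hi⟩ := Set.mem_iUnion.1 x.2
    exact (h2 i x.1 hi y.1).trans (Finset.single_le_sum (f := fun i => F i x.1 y.1)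
      (fun j _ => (hF j).nonneg _ _) (Finset.mem_univ i))
  · show ∑ i, F i x.1 y.1 ≤ _
    refine (Finset.sum_le_sum fun i _ => h1 i x.1 y.1).trans (le_of_eq ?_)
    rw [Finset.mul_sum, Finset.sum_mul]

/-- **unions of sets in a plane graph** -/
theorem union_embeds (h7 : Kpr.RowRetr) (hc : G.Connected)
    (hP : ∃ σ : Equiv.Perm G.Dart, PlaneMap G σ) (hℓ : ∀ e ∈ G.edgeSet, 0 < ℓ e) {m : ℕ}
    {X : Fin m → Set V} {B : Fin m → ℝ} (hB : ∀ i, 1 ≤ B i)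
    (hE : ∀ i, EmbedsL1 (fun u v : X i => pathDist G ℓ u v) (B i)) :
    EmbedsL1 (fun u v : (⋃ i, X i : Set V) => pathDist G ℓ u v) ((5000 + 3) * ∑ i, B i) :=
  union_of_retr (by norm_num) (h7 V G ℓ hc hP hℓ) hc hℓ hB hE

end Vale.Agent.P235.Uni
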