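import Vale.Agent.P235.R2.H802.Sep
import Vale.Agent.P235.Comp.Core

/-!
# Separators by three chains: the row `RowSep` (helper802, on helper341's sides of fundamental
cycles)
-/

set_option linter.all false

namespace Vale.Agent.P235.SqR

open SimpleGraph Finset Vale.Agent.P235.H341W Vale.Agent.P235.H718

section main

variable {V : Type} {G : SimpleGraph V} {σ : Equiv.Perm G.Dart} {h : V → ℝ} {s : V} {p : V → V}
variable {r : G.Dart → G.Dart → ZMod 2}

/-- the far sides of the darts of the face do not contain the face -/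
theorem q_base (hr : ∀ e, Side σ p s e (r e)) (b₀ : G.Dart) (l : ℕ) :
    q r p s (bb σ b₀ l) b₀ = ind (b₀ = bb σ b₀ l) := by
  unfold q
  by_cases ht : Tr p s (bb σ b₀ l)
  · rw [ind_neg (fun k => k ht), zero_mul, zero_add]
  · have ht' : ¬ Tr p s (bb σ b₀ l).symm := fun k => ht (by
      rw [← Dart.symm_symm (bb σ b₀ l)]
      exact k.symm)
    have h1 := side_symm hr ht'
    rw [Dart.symm_symm] at h1
    have h2 := face_const (hr (bb σ b₀ l).symm).inv (bb_same (σ := σ) b₀ l)
    rw [h2, h1, mul_zero, zero_add]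

/-- the sum over the whole face is one -/
theorem RR_all [Finite V] (hc : G.Connected) (hσ : PlaneMap G σ)
    (hp : Up G (fun v => - h v) s p) (hr : ∀ e, Side σ p s e (r e)) (b₀ : G.Dart) :
    ∃ n, 0 < n ∧ ∀ d, RR σ r p s b₀ n d = 1 := by
  classical
  have hfin : Finite G.Dart := by
    have := Fintype.ofFinite V
    infer_instance
  have hex : ∃ n, 0 < n ∧ bb σ b₀ n = b₀ := by
    refine ⟨orderOf (faceNext σ), orderOf_pos _, ?_⟩
    unfold bb
    rw [pow_orderOf_eq_one]
    rfl
  obtain ⟨hn0, hn1⟩ := Nat.find_spec hex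
  set n := Nat.find hex with hn
  have hmin : ∀ l, 0 < l → l < n → bb σ b₀ l ≠ b₀ := fun l h1 h2 h3 =>
    Nat.find_min hex h2 ⟨h1, h3⟩
  refine ⟨n, hn0, fun d => ?_⟩
  have h1 := const_of_inv hc hσ.cyc (RR σ r p s b₀ n) (fun d => by
    have h3 := RR_face hr b₀ n d
    rw [hn1, CharTwo.add_self_eq_zero] at h3
    exact CharTwo.add_eq_zero.1 h3) (fun d => by
    have h3 := RR_bd hσ hp hr b₀ n d
    rw [hn1, CharTwo.add_self_eq_zero] at h3
    exact (CharTwo.add_eq_zero.1 h3).symm) d b₀
  rw [h1]
  unfold RR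
  rw [Finset.sum_congr rfl fun l _ => q_base hr b₀ l]
  rw [Finset.sum_eq_single 0]
  · exact ind_pos rfl
  · intro l hl hl0
    refine ind_neg fun k => ?_
    exact hmin l (Nat.pos_of_ne_zero hl0) (Finset.mem_range.1 hl) k.symm
  · intro k
    exact absurd (Finset.mem_range.2 hn0) k

/-- **`RowSep`** -/
theorem rowSep : RowSep := by
  classical
  intro V _ G σ h s p hc hσ hp' A
  have := Fintype.ofFinite V
  have hp : Up G (fun v => - h v) s p := fun v hv => ⟨(hp' v hv).1, by
    have := (hp' v hv).2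
    linarith⟩
  set A' := A.erase s with hA'
  have hAA : A'.card ≤ A.card := Finset.card_erase_le
  -- components avoid the root
  have hoff : ∀ (a : Fin 3 → V) (v b : V), b ∈ compSet G (⋃ i, chain p s (a i)) v →
      b ∉ ⋃ i, chain p s (a i) := fun a v b hb => ReachOff.right hb
  have hroot : ∀ a : Fin 3 → V, s ∈ ⋃ i, chain p s (a i) := fun a =>
    Set.mem_iUnion.2 ⟨0, orb_top hp _⟩
  have hBA : ∀ (a : Fin 3 → V) (v : V) (B : Finset V), B ⊆ A →
      (∀ b ∈ B, b ∈ compSet G (⋃ i, chain p s (a i)) v) → B ⊆ A' := by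
    intro a v B hB hb x hx
    refine Finset.mem_erase.2 ⟨?_, hB hx⟩
    rintro rfl
    exact hoff a v _ (hb _ hx) (hroot a)
  rcases Nat.lt_or_ge A'.card 2 with hsmall | hbig
  · -- at most one vertex
    rcases Finset.eq_empty_or_nonempty A' with h0 | ⟨x, hx⟩
    · refine ⟨fun _ => s, fun v _ B hB hb => ?_⟩
      have h1 := hBA _ v B hB hb
      rw [h0, Finset.subset_empty] at h1
      rw [h1]
      simp
    · refine ⟨fun _ => x, fun v _ B hB hb => ?_⟩
      have h1 := hBA _ v B hB hb
      have h2 : B = ∅ := by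
        rw [Finset.eq_empty_iff_forall_notMem]
        intro y hy
        have h3 : y = x := Finset.card_le_one.1 (by omega) y (h1 hy) x hx
        exact hoff _ v y (hb y hy) (Set.mem_iUnion.2 ⟨0, by
          rw [h3]
          exact Relation.ReflTransGen.refl⟩)
      rw [h2]
      simp
  -- the darts
  have hne : ∀ v ∈ A', v ≠ s := fun v hv => (Finset.mem_erase.1 hv).1
  obtain ⟨x₀, hx₀⟩ : A'.Nonempty := Finset.card_pos.1 (by omega)
  have hex : ∀ v, ∃ d : G.Dart, v ≠ s → d.fst = v ∧ d.snd = p v := by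
    intro v
    by_cases hv : v = s
    · exact ⟨⟨(x₀, p x₀), (hp x₀ (hne x₀ hx₀)).1⟩, fun k => absurd hv k⟩
    · exact ⟨⟨(v, p v), (hp v hv).1⟩, fun _ => ⟨rfl, rfl⟩⟩
  choose δ hδ using hex
  choose r hr using fun e => exists_side hc hσ hp e
  let cnt : (G.Dart → ZMod 2) → ℕ := fun c => (A'.filter fun v => c (δ v) = 1).card
  have hcnt : ∀ c, cnt c = (A'.filter fun v => c (δ v) = 1).card := fun _ => rfl
  have hcn : ∀ c, cnt c ≤ A'.card := fun c => Finset.card_filter_le _ _
  have hflip : ∀ e, ¬ Tr p s e → cnt (r e) + cnt (r e.symm) = A'.card := by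
    intro e he
    rw [hcnt, hcnt, ← Finset.card_union_of_disjoint]
    · congr 1
      ext v
      rw [Finset.mem_union, Finset.mem_filter, Finset.mem_filter, side_flip hc hσ hp hr he]
      constructor
      · rintro (k | k) <;> exact k.1
      · intro k
        rcases zmod2_cases (r e (δ v)) with k' | k'
        · right
          exact ⟨k, by rw [k', add_zero]⟩
        · left
          exact ⟨k, k'⟩
    · rw [Finset.disjoint_filter]
      intro v _ k k'
      rw [side_flip hc hσ hp hr he, k] at k'
      exact absurd k' (by decide)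
  -- the central face
  obtain ⟨b₀, hb₀⟩ : ∃ b₀ : G.Dart, ∀ b, (faceNext σ).SameCycle b₀ b → ¬ Tr p s b →
      2 * cnt (r b.symm) ≤ A'.card := by
    let E : Set G.Dart := {e | ¬ Tr p s e ∧ 2 * cnt (r e) ≤ A'.card}
    rcases Set.eq_empty_or_nonempty E with hE | hE
    · refine ⟨δ x₀, fun b _ hb => ?_⟩
      exfalso
      have h1 : b ∉ E := by rw [hE]; exact Set.notMem_empty _
      have h2 : b.symm ∉ E := by rw [hE]; exact Set.notMem_empty _
      have hb' : ¬ Tr p s b.symm := fun k => hb (by rw [← Dart.symm_symm b]; exact k.symm)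
      have h3 := hflip b hb
      have h4 : A'.card < 2 * cnt (r b) := by
        by_contra k
        exact h1 ⟨hb, not_lt.1 k⟩
      have h5 : A'.card < 2 * cnt (r b.symm) := by
        by_contra k
        exact h2 ⟨hb', not_lt.1 k⟩
      omega
    · obtain ⟨e, ⟨he1, he2⟩, hmax⟩ := Set.exists_max_image E
        (fun e => (Finset.univ.filter fun d => r e d = 1).card) (Set.toFinite _) hE
      refine ⟨e.symm, fun b hb1 hb2 => ?_⟩
      by_cases hne : b = e.symm
      · rw [hne, Dart.symm_symm]
        exact he2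
      have hsub : ∀ d, r e d = 1 → r b d = 1 := fun d hd =>
        side_nested hc hσ hp hr he1 hb2 hb1 hne hd
      have h1 : b ∉ E := by
        intro hbE
        refine absurd (hmax b hbE) (not_le.2 (Finset.card_lt_card ⟨fun d hd => ?_, fun hc' => ?_⟩))
        · rw [Finset.mem_filter] at hd ⊢
          exact ⟨hd.1, hsub _ hd.2⟩
        · have h5 := hc' (Finset.mem_filter.2 ⟨Finset.mem_univ b, (hr b).one⟩)
          rw [Finset.mem_filter] at h5
          have h6 : r e b = 0 := by rw [← face_const (hr e).inv hb1, side_symm hr he1]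
          rw [h6] at h5
          exact absurd h5.2 (by decide)
      have h4 : A'.card < 2 * cnt (r b) := by
        by_contra k
        exact h1 ⟨hb2, not_lt.1 k⟩
      have h3 := hflip b hb2
      omega
  -- the weight of one dart of the face
  have hw : ∀ l, 2 * cnt (q r p s (bb σ b₀ l)) ≤ A'.card := by
    intro l
    by_cases ht : Tr p s (bb σ b₀ l)
    · have h1 : cnt (q r p s (bb σ b₀ l)) ≤ 1 := by
        rw [hcnt, Finset.card_le_one]
        have key : ∀ v ∈ A', q r p s (bb σ b₀ l) (δ v) = 1 → v = (bb σ b₀ l).fst := by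
          intro v hv k
          unfold q at k
          rw [ind_neg (fun k => k ht), zero_mul, zero_add] at k
          have k2 : δ v = bb σ b₀ l := ind_eq_one k
          rw [← k2]
          exact (hδ v (hne v hv)).1.symm
        intro v hv w hw'
        rw [Finset.mem_filter] at hv hw'
        rw [key v hv.1 hv.2, key w hw'.1 hw'.2]
      omega
    · have h1 : cnt (q r p s (bb σ b₀ l)) = cnt (r (bb σ b₀ l).symm) := by
        rw [hcnt, hcnt]
        congr 1
        refine Finset.filter_congr fun v hv => ?_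
        have hv' := hδ v (hne v hv)
        have h2 : δ v ≠ bb σ b₀ l := by
          intro k
          refine ht (Or.inl ?_)
          rw [← k, hv'.1, hv'.2]
          exact ⟨hne v hv, rfl⟩
        unfold q
        rw [ind_pos ht, one_mul, ind_neg h2, add_zero]
      rw [h1]
      exact hb₀ _ (bb_same b₀ l) ht
  -- the least prefix with more than one third
  obtain ⟨n, hn0, hn1⟩ := RR_all hc hσ hp hr b₀
  have hfull : cnt (RR σ r p s b₀ n) = A'.card := by
    rw [hcnt]
    congr 1
    rw [Finset.filter_eq_self]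
    intro v _
    exact hn1 _
  have hexj : ∃ j, A'.card < 3 * cnt (RR σ r p s b₀ (j + 1)) := by
    refine ⟨n - 1, ?_⟩
    rw [Nat.sub_add_cancel hn0, hfull]
    omega
  have hj1 := Nat.find_spec hexj
  set j := Nat.find hexj with hj
  have hj0 : 3 * cnt (RR σ r p s b₀ j) ≤ A'.card := by
    rcases Nat.eq_zero_or_pos j with k | k
    · have h1 : cnt (RR σ r p s b₀ j) = 0 := by
        rw [hcnt, Finset.card_eq_zero, Finset.filter_eq_empty_iff]
        intro v _ h2
        rw [k, RR_zero] at h2
        exact absurd h2 (by decide)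
      rw [h1]
      simp
    · have h1 := Nat.find_min hexj (m := j - 1) (by omega)
      rw [Nat.sub_add_cancel k] at h1
      omega
  -- the three chains
  refine ⟨![b₀.fst, (bb σ b₀ j).fst, (bb σ b₀ (j + 1)).fst], fun v hv B hB hb => ?_⟩
  set X : Set V := ⋃ i, chain p s (![b₀.fst, (bb σ b₀ j).fst, (bb σ b₀ (j + 1)).fst] i) with hX
  have c0 : chain p s b₀.fst ⊆ X := Set.subset_iUnion
    (fun i => chain p s (![b₀.fst, (bb σ b₀ j).fst, (bb σ b₀ (j + 1)).fst] i)) 0
  have c1 : chain p s (bb σ b₀ j).fst ⊆ X := Set.subset_iUnion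
    (fun i => chain p s (![b₀.fst, (bb σ b₀ j).fst, (bb σ b₀ (j + 1)).fst] i)) 1
  have c2 : chain p s (bb σ b₀ (j + 1)).fst ⊆ X := Set.subset_iUnion
    (fun i => chain p s (![b₀.fst, (bb σ b₀ j).fst, (bb σ b₀ (j + 1)).fst] i)) 2
  have f1 := RR_flat hσ hp hr b₀ j c0 c1
  have f2 := RR_flat hσ hp hr b₀ (j + 1) c0 c2
  have hBA' := hBA _ v B hB hb
  rcases Finset.eq_empty_or_nonempty B with h0 | ⟨x, hx⟩
  · rw [h0]
    simp
  have hsame : ∀ c, Flat σ X c → ∀ y ∈ B, c (δ y) = c (δ x) := by
    intro c hfc y hy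
    have h1 : ReachOff G X y x := ReachOff.trans (ReachOff.symm (hb y hy)) (hb x hx)
    exact hfc.reach hσ h1 (hδ y (hne y (hBA' hy))).1 (hδ x (hne x (hBA' hx))).1
  have hle : ∀ c : G.Dart → ZMod 2, (∀ y ∈ B, c (δ y) = 1) → B.card ≤ cnt c := by
    intro c hcy
    refine Finset.card_le_card fun y hy => ?_
    exact Finset.mem_filter.2 ⟨hBA' hy, hcy y hy⟩
  rcases zmod2_cases (RR σ r p s b₀ j (δ x)) with k1 | k1
  · rcases zmod2_cases (RR σ r p s b₀ (j + 1) (δ x)) with k2 | k2
    · -- outside of both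
      have h1 : B.card + cnt (RR σ r p s b₀ (j + 1)) ≤ A'.card := by
        rw [hcnt, ← Finset.card_union_of_disjoint]
        · refine Finset.card_le_card (Finset.union_subset hBA' (Finset.filter_subset _ _))
        · rw [Finset.disjoint_left]
          intro y hy hy'
          rw [Finset.mem_filter, hsame _ f2 y hy, k2] at hy'
          exact absurd hy'.2 (by decide)
      omega
    · -- behind the last dart
      have h1 := hle (q r p s (bb σ b₀ j)) fun y hy => by
        have e1 := RR_succ (σ := σ) (r := r) (p := p) (s := s) b₀ j (δ y)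
        rw [hsame _ f2 y hy, hsame _ f1 y hy, k1, k2, zero_add] at e1
        exact e1.symm
      have h2 := hw j
      omega
  · have h1 := hle (RR σ r p s b₀ j) fun y hy => by rw [hsame _ f1 y hy, k1]
    omega

end main

end Vale.Agent.P235.SqR
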