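import Vale.Agent.P235.R2.H802.T4
import Vale.Agent.P235.R2.H802.Sep2
import Vale.Agent.P235.R2.H718.S3
import Vale.Agent.P235.R2.H341.Y1
import Vale.Agent.P235.R2.H105.Const

/-!
# The tight vertex form from the leaves (helper802; pieces: 341, 718, 105)
-/

set_option linter.all false

namespace Vale.Agent.P235.SqR

open Vale.Agent.P235 Vale.Agent.P235.Red Vale.Agent.P235.H341W Vale.Agent.P235.H718
  Vale.Agent.P235.R2.H105.Const

/-- the leaves: a component of the complement of the chains of `S` without point of `B` -/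
def LeafRow (K₁ : ℝ) : Prop :=
  ∀ {C : ℝ}, 1 ≤ C → MStarLL C → ∀ (V : Type) [Finite V] (G : SimpleGraph V)
    (σ : Equiv.Perm G.Dart) (ℓ : Sym2 V → ℝ) (h : V → ℝ) (s : V) (p : V → V) (B S : Finset V),
    G.Connected → PlaneMap G σ → (∀ e ∈ G.edgeSet, 0 < ℓ e) →
    (∀ u v, G.Adj u v → |h u - h v| ≤ ℓ s(u, v)) →
    (∀ v, v ≠ s → G.Adj v (p v) ∧ ℓ s(v, p v) = h v - h (p v)) →
    (∀ v, v ∉ B → ∃ u, G.Adj v u ∧ ℓ s(v, u) = h u - h v) →
    ∀ v ∉ UC p s S, (∀ a ∈ B, a ∉ compSet G (UC p s S) v) →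
      ∃ (W' : Type) (G' : SimpleGraph W') (ℓ' : Sym2 W' → ℝ)
        (κ : compSet G (UC p s S) v → W'),
        H341W.Piece G ℓ (compSet G (UC p s S) v) G' ℓ' κ ∧
        EmbedsL1 (pathDist G' ℓ')
          (K₁ * C * ((ll (Nat.card V) : ℝ) + 1 + Real.log ((S.card : ℝ) + 4)))

/-- chains are isometric -/
theorem chain_iso {V : Type} [Finite V] {G : SimpleGraph V} {ℓ : Sym2 V → ℝ} {h : V → ℝ} {s : V}
    {p : V → V} (hc : G.Connected) (hℓ : ∀ e ∈ G.edgeSet, 0 < ℓ e)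
    (hp : ∀ v, v ≠ s → G.Adj v (p v) ∧ ℓ s(v, p v) = h v - h (p v)) (c : V) :
    ∀ a ∈ chain p s c, ∀ b ∈ chain p s c, pathDist G ℓ a b ≤ |h a - h b| := by
  have key : ∀ a b, Orb p s a b → pathDist G ℓ a b ≤ h a - h b := by
    intro a b hab
    induction hab with
    | refl => rw [pd_self hℓ]; simp
    | @tail b c _ hbc ih =>
      obtain ⟨hb, rfl⟩ := hbc
      have h1 := pd_tri hc hℓ a b (p b)
      have h2 := pd_adj hℓ (hp b hb).1
      rw [(hp b hb).2] at h2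
      linarith
  intro a ha b hb
  rcases Orb.total ha hb with k | k
  · exact (key a b k).trans (le_abs_self _)
  · rw [pd_comm hc hℓ, abs_sub_comm]
    exact (key b a k).trans (le_abs_self _)

/-- **the tight vertex form** -/
theorem coreT_of_leaf {K₁ : ℝ} (hK₁ : 1 ≤ K₁) (hleaf : LeafRow K₁) : CoreT (10 ^ 9 * K₁) := by
  classical
  intro C hC hM V _ G σ ℓ h s B hc hP hℓ h1 hlow hhigh
  have := Fintype.ofFinite V
  have hp0 : ∀ v, ∃ u, v ≠ s → G.Adj v u ∧ ℓ s(v, u) = h v - h u := by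
    intro v
    by_cases hv : v = s
    · exact ⟨v, fun k => absurd hv k⟩
    · obtain ⟨u, hu⟩ := hlow v hv
      exact ⟨u, fun _ => hu⟩
  choose p hp using hp0
  have hlt : ∀ v, v ≠ s → G.Adj v (p v) ∧ h (p v) < h v := by
    intro v hv
    obtain ⟨k1, k2⟩ := hp v hv
    have k3 := hℓ _ (G.mem_edgeSet.2 k1)
    exact ⟨k1, by linarith⟩
  have hu : ∀ a b, |h a - h b| ≤ pathDist G ℓ a b := pathDist_gen hc h1
  have hsep : Seps G p s := rowSep V G σ h s p hc hP hlt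
  have hiso := chain_iso hc hℓ hp
  have hB : B.card ≤ Nat.card V := by
    rw [Nat.card_eq_fintype_card]
    exact Finset.card_le_univ _
  set n := Nat.card V with hn
  set k := rounds B.card with hk
  have hll : (0 : ℝ) ≤ (ll n : ℝ) := Nat.cast_nonneg _
  set L : ℝ := K₁ * C * ((ll n : ℝ) + 1 + Real.log (((3 * k + 2 : ℕ) : ℝ) + 2)) with hL
  have hlog0 : 0 ≤ Real.log (((3 * k + 2 : ℕ) : ℝ) + 2) := Real.log_nonneg (by
    have : (0 : ℝ) ≤ ((3 * k + 2 : ℕ) : ℝ) := Nat.cast_nonneg _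
    linarith)
  have hKC : 1 ≤ K₁ * C := by nlinarith
  have hL1 : 1 ≤ L := by
    have : 1 ≤ (ll n : ℝ) + 1 + Real.log (((3 * k + 2 : ℕ) : ℝ) + 2) := by linarith
    rw [hL]
    nlinarith
  have hK : (0 : ℝ) < 96 * L + 112 := by linarith
  have hPt : ∀ H : V → ℝ, (∀ v, 0 < H v) → (∀ u v, G.Adj u v → |H u - H v| ≤ ℓ s(u, v)) →
      Pointed2D G ℓ H (pathDist G ℓ) (4 * k) (96 * L + 112) := by
    intro H hH hHl
    refine pointed2_of_seps hc hℓ hu hsep hiso B hK.le k (rounds_ok B.card) ?_ hH hHl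
    intro S hS v hv hno
    obtain ⟨W', G', ℓ', κ, hpc, hE⟩ := hleaf hC hM V G σ ℓ h s p B S hc hP hℓ h1 hp
      hhigh v hv hno
    have := hpc.fin
    refine ⟨W', G', ℓ', κ, hpc, fun H' hH' hHl' => ?_⟩
    refine pointed_leafW (by linarith) hpc.conn hpc.pos hH' hHl' ?_
    obtain ⟨Ω, m, μ, f, hf⟩ := hE
    refine ⟨Ω, m, μ, f, fun x y => ⟨(hf x y).1, (hf x y).2.trans ?_⟩⟩
    refine mul_le_mul_of_nonneg_right ?_ (pd_nonneg hpc.pos x y)
    have k1 : Real.log ((S.card : ℝ) + 4) ≤ Real.log (((3 * k + 2 : ℕ) : ℝ) + 2) := by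
      refine Real.log_le_log (by positivity) ?_
      have k2 : (S.card : ℝ) ≤ 3 * k := by exact_mod_cast hS
      push_cast
      linarith
    exact mul_le_mul_of_nonneg_left (by linarith) (by linarith)
  have hE := pointed2D_embeds (k := 4 * (k : ℝ)) (by positivity) hK hc hℓ hPt
  obtain ⟨Ω, m, μ, f, hf⟩ := hE
  refine ⟨Ω, m, μ, f, fun x y => ⟨(hf x y).1, (hf x y).2.trans ?_⟩⟩
  refine mul_le_mul_of_nonneg_right ?_ (pd_nonneg hℓ x y)
  have ht := total_le (b := B.card) (n := n) (n' := n) (m := 3 * k + 2) le_rfl hB le_rfl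
    (K := K₁ * C) (c := 1) (by linarith) (by norm_num)
  have e1 : ((4 * rounds B.card : ℕ) : ℝ) = 4 * (k : ℝ) := by
    rw [hk]
    push_cast
    ring
  rw [e1] at ht
  have e2 : ((Nat.log 2 (Nat.log 2 n + 1) : ℕ) : ℝ) = (ll n : ℝ) := rfl
  rw [e2] at ht
  have k3 := Real.sqrt_nonneg (Real.log ((B.card : ℝ) + 2))
  have k4 := Real.sqrt_nonneg (4 * (k : ℝ))
  have k5 : 1 * (L + √(4 * (k : ℝ))) ≤
      5 * 1 * (K₁ * C + 1) * ((ll n : ℝ) + 1 + √(Real.log ((B.card : ℝ) + 2))) := ht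
  have k6 : (K₁ * C + 1) * ((ll n : ℝ) + 1 + √(Real.log ((B.card : ℝ) + 2))) ≤
      (2 * (K₁ * C)) * ((ll n : ℝ) + 1 + √(Real.log ((B.card : ℝ) + 2))) :=
    mul_le_mul_of_nonneg_right (by linarith) (by linarith)
  have k7 : 1 ≤ (ll n : ℝ) + 1 + √(Real.log ((B.card : ℝ) + 2)) := by linarith
  nlinarith

end Vale.Agent.P235.SqR
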