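import Vale.Agent.P235.R2.H802.SqRound

/-!
# Rounds of lanes, square root form: the theorem (helper802, after helper105 and helper341)
-/

set_option linter.all false

namespace Vale.Agent.P235.SqR

open Finset Vale.Agent.P235 H206 H536 H341W

/-- the square root of a finite sum of squares satisfies the triangle inequality -/
theorem sq_tri {V : Type} {N : V → V → ℝ} (h : IsSq N) (x y z : V) :
    √(N x z) ≤ √(N x y) + √(N y z) := by
  classical
  obtain ⟨ι, _, w, g, hw, h⟩ := h
  let Φ : V → EuclideanSpace ℝ ι := fun x => WithLp.toLp 2 fun i => √(w i) * g i x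
  have key : ∀ x y, √(N x y) = dist (Φ x) (Φ y) := by
    intro x y
    rw [EuclideanSpace.dist_eq, h]
    congr 1
    refine Finset.sum_congr rfl fun i _ => ?_
    show _ = dist (√(w i) * g i x) (√(w i) * g i y) ^ 2
    rw [Real.dist_eq, sq_abs, ← mul_sub, mul_pow, Real.sq_sqrt (hw i)]
  rw [key, key, key]
  exact dist_triangle _ _ _

theorem sq_walk {V : Type} {G : SimpleGraph V} {ℓ : Sym2 V → ℝ} {N : V → V → ℝ} (h : IsSq N)
    (hc : G.Connected) (hℓ : ∀ e ∈ G.edgeSet, 0 < ℓ e) {k : ℝ} (hk : 0 ≤ k)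
    (hN : ∀ u v, G.Adj u v → N u v ≤ k * ℓ s(u, v) ^ 2) (x y : V) :
    √(N x y) ≤ √k * pathDist G ℓ x y := by
  have h0 : ∀ u v, G.Adj u v → √(N u v) ≤ √k * ℓ s(u, v) := by
    intro u v huv
    have hl0 := hℓ s(u, v) huv
    refine (Real.sqrt_le_sqrt (hN u v huv)).trans (le_of_eq ?_)
    rw [Real.sqrt_mul hk, Real.sqrt_sq hl0.le]
  rcases (Real.sqrt_nonneg k).lt_or_eq with hK' | hK'
  · exact pathDist_semi (G := G) (ℓ := ℓ) (ρ := fun x y => √(N x y)) hc hK'
      (fun x => by rw [h.self, Real.sqrt_zero]) (fun x y z => sq_tri h x y z) h0 x y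
  · rw [← hK'] at h0 ⊢
    rw [zero_mul]
    have key : ∀ x y, G.Walk x y → √(N x y) ≤ 0 := by
      intro x y p
      induction p with
      | nil => rw [h.self, Real.sqrt_zero]
      | @cons x z y hxz p ih =>
        have q1 := h0 x z hxz
        have q2 := sq_tri h x z y
        rw [zero_mul] at q1
        linarith
    obtain ⟨p⟩ := hc.preconnected x y
    exact key _ _ p

/-- a piece which is served serves the component -/
theorem piece_stepQ {V : Type} [Finite V] {G : SimpleGraph V} {ℓ : Sym2 V → ℝ}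
    (hc : G.Connected) (hℓ : ∀ e ∈ G.edgeSet, 0 < ℓ e) {P : Set V} {u : V} (hu : u ∉ P) {W : Type}
    {G' : SimpleGraph W} {ℓ' : Sym2 W → ℝ} {κ : compSet G P u → W}
    (hp : H341W.Piece G ℓ (compSet G P u) G' ℓ' κ) {k K : ℝ} (hk : 0 ≤ k) (hK : 0 ≤ K)
    (h : ∀ H : W → ℝ, (∀ v, 0 < H v) → (∀ u v, G'.Adj u v → |H u - H v| ≤ ℓ' s(u, v)) →
      PointedQ G' ℓ' H (pathDist G' ℓ') k K) : StepQ G ℓ P u k K := by
  classical
  intro φ hφ0 hφP hφl
  have := hp.fin
  have hd := pathDist_isMet hc hℓ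
  have hd' := pathDist_isMet hp.conn hp.pos
  have hne : Nonempty (compSet G P u) := ⟨⟨u, ReachOff.refl hu⟩⟩
  have hfin : Fintype (compSet G P u) := Fintype.ofFinite _
  have hφd : ∀ x y, |φ x - φ y| ≤ pathDist G ℓ x y := pathDist_gen hc hφl
  have hpos : ∀ a : compSet G P u, 0 < φ a.1 := fun a => hφP a.1 (ReachOff.right a.2)
  -- a positive lower bound of `φ`
  obtain ⟨a0, -, ha0⟩ := Finset.exists_min_image (Finset.univ : Finset (compSet G P u))
    (fun a => φ a.1) Finset.univ_nonempty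
  -- the extension of `φ`
  let M : W → ℝ := fun w => Finset.univ.sup' Finset.univ_nonempty
    fun a : compSet G P u => φ a.1 - pathDist G' ℓ' (κ a) w
  have hM1 : ∀ a w, φ a.1 - pathDist G' ℓ' (κ a) w ≤ M w := fun a w =>
    Finset.le_sup' (fun a : compSet G P u => φ a.1 - pathDist G' ℓ' (κ a) w) (Finset.mem_univ a)
  have hM2 : ∀ w, ∃ a, M w = φ a.1 - pathDist G' ℓ' (κ a) w := by
    intro w
    obtain ⟨a, -, ha⟩ := Finset.exists_mem_eq_sup' Finset.univ_nonempty
      fun a : compSet G P u => φ a.1 - pathDist G' ℓ' (κ a) w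
    exact ⟨a, ha⟩
  have hMκ : ∀ b, M (κ b) = φ b.1 := by
    intro b
    apply le_antisymm
    · obtain ⟨a, ha⟩ := hM2 (κ b)
      rw [ha]
      have h1 := hp.far a b
      have h2 := (le_abs_self _).trans (hφd a.1 b.1)
      linarith
    · have h1 := hM1 b (κ b)
      rw [hd'.self, sub_zero] at h1
      exact h1
  have hMl : ∀ w w', M w - M w' ≤ pathDist G' ℓ' w w' := by
    intro w w'
    obtain ⟨a, ha⟩ := hM2 w
    have h1 := hM1 a w'
    have h2 := hd'.tri (κ a) w w'
    linarith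
  obtain ⟨N, σ, h0, h1, h2, h3, h4, h5⟩ := h (fun w => max (φ a0.1) (M w))
    (fun w => lt_max_of_lt_left (hpos a0)) (fun w w' hw => by
      refine (abs_max_sub_max_le_max _ _ _ _).trans (max_le ?_ ?_)
      · rw [sub_self, abs_zero]
        exact (hp.pos _ hw).le
      · refine le_trans ?_ (pathDist_adj hp.pos hw)
        rw [abs_le]
        have h1 := hMl w w'
        have h2 := hMl w' w
        rw [hd'.symm w' w] at h2
        constructor <;> linarith)
  have hHκ : ∀ b : compSet G P u, max (φ a0.1) (M (κ b)) = φ b.1 := by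
    intro b
    rw [hMκ, max_eq_right (ha0 b (Finset.mem_univ b))]
  refine ⟨fun a b => N (a.map κ) (b.map κ), fun a b => σ (a.map κ) (b.map κ), h0.comap _,
    h1.comap _, ?_, ?_, ?_, ?_⟩
  · intro a b hab
    have hs := hp.short a b hab
    constructor
    · have e1 := sq_walk (N := fun x y => N (some x) (some y)) (h0.comap some) hp.conn hp.pos hk
        (fun x y hxy => (h2 x y hxy).1) (κ a) (κ b)
      have e2 : √(N (some (κ a)) (some (κ b))) ≤ √k * ℓ s(a.1, b.1) :=
        e1.trans (mul_le_mul_of_nonneg_left hs (Real.sqrt_nonneg _))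
      have e3 := pow_le_pow_left₀ (Real.sqrt_nonneg _) e2 2
      rw [Real.sq_sqrt (h0.nonneg _ _), mul_pow, Real.sq_sqrt hk] at e3
      exact e3
    -- the bound with `K` itself
    · have e2 : σ (some (κ a)) (some (κ b)) ≤ K * pathDist G' ℓ' (κ a) (κ b) := by
        rcases hK.lt_or_eq with hK' | hK'
        · exact pathDist_semi (G := G') (ℓ := ℓ') (ρ := fun x y => σ (some x) (some y))
            hp.conn hK' (fun x => h1.self _) (fun x y z => h1.tri _ _ _)
            (fun x y hxy => (h2 x y hxy).2) _ _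
        · rw [← hK'] at h2 ⊢
          rw [zero_mul]
          have key : ∀ x y, G'.Walk x y → σ (some x) (some y) ≤ 0 := by
            intro x y p
            induction p with
            | nil => exact (h1.self _).le
            | @cons x z y hxz p ih =>
              have q1 := (h2 x z hxz).2
              have q2 := h1.tri (some x) (some z) (some y)
              rw [zero_mul] at q1
              linarith
          obtain ⟨p⟩ := hp.conn.preconnected (κ a) (κ b)
          exact key _ _ p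
      exact e2.trans (mul_le_mul_of_nonneg_left hs hK)
  · intro a
    have h6 := h3 (κ a)
    beta_reduce at h6
    rw [hHκ] at h6
    exact h6
  · intro a
    have h6 := h4 (κ a)
    beta_reduce at h6
    rw [hHκ] at h6
    exact h6
  · intro a b δ hδ ha hb hab
    exact h5 (κ a) (κ b) δ hδ (by beta_reduce; rw [hHκ]; exact ha)
      (by beta_reduce; rw [hHκ]; exact hb) (hab.trans (hp.far a b))

/-- `LRounds Q s k G ℓ`: at most `k` rounds, each of which deletes from every piece a nonempty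
union of at most `s` lanes, lead to weighted graphs of the class `Q`. After the deletion of `X`
every component of `G - X` is replaced by any `Piece` of `(G, ℓ)` for this component. -/
inductive LRounds (Q : ∀ (V : Type), SimpleGraph V → (Sym2 V → ℝ) → Prop) (s : ℕ) :
    ℕ → ∀ {V : Type}, SimpleGraph V → (Sym2 V → ℝ) → Prop
  | leaf {k : ℕ} {V : Type} {G : SimpleGraph V} {ℓ : Sym2 V → ℝ} : Q V G ℓ → LRounds Q s k G ℓ
  | lanes {k : ℕ} {V : Type} {G : SimpleGraph V} {ℓ : Sym2 V → ℝ} {X : Set V} {W : V → Type}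
      {G' : ∀ u, SimpleGraph (W u)} {ℓ' : ∀ u, Sym2 (W u) → ℝ} {κ : ∀ u, compSet G X u → W u} :
      X.Nonempty → Lanes G ℓ s X →
      (∀ u ∉ X, H341W.Piece G ℓ (compSet G X u) (G' u) (ℓ' u) (κ u)) →
      (∀ u ∉ X, LRounds Q s k (G' u) (ℓ' u)) → LRounds Q s (k + 1) G ℓ

/-- the rounds, pointed form -/
theorem lrounds_pointed {Q : ∀ (V : Type), SimpleGraph V → (Sym2 V → ℝ) → Prop} {C : ℝ}
    (hC : 0 < C)
    (hQ : ∀ (V : Type) [Finite V] (G : SimpleGraph V) (ℓ : Sym2 V → ℝ), G.Connected →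
      (∀ e ∈ G.edgeSet, 0 < ℓ e) → Q V G ℓ → EmbedsL1 (pathDist G ℓ) C)
    {s k : ℕ} {V : Type} {G : SimpleGraph V}
    {ℓ : Sym2 V → ℝ} (h : LRounds Q s k G ℓ) : Finite V → G.Connected →
      (∀ e ∈ G.edgeSet, 0 < ℓ e) → ∀ H : V → ℝ, (∀ v, 0 < H v) →
      (∀ u v, G.Adj u v → |H u - H v| ≤ ℓ s(u, v)) →
      PointedQ G ℓ H (pathDist G ℓ) (k * (24 * ((Nat.log 2 s + 1 : ℕ) : ℝ) ^ 2))
        (96 * C + 112) := by
  induction h with
  | @leaf k V G ℓ hD =>
    intro _ hc hℓ H hH hHl
    exact (pointedQ_of (pointed_iff.2 (pointed_leafW hC hc hℓ hH hHl (hQ V G ℓ hc hℓ hD)))).mono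
      (by positivity)
  | @lanes k V G ℓ X W G' ℓ' κ hX hR hp _ ih =>
    intro hfin hc hℓ H hH hHl
    obtain ⟨u, n, L, hns, hu, hne, hiso, rfl⟩ := hR
    have hn : 0 < n := by
      obtain ⟨x, hx⟩ := hX
      obtain ⟨i, _⟩ := Set.mem_iUnion.1 hx
      exact i.pos
    have h1 := pointedQ_step hc hℓ hH hHl hn hns hne hu hiso
      (k := k * (24 * ((Nat.log 2 s + 1 : ℕ) : ℝ) ^ 2)) (K := 96 * C + 112) (by positivity)
      (by positivity) fun v hv => piece_stepQ hc hℓ hv (hp v hv) (by positivity) (by positivity)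
        fun H' hH' hHl' => ih v hv (hp v hv).fin (hp v hv).conn (hp v hv).pos H' hH' hHl'
    refine h1.mono (le_of_eq ?_)
    push_cast
    ring

/-- **`k` rounds, each of which deletes at most `s` lanes, leaves of distortion `C`: distortion
`O(C + √k log s)`** -/
theorem lrounds_distortion (Q : ∀ (V : Type), SimpleGraph V → (Sym2 V → ℝ) → Prop) {C : ℝ}
    (hC : 1 ≤ C)
    (hQ : ∀ (V : Type) [Finite V] (G : SimpleGraph V) (ℓ : Sym2 V → ℝ), G.Connected →
      (∀ e ∈ G.edgeSet, 0 < ℓ e) → Q V G ℓ → EmbedsL1 (pathDist G ℓ) C)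
    (s k : ℕ) (V : Type) [Finite V] (G : SimpleGraph V) (ℓ : Sym2 V → ℝ) (hc : G.Connected)
    (hℓ : ∀ e ∈ G.edgeSet, 0 < ℓ e) (h : LRounds Q s k G ℓ) :
    EmbedsL1 (pathDist G ℓ)
      (160000 * √k * ((Nat.log 2 s + 1 : ℕ) : ℝ) + 16000 * (96 * C + 112)) := by
  have := Fintype.ofFinite V
  have hd := pathDist_isMet hc hℓ
  have hC0 : 0 < C := by linarith
  set m : ℝ := ((Nat.log 2 s + 1 : ℕ) : ℝ) with hmdef
  have hm0 : 0 ≤ m := Nat.cast_nonneg _
  obtain ⟨R, hR0, hR⟩ : ∃ R : ℝ, 0 < R ∧ ∀ x y, pathDist G ℓ x y ≤ R := by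
    refine ⟨∑ x, ∑ y, pathDist G ℓ x y + 1, ?_, ?_⟩
    · have : 0 ≤ ∑ x, ∑ y, pathDist G ℓ x y :=
        Finset.sum_nonneg fun x _ => Finset.sum_nonneg fun y _ => hd.nonneg x y
      linarith
    intro x y
    have e1 : pathDist G ℓ x y ≤ ∑ y, pathDist G ℓ x y :=
      Finset.single_le_sum (f := fun y => pathDist G ℓ x y) (fun y _ => hd.nonneg x y)
        (Finset.mem_univ y)
    have e2 : ∑ y, pathDist G ℓ x y ≤ ∑ x, ∑ y, pathDist G ℓ x y :=
      Finset.single_le_sum (f := fun x => ∑ y, pathDist G ℓ x y)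
        (fun x _ => Finset.sum_nonneg fun y _ => hd.nonneg x y) (Finset.mem_univ x)
    linarith
  obtain ⟨N, σ, hN, h1, h2, -, -, h5⟩ := lrounds_pointed hC0 hQ h inferInstance hc hℓ (fun _ => R)
    (fun _ => hR0) (fun u v huv => by
      rw [sub_self, abs_zero]; exact (hℓ _ huv).le)
  obtain ⟨F, hF, hFN⟩ := hN.toL1
  have hK : 0 < 160000 * √(k : ℝ) * m + 16000 * (96 * C + 112) := by positivity
  have hI := ((hF.comap (some : V → Option V)).smul (by norm_num : (0 : ℝ) ≤ 32000)).add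
    ((h1.comap (some : V → Option V)).smul (by norm_num : (0 : ℝ) ≤ 16000))
  refine hI.embeds (fun x y => ?_) (pathDist_semi hc hK (fun x => hI.self x)
    (fun x y z => hI.tri x y z) fun u v huv => ?_)
  · show pathDist G ℓ x y ≤ 32000 * F (some x) (some y) + 16000 * σ (some x) (some y)
    have nF := hF.nonneg (some x) (some y)
    have nσ := h1.nonneg (some x) (some y)
    rcases (hd.nonneg x y).eq_or_lt with h0 | h0
    · linarith
    rcases h5 x y (pathDist G ℓ x y / 8) (by linarith) (by linarith [hR x y])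
      (by linarith [hR x y]) (by linarith) with h6 | h6
    · have h7 := (hFN (some x) (some y)).2
      have h8 : pathDist G ℓ x y / 8 ≤ 2000 * √(N (some x) (some y)) := by
        have e : 2000 * √(N (some x) (some y)) = √(4000000 * N (some x) (some y)) := by
          rw [Real.sqrt_mul (by norm_num), show (4000000 : ℝ) = 2000 ^ 2 by norm_num,
            Real.sqrt_sq (by norm_num)]
        rw [e]
        exact Real.le_sqrt_of_sq_le h6
      linarith
    · linarith
  · have hl0 := hℓ s(u, v) huv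
    have h6 := h2 u v huv
    have h7 := (hFN (some u) (some v)).1
    have h8 : √(N (some u) (some v)) ≤ 5 * √(k : ℝ) * m * ℓ s(u, v) := by
      have e1 : (k : ℝ) * (24 * m ^ 2) * ℓ s(u, v) ^ 2 ≤ (5 * √(k : ℝ) * m * ℓ s(u, v)) ^ 2 := by
        have e2 : (5 * √(k : ℝ) * m * ℓ s(u, v)) ^ 2 = 25 * (√(k : ℝ)) ^ 2 * m ^ 2 * ℓ s(u, v) ^ 2 := by
          ring
        rw [e2, Real.sq_sqrt (Nat.cast_nonneg k)]
        have e3 : 0 ≤ (k : ℝ) * m ^ 2 * ℓ s(u, v) ^ 2 := by positivity
        nlinarith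
      exact (Real.sqrt_le_left (by positivity)).2 (h6.1.trans e1)
    show 32000 * F (some u) (some v) + 16000 * σ (some u) (some v) ≤ _
    have h9 := h6.2
    nlinarith

end Vale.Agent.P235.SqR
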