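/-
P235-M (helper802).  Genus inequality and face labels.
-/
import Vale.Agent.P235.R2.H802.Defs
import Vale.Agent.P235.H105.PlaneCycle

set_option linter.unusedSectionVars false
set_option linter.unusedDecidableInType false
set_option linter.unusedFintypeInType false

namespace Vale.Agent.P235.Tight

open SimpleGraph Finset Module

variable {V : Type} {G : SimpleGraph V}

theorem fin_dart [Finite V] : Finite G.Dart :=
  Finite.of_injective (fun d : G.Dart => d.toProd) fun _ _ h => Dart.ext _ _ h

/-- **Genus inequality.** -/
theorem genus' [Fintype V] [DecidableEq V] [Fintype G.Dart] [DecidableEq G.Dart]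
    (hc : G.Connected) {σ : Equiv.Perm G.Dart} (fst : ∀ d, (σ d).fst = d.fst)
    (cyc : ∀ d d' : G.Dart, d.fst = d'.fst → σ.SameCycle d d') :
    Nat.card V + Nat.card (Quotient (Equiv.Perm.SameCycle.setoid (faceNext σ))) ≤
      Nat.card G.edgeSet + 2 := by
  classical
  set F := Quotient (Equiv.Perm.SameCycle.setoid (faceNext σ))
  have : Fintype F := Fintype.ofFinite F
  have hmk : ∀ d, (Quotient.mk _ (faceNext σ d) : F) = Quotient.mk _ d := fun d =>
    Quotient.sound (Equiv.Perm.sameCycle_apply_left.2 (Equiv.Perm.SameCycle.refl _ _))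
  let D : (F → ZMod 2) →ₗ[ZMod 2] symSub G :=
    { toFun := fun u => ⟨fun d => u (Quotient.mk _ d) + u (Quotient.mk _ d.symm), fun d => by
        show u (Quotient.mk _ d.symm) + u (Quotient.mk _ d.symm.symm) = _
        rw [Dart.symm_symm, add_comm]⟩
      map_add' := fun u v => by
        ext d
        show (u _ + v _) + (u _ + v _) = (u _ + u _) + (v _ + v _)
        ring
      map_smul' := fun c u => by
        ext d
        show c * u _ + c * u _ = c * (u _ + u _)
        ring }
  have hDB : LinearMap.range D ≤ LinearMap.ker (bdV G) := by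
    rintro _ ⟨u, rfl⟩
    rw [LinearMap.mem_ker]
    ext v
    show ∑ d : G.Dart with d.fst = v, (u (Quotient.mk _ d) + u (Quotient.mk _ d.symm)) = 0
    rw [Finset.sum_add_distrib]
    have e1 : (∑ d : G.Dart with d.fst = v, u (Quotient.mk _ d.symm)) =
        ∑ d : G.Dart with d.fst = v, u (Quotient.mk _ d) := by
      refine Finset.sum_bij (fun (d : G.Dart) _ => σ d) ?_ ?_ ?_ ?_
      · intro d hd
        rw [Finset.mem_filter] at hd ⊢
        exact ⟨Finset.mem_univ _, (fst d).trans hd.2⟩
      · intro a _ b _ hab
        exact σ.injective hab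
      · intro b hb
        rw [Finset.mem_filter] at hb
        refine ⟨σ⁻¹ b, ?_, Equiv.apply_symm_apply _ _⟩
        rw [Finset.mem_filter]
        refine ⟨Finset.mem_univ _, ?_⟩
        rw [← fst, show σ (σ⁻¹ b) = b from Equiv.apply_symm_apply _ _]
        exact hb.2
      · intro d _
        have h1 := hmk d.symm
        rw [faceNext_apply, Dart.symm_symm] at h1
        rw [h1]
    rw [e1, CharTwo.add_self_eq_zero]
  have hker : finrank (ZMod 2) (LinearMap.ker D) ≤ 1 := by
    have h1 : LinearMap.ker D ≤ Submodule.span (ZMod 2) {(fun _ => 1 : F → ZMod 2)} := by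
      intro u hu
      rw [LinearMap.mem_ker] at hu
      have h2 : ∀ d : G.Dart, u (Quotient.mk _ d.symm) = u (Quotient.mk _ d) := fun d => by
        have h3 : u (Quotient.mk _ d) + u (Quotient.mk _ d.symm) = 0 :=
          congrFun (congrArg Subtype.val hu) d
        have h4 := CharTwo.add_eq_zero.1 h3
        exact h4.symm
      have h3 := const_of_inv hc cyc (fun d => u (Quotient.mk _ d : F))
        (fun d => by rw [hmk]) h2
      rw [Submodule.mem_span_singleton]
      by_cases hF : Nonempty F
      · obtain ⟨f0⟩ := hF
        refine ⟨u f0, ?_⟩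
        ext f
        induction f using Quotient.ind with
        | _ d =>
          induction f0 using Quotient.ind with
          | _ d0 =>
            show u _ * 1 = u _
            rw [mul_one]
            exact h3 d0 d
      · refine ⟨0, ?_⟩
        ext f
        exact absurd ⟨f⟩ hF
    refine (Submodule.finrank_mono h1).trans ((finrank_span_le_card _).trans ?_)
    simp
  have r1 := LinearMap.finrank_range_add_finrank_ker (bdV G)
  have r2 := finrank_symSub (G := G)
  have r3 := card_le_range hc
  have r4 := LinearMap.finrank_range_add_finrank_ker D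
  rw [finrank_fintype_fun_eq_card] at r4
  rw [Nat.card_eq_fintype_card, Nat.card_eq_fintype_card (α := F)]
  have r5 := Submodule.finrank_mono hDB
  omega

theorem genus [Finite V] (hc : G.Connected) {σ : Equiv.Perm G.Dart}
    (fst : ∀ d, (σ d).fst = d.fst)
    (cyc : ∀ d d' : G.Dart, d.fst = d'.fst → σ.SameCycle d d') :
    Nat.card V + Nat.card (Quotient (Equiv.Perm.SameCycle.setoid (faceNext σ))) ≤
      Nat.card G.edgeSet + 2 := by
  classical
  have := Fintype.ofFinite V
  exact genus' hc fst cyc

theorem plane_of_le [Finite V] (hc : G.Connected) {σ : Equiv.Perm G.Dart}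
    (fst : ∀ d, (σ d).fst = d.fst)
    (cyc : ∀ d d' : G.Dart, d.fst = d'.fst → σ.SameCycle d d')
    (hle : Nat.card G.edgeSet + 2 ≤
      Nat.card V + Nat.card (Quotient (Equiv.Perm.SameCycle.setoid (faceNext σ)))) :
    PlaneMap G σ := ⟨fst, cyc, le_antisymm (genus hc fst cyc) hle⟩

/-- a quantity kept by every step is constant on cycles -/
theorem cyc_const {α β : Type} {f : Equiv.Perm α} {c : α → β} (h : ∀ x, c (f x) = c x)
    {x y : α} (hxy : f.SameCycle x y) : c x = c y := by
  have hs : ∀ (n : ℤ) (d : α), c ((f ^ n) d) = c d := by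
    intro n
    induction n using Int.induction_on with
    | zero => intro d; rfl
    | succ n ih =>
      intro d
      rw [zpow_add_one, Equiv.Perm.mul_apply, ih, h]
    | pred n ih =>
      intro d
      have h3 := h (f⁻¹ d)
      rw [show f (f⁻¹ d) = d from Equiv.apply_symm_apply _ _] at h3
      rw [zpow_sub_one, Equiv.Perm.mul_apply, ih, ← h3]
  obtain ⟨n, hn⟩ := hxy
  rw [← hn, hs]

end Vale.Agent.P235.Tight
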