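/-
P235 (helper802): two classes of plane weighted graphs with terminals; both are contained in
`Pk.OnSurface`.  Definitions only.
-/
import Vale.Agent.P235.H536.PlaneDefs

namespace Vale.Agent.P235.Pk

/-- `G` is plane, `L` is a set of vertices, `h` is nonexpansive on `L`; the source `S` is one vertex
or the set of all vertices of one face; every vertex of `L` outside `S` has an edge of slope at
least `1/D` downwards which ends in `L`; every vertex of `L` has one upwards, or is in `B`, or is on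
one of the faces of the darts in `M`; `B` and `M` have together at most `g` elements; the source is
not one of the faces of `M` -/
def FewPeaks {V : Type} (G : SimpleGraph V) (ℓ : Sym2 V → ℝ) (D : ℝ) (L : Set V) (g : ℕ) : Prop :=
  ∃ (σ : Equiv.Perm G.Dart) (h : V → ℝ) (S : Set V) (B : Finset V) (M : Finset G.Dart),
    PlaneMap G σ ∧ B.card + M.card ≤ g ∧
    ((∃ s, S = {s}) ∨ ∃ d₁, S = onFace σ d₁ ∧ ∀ m ∈ M, ¬ (faceNext σ).SameCycle d₁ m) ∧
    (∀ u ∈ L, ∀ v ∈ L, |h u - h v| ≤ pathDist G ℓ u v) ∧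
    (∀ v ∈ L, v ∉ S → ∃ u ∈ L, G.Adj v u ∧ ℓ s(v, u) ≤ D * (h v - h u)) ∧
    ∀ v ∈ L, (∃ u ∈ L, G.Adj v u ∧ ℓ s(v, u) ≤ D * (h u - h v)) ∨ v ∈ B ∨
      ∃ m ∈ M, v ∈ onFace σ m

/-- as `FewPeaks`, with exceptional vertices and faces also downwards (`A`, `M₁`) instead of one
source; no face is exceptional in both directions -/
def FewEnds {V : Type} (G : SimpleGraph V) (ℓ : Sym2 V → ℝ) (D : ℝ) (L : Set V) (g : ℕ) : Prop :=
  ∃ (σ : Equiv.Perm G.Dart) (h : V → ℝ) (A B : Finset V) (M₁ M₂ : Finset G.Dart),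
    PlaneMap G σ ∧ A.card + B.card + M₁.card + M₂.card ≤ g ∧
    (∀ a ∈ M₁, ∀ b ∈ M₂, ¬ (faceNext σ).SameCycle a b) ∧
    (∀ u ∈ L, ∀ v ∈ L, |h u - h v| ≤ pathDist G ℓ u v) ∧
    (∀ v ∈ L, (∃ u ∈ L, G.Adj v u ∧ ℓ s(v, u) ≤ D * (h v - h u)) ∨ v ∈ A ∨
      ∃ m ∈ M₁, v ∈ onFace σ m) ∧
    ∀ v ∈ L, (∃ u ∈ L, G.Adj v u ∧ ℓ s(v, u) ≤ D * (h u - h v)) ∨ v ∈ B ∨
      ∃ m ∈ M₂, v ∈ onFace σ m

end Vale.Agent.P235.Pk
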