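import Vale.Agent.P235.R2.H802.T4Face
import Vale.Agent.P235.R2.H341.Y3

/-!
# Plane graphs whose vertices without steep edge upwards are covered by few faces and vertices
(helper802; vertex form: helper341, helper324, helper718, helper105)
-/

set_option linter.all false

namespace Vale.Agent.P235.SqR

open Vale.Agent.P235 Vale.Agent.P235.Red Vale.Agent.P235.H341W Vale.Agent.P235.Tight
  Vale.Agent.P235.Red.W3

/-- **T4.**  `G` plane, `h` nonexpansive, every vertex but `s` has an edge downwards of slope at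
least `1/D`, every vertex which is not in `B` and not on a face of `M` has an edge upwards of slope
at least `1/D`; all other edges are arbitrary. -/
theorem plane_all {C : ℝ} (hC : 1 ≤ C) (hM : MStarLL C) (V : Type) [Finite V]
    (G : SimpleGraph V) (σ : Equiv.Perm G.Dart) (ℓ : Sym2 V → ℝ) (h : V → ℝ) (s : V) (D : ℝ)
    (M : Finset G.Dart) (B : Finset V) (hD : 1 ≤ D) (hc : G.Connected) (hP : PlaneMap G σ)
    (hℓ : ∀ e ∈ G.edgeSet, 0 < ℓ e) (h1 : ∀ u v, G.Adj u v → |h u - h v| ≤ ℓ s(u, v))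
    (hlow : ∀ v, v ≠ s → ∃ u, G.Adj v u ∧ ℓ s(v, u) ≤ D * (h v - h u))
    (hhigh : ∀ v, (∃ u, G.Adj v u ∧ ℓ s(v, u) ≤ D * (h u - h v)) ∨ v ∈ B ∨
      ∃ m ∈ M, v ∈ onFace σ m) :
    EmbedsL1 (pathDist G ℓ) (4 * (10 ^ 9 * 1000000000000000) * C * D *
      ((ll (Nat.card V) : ℝ) + 1 + √(Real.log ((B.card + M.card : ℕ) + 2)))) :=
  plane_all_of (by positivity) H341W.coreT faceForm hC hM V G σ ℓ h s D M B hD hc hP hℓ h1 hlow
    hhigh

/-- **every plane graph, every lengths, every root `r`**: `B` and the faces of `M` cover the vertices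
`v` from which no edge leads away from `r` tightly -/
theorem plane_root {C : ℝ} (hC : 1 ≤ C) (hM : MStarLL C) (V : Type) [Finite V]
    (G : SimpleGraph V) (σ : Equiv.Perm G.Dart) (ℓ : Sym2 V → ℝ) (r : V)
    (M : Finset G.Dart) (B : Finset V) (hc : G.Connected) (hP : PlaneMap G σ)
    (hℓ : ∀ e ∈ G.edgeSet, 0 < ℓ e)
    (hhigh : ∀ v, (∃ u, G.Adj v u ∧ pathDist G ℓ r u = pathDist G ℓ r v + ℓ s(v, u)) ∨ v ∈ B ∨
      ∃ m ∈ M, v ∈ onFace σ m) :
    EmbedsL1 (pathDist G ℓ) (4 * (10 ^ 9 * 1000000000000000) * C *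
      ((ll (Nat.card V) : ℝ) + 1 + √(Real.log ((B.card + M.card : ℕ) + 2)))) := by
  have h := plane_all hC hM V G σ ℓ (pathDist G ℓ r) r 1 M B le_rfl hc hP hℓ ?_ ?_ ?_
  · rwa [mul_one] at h
  · intro u v ha
    have h1 := pd_tri hc hℓ r u v
    have h2 := pd_tri hc hℓ r v u
    have h3 := pd_adj hℓ ha
    rw [pd_comm hc hℓ v u] at h2
    rw [abs_le]
    constructor <;> linarith
  · intro v hv
    obtain ⟨u, hu, h1⟩ := _root_.Vale.Agent.P235.Tight.exists_first hc hℓ hv
    refine ⟨u, hu, ?_⟩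
    rw [pd_comm hc hℓ r v, pd_comm hc hℓ r u, one_mul]
    linarith
  · intro v
    rcases hhigh v with ⟨u, hu, h1⟩ | k
    · exact Or.inl ⟨u, hu, by linarith⟩
    · exact Or.inr k

end Vale.Agent.P235.SqR
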