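import Vale.Agent.P235.R2.H802.Mix2
import Vale.Agent.P235.R2.H802.FewCl
import Vale.Agent.P235.R2.H643.StepT
import Vale.Agent.P235.R2.H582.KprAll
import Vale.Agent.P235.R2.H582.Peaks
import Vale.Agent.P235.R2.H582.EndsT
import Vale.Agent.P235.R2.H611.T5d

/-!
# The classes of `Classes2.lean` embed (helper802)
-/

set_option linter.all false

namespace Vale.Agent.P235.Pk

open Vale.Agent.P235 Vale.Agent.P235.Red Vale.Agent.P235.R2

variable {V : Type} {G : SimpleGraph V} {ℓ : Sym2 V → ℝ} {C D : ℝ}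

theorem LL_eq (n : ℕ) : Swp.LL n = (ll n : ℝ) + 1 := rfl

theorem LL_pos (n : ℕ) : 1 ≤ Swp.LL n := by
  rw [LL_eq]
  have : (0 : ℝ) ≤ (ll n : ℝ) := Nat.cast_nonneg _
  linarith

/-- the tight vertex form for terminals -/
theorem coreL : H582.FaceT.CoreL (10 ^ 22) := by
  classical
  intro C hC hM V _ G σ ℓ h L s B hc hP hℓ hs h1 hlow hhigh
  have h2 := T5.terminals_sqrt_tight hC hM V G σ ℓ h L s hs (Set.toFinite B).toFinset hc hP hℓ h1
    hlow (fun v hv hvB => hhigh v hv (fun h => hvB ((Set.toFinite B).mem_toFinset.2 h)))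
  rwa [← Set.ncard_eq_toFinset_card B (Set.toFinite B)] at h2

theorem FewPeaks.embeds (hC : 1 ≤ C) (hM : MStarLL C) [Finite V] (hc : G.Connected)
    (hℓ : ∀ e ∈ G.edgeSet, 0 < ℓ e) (hD : 1 ≤ D) {L : Set V} {g : ℕ} (h : FewPeaks G ℓ D L g) :
    EmbedsL1 (fun u v : L => pathDist G ℓ u v)
      (3 * 10 ^ 22 * C * D * (Swp.LL (Nat.card V) + √(Real.log ((g : ℝ) + 2)))) := by
  obtain ⟨σ, h, S, B, M, hP, hg, hS, h1, hlow, hhigh⟩ := h
  obtain ⟨Ω, m, μ, f, hf⟩ := H582.FaceT.peaks_of (by norm_num) coreL hC hM V G σ ℓ h L S B M D hD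
    hc hP hℓ hS h1 hlow hhigh
  refine ⟨Ω, m, μ, f, fun x y => ⟨(hf x y).1, (hf x y).2.trans
    (mul_le_mul_of_nonneg_right ?_ (pd_nonneg hℓ _ _))⟩⟩
  have hg' : ((B.card + M.card : ℕ) : ℝ) ≤ (g : ℝ) := by exact_mod_cast hg
  have h3 : √(Real.log (((B.card + M.card : ℕ) : ℝ) + 2)) ≤ √(Real.log ((g : ℝ) + 2)) :=
    Real.sqrt_le_sqrt (Real.log_le_log (by positivity) (by linarith))
  rw [LL_eq]
  calc 3 * (10 ^ 22 * C * D) * ((ll (Nat.card V) : ℝ) + 1 +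
        √(Real.log (((B.card + M.card : ℕ) : ℝ) + 2)))
      ≤ 3 * (10 ^ 22 * C * D) * ((ll (Nat.card V) : ℝ) + 1 + √(Real.log ((g : ℝ) + 2))) :=
        mul_le_mul_of_nonneg_left (by linarith) (by positivity)
    _ = _ := by ring

theorem FewEnds.embeds (hC : 1 ≤ C) (hM : MStarLL C) [Finite V] (hc : G.Connected)
    (hℓ : ∀ e ∈ G.edgeSet, 0 < ℓ e) (hD : 1 ≤ D) {L : Set V} {g : ℕ} (h : FewEnds G ℓ D L g) :
    EmbedsL1 (fun u v : L => pathDist G ℓ u v)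
      (1600000000000000 * C * D * (Swp.LL (Nat.card V) + Real.log ((g : ℝ) + 2))) := by
  obtain ⟨σ, h, A, B, M₁, M₂, hP, hg, hsep, h1, hlow, hhigh⟩ := h
  obtain ⟨Ω, m, μ, f, hf⟩ := H582.FaceT.ends_terminals hC hM V G σ ℓ h L A B M₁ M₂ D hD
    hc hP hℓ hsep h1 hlow hhigh
  refine ⟨Ω, m, μ, f, fun x y => ⟨(hf x y).1, (hf x y).2.trans
    (mul_le_mul_of_nonneg_right ?_ (pd_nonneg hℓ _ _))⟩⟩
  have hg' : ((A.card + B.card + M₁.card + M₂.card : ℕ) : ℝ) ≤ (g : ℝ) := by exact_mod_cast hg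
  have h3 : Real.log (((A.card + B.card + M₁.card + M₂.card : ℕ) : ℝ) + 2) ≤
      Real.log ((g : ℝ) + 2) := Real.log_le_log (by positivity) (by linarith)
  rw [LL_eq]
  exact mul_le_mul_of_nonneg_left (by linarith) (by positivity)

/-- the constant of the rounds -/
theorem Rounds.embeds [Finite V] (hc : G.Connected) (hℓ : ∀ e ∈ G.edgeSet, 0 < ℓ e) {Q : ℝ}
    (hQ : 1 ≤ Q) {s g k j : ℕ} {β : ℝ} (hβ : 0 ≤ β) (h : Rounds Q s g k j β G ℓ) :
    EmbedsL1 (pathDist G ℓ) (4000000 * 10000 * (Q + √(k : ℝ) * Real.log ((s : ℝ) + 2) +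
      j * ((g : ℝ) + 1) + β)) :=
  SqR.rounds_final (A := 10000) (by norm_num) Kpr.step hQ hβ hc hℓ h

end Vale.Agent.P235.Pk
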