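/-
P235-M (helper802).  Regions of fundamental cycles in a plane map; the innermost one is one face.
-/
import Vale.Agent.P235.R2.H802.Flow

set_option linter.unusedSectionVars false
set_option linter.unusedDecidableInType false
set_option linter.unusedFintypeInType false

namespace Vale.Agent.P235.Tight

open SimpleGraph Finset

variable {V : Type} {G : SimpleGraph V}

section

variable [Fintype V] [DecidableEq V] [Fintype G.Dart] [DecidableEq G.Dart]

/-- an even function supported on the tree vanishes -/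
theorem forest {ℓ : Sym2 V → ℝ} {h : V → ℝ} {t : V} {u : V → V} (hu : UpMap G ℓ h t u)
    (Z : G.Dart → ZMod 2) (hs : ∀ d : G.Dart, Z d.symm = Z d)
    (hv : ∀ v, ∑ d : G.Dart with d.fst = v, Z d = 0) (ht : ∀ d, Z d ≠ 0 → Tr u t d) :
    ∀ d, Z d = 0 := by
  by_contra hn
  push Not at hn
  obtain ⟨d₀, hd₀⟩ := hn
  obtain ⟨x, ⟨d, hdx, hd⟩, hmin⟩ := Set.exists_min_image {x | ∃ d : G.Dart, d.fst = x ∧ Z d ≠ 0} h
    (Set.toFinite _) ⟨_, d₀, rfl, hd₀⟩
  have key : ∀ d' : G.Dart, d'.fst = x → Z d' ≠ 0 → d'.snd = u x := by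
    intro d' h1 h2
    rcases ht d' h2 with ⟨_, h3⟩ | ⟨h3, h4⟩
    · rw [← h3, h1]
    · exfalso
      have h5 := (hu _ h3).2.2
      rw [h4, h1] at h5
      have h6 := hmin d'.snd ⟨d'.symm, rfl, by rw [hs]; exact h2⟩
      exact absurd h5 (not_lt.2 h6)
  have h1 := hv x
  rw [Finset.sum_eq_single d] at h1
  · exact hd h1
  · intro d' h2 h3
    by_contra h4
    refine h3 ?_
    rw [Finset.mem_filter] at h2
    ext
    · exact h2.2.trans hdx.symm
    · exact (key d' h2.2 h4).trans (key d hdx hd).symm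
  · intro h2
    exfalso
    refine h2 ?_
    rw [Finset.mem_filter]
    exact ⟨Finset.mem_univ _, hdx⟩

theorem sum_CC {ℓ : Sym2 V → ℝ} {h : V → ℝ} {t : V} {u : V → V} (hu : UpMap G ℓ h t u)
    (e : G.Dart) (v : V) : ∑ d : G.Dart with d.fst = v, CC u t e d = 0 := by
  unfold CC
  rw [Finset.sum_add_distrib, Finset.sum_add_distrib, sum_pz hu, sum_pz hu, sum_edge]
  have h1 := CharTwo.add_self_eq_zero (ind (v = e.fst))
  have h2 := CharTwo.add_self_eq_zero (ind (v = e.snd))
  have h3 := CharTwo.add_self_eq_zero (ind (v = t))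
  linear_combination h1 + h2 + h3

theorem cyc_or {ℓ : Sym2 V → ℝ} {h : V → ℝ} {t : V} {u : V → V} (hu : UpMap G ℓ h t u)
    {e : G.Dart} (he : ¬ Tr u t e) (Z : G.Dart → ZMod 2) (hs : ∀ d : G.Dart, Z d.symm = Z d)
    (hv : ∀ v, ∑ d : G.Dart with d.fst = v, Z d = 0)
    (ht : ∀ d, Z d ≠ 0 → d = e ∨ d = e.symm ∨ Tr u t d) :
    (∀ d, Z d = 0) ∨ ∀ d, Z d = CC u t e d := by
  rcases zmod2_cases (Z e) with h1 | h1
  · left
    refine forest hu Z hs hv fun d hd => ?_
    rcases ht d hd with rfl | rfl | h2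
    · exact absurd h1 hd
    · rw [hs] at hd
      exact absurd h1 hd
    · exact h2
  · right
    have h2 := forest hu (fun d => Z d + CC u t e d) (fun d => by
        show Z d.symm + CC u t e d.symm = _
        rw [hs, CC_symm]) (fun v => by
        show ∑ d : G.Dart with d.fst = v, (Z d + CC u t e d) = 0
        rw [Finset.sum_add_distrib, hv, sum_CC hu, add_zero]) (fun d hd => by
        have h3 : d = e ∨ d = e.symm ∨ Tr u t d := by
          by_cases h4 : Z d = 0
          · refine CC_supp fun h5 => hd ?_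
            show Z d + CC u t e d = 0
            rw [h4, h5, add_zero]
          · exact ht d h4
        rcases h3 with rfl | rfl | h3
        · exfalso
          refine hd ?_
          show Z d + CC u t d d = 0
          rw [h1, CC_self he]
          decide
        · exfalso
          refine hd ?_
          show Z e.symm + CC u t e e.symm = 0
          rw [hs, h1, CC_symm, CC_self he]
          decide
        · exact h3)
    intro d
    exact CharTwo.add_eq_zero.1 (h2 d)

/-- a fundamental cycle with its region `r`; the dart `d₀` is outside -/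
structure Cfg (σ : Equiv.Perm G.Dart) (d₀ : G.Dart) (ℓ : Sym2 V → ℝ) (h : V → ℝ) (t : V)
    (u : V → V) (e : G.Dart) (r : G.Dart → ZMod 2) : Prop where
  up : UpMap G ℓ h t u
  nt : |h e.fst - h e.snd| < ℓ s(e.fst, e.snd)
  inv : ∀ d, r (faceNext σ d) = r d
  base : r d₀ = 0
  bd : ∀ d : G.Dart, r d + r d.symm = CC u t e d

theorem tight_of_tr {ℓ : Sym2 V → ℝ} {h : V → ℝ} {t : V} {u : V → V} (hu : UpMap G ℓ h t u)
    {d : G.Dart} (hd : Tr u t d) : |h d.fst - h d.snd| = ℓ s(d.fst, d.snd) := by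
  rcases hd with ⟨h1, h2⟩ | ⟨h1, h2⟩
  · have h3 := hu _ h1
    rw [h2] at h3
    rw [abs_of_neg (by linarith [h3.2.2]), ← h3.2.1]
    ring
  · have h3 := hu _ h1
    rw [h2] at h3
    rw [abs_of_pos (by linarith [h3.2.2]), h3.2.1, Sym2.eq_swap]

theorem not_tr {ℓ : Sym2 V → ℝ} {h : V → ℝ} {t : V} {u : V → V} (hu : UpMap G ℓ h t u)
    {e : G.Dart} (he : |h e.fst - h e.snd| < ℓ s(e.fst, e.snd)) : ¬ Tr u t e := fun hd => by
  rw [tight_of_tr hu hd] at he
  exact lt_irrefl _ he

theorem exists_cfg (hc : G.Connected) {σ : Equiv.Perm G.Dart} (hσ : PlaneMap G σ) (d₀ : G.Dart)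
    {ℓ : Sym2 V → ℝ} {h : V → ℝ} {t : V} {u : V → V} (hu : UpMap G ℓ h t u) {e : G.Dart}
    (he : |h e.fst - h e.snd| < ℓ s(e.fst, e.snd)) : ∃ r, Cfg σ d₀ ℓ h t u e r := by
  obtain ⟨r, hr1, hr2⟩ := plane_cycle' hc hσ (CC u t e) (CC_symm u t e) (sum_CC hu e)
  refine ⟨fun d => r d + r d₀, hu, he, fun d => ?_, CharTwo.add_self_eq_zero _, fun d => ?_⟩
  · show r _ + r d₀ = r d + r d₀
    rw [hr1]
  · show r d + r d₀ + (r d.symm + r d₀) = _
    rw [hr2 d]
    have h1 := CharTwo.add_self_eq_zero (r d₀)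
    linear_combination h1

theorem const_face (hc : G.Connected) {σ : Equiv.Perm G.Dart} (hσ : PlaneMap G σ)
    {S : G.Dart → ZMod 2} (h1 : ∀ d, S (faceNext σ d) = S d) (h2 : ∀ d : G.Dart, S d + S d.symm = 0)
    {d₀ : G.Dart} (h3 : S d₀ = 0) (d : G.Dart) : S d = 0 := by
  rw [← h3]
  exact const_of_inv hc hσ.cyc S h1 (fun d => (CharTwo.add_eq_zero.1 (h2 d)).symm) d d₀

/-- regions whose boundary stays on the tree, on `e` and inside the region `r` are contained
in it -/
theorem theta (hc : G.Connected) {σ : Equiv.Perm G.Dart} (hσ : PlaneMap G σ) {d₀ : G.Dart}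
    {ℓ : Sym2 V → ℝ} {h : V → ℝ} {t : V} {u : V → V} {e : G.Dart} {r : G.Dart → ZMod 2}
    (hr : Cfg σ d₀ ℓ h t u e r) {r' : G.Dart → ZMod 2} (h1 : ∀ d, r' (faceNext σ d) = r' d)
    (h2 : r' d₀ = 0)
    (h3 : ∀ d : G.Dart, r' d + r' d.symm ≠ 0 →
      (d = e ∨ d = e.symm ∨ Tr u t d) ∨ (r d = 1 ∧ r d.symm = 1)) :
    ∀ d, r' d = 1 → r d = 1 := by
  have hnt := not_tr hr.up hr.nt
  set S : G.Dart → ZMod 2 := fun d => r' d * (1 + r d) with hS
  have hSi : ∀ d, S (faceNext σ d) = S d := fun d => by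
    show r' _ * (1 + r _) = r' d * (1 + r d)
    rw [h1, hr.inv]
  have hSb : S d₀ = 0 := by
    show r' d₀ * _ = 0
    rw [h2, zero_mul]
  have hsupp : ∀ d : G.Dart, S d + S d.symm ≠ 0 → d = e ∨ d = e.symm ∨ Tr u t d := by
    intro d hd
    by_contra hn
    have h4 : CC u t e d = 0 := by
      by_contra h5
      exact hn (CC_supp h5)
    have h5 := hr.bd d
    rw [h4] at h5
    have h6 : r d.symm = r d := (CharTwo.add_eq_zero.1 h5).symm
    refine hd ?_
    show r' d * (1 + r d) + r' d.symm * (1 + r d.symm) = 0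
    rw [h6, ← add_mul]
    by_cases h7 : r' d + r' d.symm = 0
    · rw [h7, zero_mul]
    · rcases h3 d h7 with h8 | h8
      · exact absurd h8 hn
      · rw [h8.1]
        have : (1 + 1 : ZMod 2) = 0 := by decide
        rw [this, mul_zero]
  rcases cyc_or hr.up hnt (fun d => S d + S d.symm) (fun d => by
      show S d.symm + S d.symm.symm = S d + S d.symm
      rw [Dart.symm_symm, add_comm]) (fun v => sum_face hσ.fst S hSi v) hsupp with h4 | h4
  · intro d hd
    have h5 := const_face hc hσ hSi h4 hSb d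
    change r' d * (1 + r d) = 0 at h5
    rw [hd, one_mul] at h5
    exact (CharTwo.add_eq_zero.1 h5).symm
  · exfalso
    have h5 := const_face hc hσ (S := fun d => S d + r d) (fun d => by
        show S _ + r _ = S d + r d
        rw [hSi, hr.inv]) (fun d => by
        show S d + r d + (S d.symm + r d.symm) = 0
        have h6 := h4 d
        have h7 := hr.bd d
        have h8 := CharTwo.add_self_eq_zero (CC u t e d)
        linear_combination h6 + h7 + h8) (d₀ := d₀) (by
        show S d₀ + r d₀ = 0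
        rw [hSb, hr.base, add_zero])
    have h6 : ∀ d, r d = 0 := by
      intro d
      have h7 : S d = r d := CharTwo.add_eq_zero.1 (h5 d)
      rcases zmod2_cases (r d) with h8 | h8
      · exact h8
      · change r' d * (1 + r d) = r d at h7
        rw [h8] at h7
        have h9 : (1 + 1 : ZMod 2) = 0 := by decide
        rw [h9, mul_zero] at h7
        exact absurd h7 (by decide)
    have h7 := hr.bd e
    rw [CC_self hnt, h6, h6] at h7
    exact absurd h7 (by decide)

/-- the number of darts of a region -/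
def NR (r : G.Dart → ZMod 2) : ℕ := (Finset.univ.filter fun d => r d = 1).card

theorem NR_lt {r r' : G.Dart → ZMod 2} (h1 : ∀ d, r' d = 1 → r d = 1)
    (h2 : ∃ d, r d = 1 ∧ r' d ≠ 1) : NR r' < NR r := by
  refine Finset.card_lt_card ⟨?_, ?_⟩
  · intro d hd
    rw [Finset.mem_filter] at hd ⊢
    exact ⟨hd.1, h1 d hd.2⟩
  · intro h3
    obtain ⟨d, h4, h5⟩ := h2
    have h6 := h3 (Finset.mem_filter.2 ⟨Finset.mem_univ d, h4⟩)
    exact h5 (Finset.mem_filter.1 h6).2

/-- a region with the fewest darts -/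
def Least (σ : Equiv.Perm G.Dart) (d₀ : G.Dart) (ℓ : Sym2 V → ℝ) (h : V → ℝ) (t : V)
    (r : G.Dart → ZMod 2) : Prop :=
  ∀ u' e' r', Cfg σ d₀ ℓ h t u' e' r' → NR r ≤ NR r'

theorem exists_least {σ : Equiv.Perm G.Dart} {d₀ : G.Dart} {ℓ : Sym2 V → ℝ} {h : V → ℝ} {t : V}
    (hex : ∃ u e r, Cfg σ d₀ ℓ h t u e r) :
    ∃ u e r, Cfg σ d₀ ℓ h t u e r ∧ Least σ d₀ ℓ h t r := by
  classical
  have hex' : ∃ n, ∃ u e r, Cfg σ d₀ ℓ h t u e r ∧ NR r = n := by
    obtain ⟨u, e, r, hr⟩ := hex
    exact ⟨_, u, e, r, hr, rfl⟩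
  obtain ⟨u, e, r, hr, hn⟩ := Nat.find_spec hex'
  refine ⟨u, e, r, hr, fun u' e' r' hr' => ?_⟩
  rw [hn]
  exact Nat.find_min' hex' ⟨u', e', r', hr', rfl⟩

section least

variable (hc : G.Connected) {σ : Equiv.Perm G.Dart} (hσ : PlaneMap G σ) {d₀ : G.Dart}
  {ℓ : Sym2 V → ℝ} {h : V → ℝ} {t : V} {u : V → V} {e : G.Dart} {r : G.Dart → ZMod 2}
  (hr : Cfg σ d₀ ℓ h t u e r) (hl : Least σ d₀ ℓ h t r)

include hc hσ hr hl

/-- no edge inside is slack -/
theorem least_slack {g : G.Dart} (h1 : r g = 1) (h2 : r g.symm = 1) :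
    ¬ |h g.fst - h g.snd| < ℓ s(g.fst, g.snd) := by
  intro hg
  obtain ⟨r', hr'⟩ := exists_cfg hc hσ d₀ hr.up hg
  have h3 : ∀ d, r' d = 1 → r d = 1 := by
    refine theta hc hσ hr hr'.inv hr'.base fun d hd => ?_
    rw [hr'.bd] at hd
    rcases CC_supp hd with rfl | rfl | h4
    · exact Or.inr ⟨h1, h2⟩
    · refine Or.inr ⟨h2, ?_⟩
      rw [Dart.symm_symm]
      exact h1
    · exact Or.inl (Or.inr (Or.inr h4))
  have h4 : NR r' < NR r := by
    refine NR_lt h3 ?_
    have h5 := hr'.bd g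
    rw [CC_self (not_tr hr'.up hg)] at h5
    rcases zmod2_cases (r' g) with h6 | h6
    · exact ⟨g, h1, by rw [h6]; decide⟩
    · refine ⟨g.symm, h2, fun h7 => ?_⟩
      rw [h6, h7] at h5
      exact absurd h5 (by decide)
  exact absurd (hl _ _ _ hr') (not_le.2 h4)

/-- no tight edge inside leaves upwards from a vertex below the top of the cycle -/
theorem least_tight {g : G.Dart} (h1 : r g = 1) (h2 : r g.symm = 1) (ht : g.fst ≠ t)
    (hlt : h g.fst < h g.snd) (hti : h g.snd - h g.fst = ℓ s(g.fst, g.snd)) (δ : G.Dart)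
    (hδ1 : δ.fst = g.fst) (hδ2 : δ.snd = u g.fst) : r δ + r δ.symm = 0 := by
  classical
  by_contra hne
  set x := g.fst with hx
  have hux := hr.up x ht
  have hgδ : g.snd ≠ u x := by
    intro k
    have : δ = g := by
      ext
      · exact hδ1
      · exact hδ2.trans k.symm
    rw [this, h1, h2] at hne
    exact hne (by decide)
  set u' : V → V := Function.update u x g.snd with hu'
  have e1 : u' x = g.snd := Function.update_self _ _ _
  have e2 : ∀ y, y ≠ x → u' y = u y := fun y hy => Function.update_of_ne hy _ _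
  have hup : UpMap G ℓ h t u' := by
    intro y hy
    by_cases hyx : y = x
    · rw [hyx, e1]
      exact ⟨g.adj, hti, hlt⟩
    · rw [e2 y hyx]
      exact hr.up y hy
  obtain ⟨r', hr'⟩ := exists_cfg hc hσ d₀ hup hr.nt
  have h3 : ∀ d, r' d = 1 → r d = 1 := by
    refine theta hc hσ hr hr'.inv hr'.base fun d hd => ?_
    rw [hr'.bd] at hd
    rcases CC_supp hd with h4 | h4 | h4
    · exact Or.inl (Or.inl h4)
    · exact Or.inl (Or.inr (Or.inl h4))
    · rcases h4 with ⟨k1, k2⟩ | ⟨k1, k2⟩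
      · by_cases hyx : d.fst = x
        · have : d = g := by
            ext
            · exact hyx
            · show d.snd = g.snd
              rw [← k2, hyx, e1]
          rw [this]
          exact Or.inr ⟨h1, h2⟩
        · rw [e2 _ hyx] at k2
          exact Or.inl (Or.inr (Or.inr (Or.inl ⟨k1, k2⟩)))
      · by_cases hyx : d.snd = x
        · have : d = g.symm := by
            ext
            · show d.fst = g.snd
              rw [← k2, hyx, e1]
            · exact hyx
          rw [this, Dart.symm_symm]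
          exact Or.inr ⟨h2, h1⟩
        · rw [e2 _ hyx] at k2
          exact Or.inl (Or.inr (Or.inr (Or.inr ⟨k1, k2⟩)))
  have hδt : |h δ.fst - h δ.snd| = ℓ s(δ.fst, δ.snd) :=
    tight_of_tr hr.up (Or.inl ⟨by rw [hδ1]; exact ht, by rw [hδ1, hδ2]⟩)
  have h5 : CC u' t e δ = 0 := by
    by_contra h6
    rcases CC_supp h6 with rfl | rfl | ⟨k1, k2⟩ | ⟨k1, k2⟩
    · exact absurd hr.nt (by rw [hδt]; exact lt_irrefl _)
    · have h7 := hr.nt
      have h8 : |h e.snd - h e.fst| = ℓ s(e.snd, e.fst) := hδt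
      rw [abs_sub_comm, Sym2.eq_swap] at h8
      rw [h8] at h7
      exact lt_irrefl _ h7
    · rw [hδ1, e1, hδ2] at k2
      exact hgδ k2
    · rw [hδ2] at k1 k2
      have h7 : u x ≠ x := fun k => by
        have := hux.2.2
        rw [k] at this
        exact lt_irrefl _ this
      rw [e2 _ h7, hδ1] at k2
      have h8 := (hr.up _ k1).2.2
      rw [k2] at h8
      exact absurd h8 (not_lt.2 hux.2.2.le)
  have h6 := hr'.bd δ
  rw [h5] at h6
  have h4 : NR r' < NR r := by
    refine NR_lt h3 ?_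
    have h7 := CharTwo.add_eq_zero.1 h6
    rcases zmod2_cases (r δ) with h8 | h8 <;> rcases zmod2_cases (r δ.symm) with h9 | h9
    · exact absurd (by rw [h8, h9]; decide) hne
    · refine ⟨δ.symm, h9, fun h10 => ?_⟩
      have h11 := h3 δ (h7.trans h10)
      rw [h8] at h11
      exact absurd h11 (by decide)
    · refine ⟨δ, h8, fun h10 => ?_⟩
      have h11 := h3 δ.symm (h7.symm.trans h10)
      rw [h9] at h11
      exact absurd h11 (by decide)
    · exact absurd (by rw [h8, h9]; decide) hne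
  exact absurd (hl _ _ _ hr') (not_le.2 h4)

end least

end

end Vale.Agent.P235.Tight
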