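/-
P235-M (helper802).  The innermost region of a slack edge is one face.
-/
import Vale.Agent.P235.R2.H802.Region


set_option linter.unusedSectionVars false
set_option linter.unusedDecidableInType false
set_option linter.unusedFintypeInType false

namespace Vale.Agent.P235.Tight

open SimpleGraph Finset

variable {V : Type} {G : SimpleGraph V}

/-- `q` is the first common vertex of the two chains -/
structure Top (h : V → ℝ) (u : V → V) (t a b q : V) : Prop where
  left : Orb u t a q
  right : Orb u t b q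
  min : ∀ w, Orb u t a w → Orb u t b w → h q ≤ h w

theorem exists_top [Finite V] {ℓ : Sym2 V → ℝ} {h : V → ℝ} {t : V} {u : V → V}
    (hu : UpMap G ℓ h t u) (a b : V) : ∃ q, Top h u t a b q := by
  obtain ⟨q, ⟨h1, h2⟩, h3⟩ := Set.exists_min_image {x | Orb u t a x ∧ Orb u t b x} h
    (Set.toFinite _) ⟨t, orb_top hu a, orb_top hu b⟩
  exact ⟨q, h1, h2, fun w hw1 hw2 => h3 w ⟨hw1, hw2⟩⟩

theorem Top.swap {h : V → ℝ} {u : V → V} {t a b q : V} (hq : Top h u t a b q) :
    Top h u t b a q := ⟨hq.right, hq.left, fun w h1 h2 => hq.min w h2 h1⟩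

/-- the value of the fundamental cycle on a tree dart -/
theorem CC_up {ℓ : Sym2 V → ℝ} {h : V → ℝ} {t : V} {u : V → V} (hu : UpMap G ℓ h t u)
    {e : G.Dart} (he : ¬ Tr u t e) {δ : G.Dart} (h1 : δ.fst ≠ t) (h2 : u δ.fst = δ.snd) :
    CC u t e δ = ind (Orb u t e.fst δ.fst) + ind (Orb u t e.snd δ.fst) := by
  have hn : ∀ a, ¬ TO u t a δ.symm := by
    rintro a ⟨k1, k2, _⟩
    change δ.snd ≠ t at k1
    change u δ.snd = δ.fst at k2
    have k3 := (hu _ h1).2.2
    have k4 := (hu _ k1).2.2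
    rw [h2] at k3
    rw [k2] at k4
    exact absurd k3 (not_lt.2 k4.le)
  have hp : ∀ a, pz u t a δ = ind (Orb u t a δ.fst) := by
    intro a
    refine ind_congr ⟨?_, fun k => Or.inl ⟨h1, h2, k⟩⟩
    rintro (k | k)
    · exact k.2.2
    · exact absurd k (hn a)
  unfold CC
  have hT : Tr u t δ := Or.inl ⟨h1, h2⟩
  have k1 : ind (δ = e) = 0 := ind_neg fun k => he (by rw [← k]; exact hT)
  have k2 : ind (δ = e.symm) = 0 := ind_neg fun k => he (by
    have := hT.symm
    rw [k, Dart.symm_symm] at this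
    exact this)
  rw [hp, hp, k1, k2, add_zero, add_zero]

theorem ind_add_ne {p q : Prop} (h : ind p + ind q ≠ 0) : (p ∧ ¬ q) ∨ (q ∧ ¬ p) := by
  by_cases hp : p <;> by_cases hq : q
  · rw [ind_pos hp, ind_pos hq] at h
    exact absurd (by decide) h
  · exact Or.inl ⟨hp, hq⟩
  · exact Or.inr ⟨hq, hp⟩
  · rw [ind_neg hp, ind_neg hq] at h
    exact absurd (by decide) h

/-- a vertex of only one chain lies below the top -/
theorem Top.below {u : V → V} {t : V} {h : V → ℝ} {a b q w : V}
    (hq : Top h u t a b q) (h1 : Orb u t a w) (h2 : ¬ Orb u t b w) :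
    w ≠ t ∧ Orb u t (u w) q := by
  rcases h1.total hq.left with h3 | h3
  · rcases orb_head h3 with rfl | h4
    · exact absurd hq.right h2
    · exact h4
  · exact absurd (hq.right.trans h3) h2

/-- (F1) the fundamental cycle lies below its top -/
theorem CC_le {ℓ : Sym2 V → ℝ} {h : V → ℝ} {t : V} {u : V → V} (hu : UpMap G ℓ h t u)
    {e : G.Dart} (he : ¬ Tr u t e) {q : V} (hq : Top h u t e.fst e.snd q) {d : G.Dart}
    (hd : CC u t e d ≠ 0) : h d.fst ≤ h q := by
  have key : ∀ δ : G.Dart, δ.fst ≠ t → u δ.fst = δ.snd → CC u t e δ ≠ 0 →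
      h δ.fst ≤ h q ∧ h δ.snd ≤ h q := by
    intro δ h1 h2 h3
    rw [CC_up hu he h1 h2] at h3
    have h5 := (hu _ h1).2.2
    have h6 : Orb u t (u δ.fst) q := by
      rcases ind_add_ne h3 with ⟨k1, k2⟩ | ⟨k1, k2⟩
      · exact (hq.below k1 k2).2
      · exact (hq.swap.below k1 k2).2
    have h7 := h6.le' hu
    rw [h2] at h5 h7
    exact ⟨h5.le.trans h7, h7⟩
  rcases CC_supp hd with rfl | rfl | ⟨h1, h2⟩ | ⟨h1, h2⟩
  · exact hq.left.le' hu
  · exact hq.right.le' hu
  · exact (key d h1 h2 hd).1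
  · exact (key d.symm h1 h2 (by rw [CC_symm]; exact hd)).2

/-- (F2) below its top the fundamental cycle leaves every vertex upwards -/
theorem CC_next [Finite V] {ℓ : Sym2 V → ℝ} {h : V → ℝ} {t : V} {u : V → V}
    (hu : UpMap G ℓ h t u) {e : G.Dart} (he : ¬ Tr u t e) {q : V}
    (hq : Top h u t e.fst e.snd q) {d : G.Dart} (hd : CC u t e d ≠ 0) (hlt : h d.fst < h q)
    {δ : G.Dart} (h1 : δ.fst = d.fst) (h2 : δ.snd = u d.fst) : CC u t e δ = 1 := by
  have ht : d.fst ≠ t := by
    intro k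
    have h3 := hq.min t (orb_top hu _) (orb_top hu _)
    rw [k] at hlt
    exact absurd hlt (not_lt.2 h3)
  rw [CC_up hu he (by rw [h1]; exact ht) (by rw [h1, h2]), h1]
  have hor : Orb u t e.fst d.fst ∨ Orb u t e.snd d.fst := by
    rcases CC_supp hd with rfl | rfl | ⟨k1, k2⟩ | ⟨k1, k2⟩
    · exact Or.inl Relation.ReflTransGen.refl
    · exact Or.inr Relation.ReflTransGen.refl
    · rw [CC_up hu he k1 k2] at hd
      rcases ind_add_ne hd with ⟨k3, _⟩ | ⟨k3, _⟩
      · exact Or.inl k3
      · exact Or.inr k3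
    · rw [← CC_symm, CC_up hu he (δ := d.symm) k1 k2] at hd
      change ind (Orb u t e.fst d.snd) + ind (Orb u t e.snd d.snd) ≠ 0 at hd
      rcases ind_add_ne hd with ⟨k3, _⟩ | ⟨k3, _⟩
      · left
        have := orb_snoc k1 k3
        rwa [k2] at this
      · right
        have := orb_snoc k1 k3
        rwa [k2] at this
  have hand : ¬ (Orb u t e.fst d.fst ∧ Orb u t e.snd d.fst) := fun k =>
    absurd hlt (not_lt.2 (hq.min _ k.1 k.2))
  rcases hor with h3 | h3
  · rw [ind_pos h3, ind_neg fun k => hand ⟨h3, k⟩, add_zero]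
  · rw [ind_pos h3, ind_neg fun k => hand ⟨k, h3⟩, zero_add]

section

variable [Fintype V] [DecidableEq V] [Fintype G.Dart] [DecidableEq G.Dart]

/-- a vertex off the cycle with one dart in the region has all its darts inside -/
theorem all_inside {σ : Equiv.Perm G.Dart} (hcyc : ∀ d d' : G.Dart, d.fst = d'.fst →
    σ.SameCycle d d') {r : G.Dart → ZMod 2} (hinv : ∀ d, r (faceNext σ d) = r d) {x : V}
    (fst : ∀ d, (σ d).fst = d.fst)
    (hx : ∀ d : G.Dart, d.fst = x → r d + r d.symm = 0) {d : G.Dart} (hd : d.fst = x)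
    (hrd : r d = 1) {d' : G.Dart} (hd' : d'.fst = x) : r d' = 1 ∧ r d'.symm = 1 := by
  have hs : ∀ d : G.Dart, d.fst = x → r (σ d) = r d := by
    intro d hd
    have h1 := hinv d.symm
    rw [faceNext_apply, Dart.symm_symm] at h1
    rw [h1]
    exact (CharTwo.add_eq_zero.1 (hx d hd)).symm
  have hn : ∀ n : ℕ, ((σ ^ n) d).fst = x ∧ r ((σ ^ n) d) = 1 := by
    intro n
    induction n with
    | zero => exact ⟨hd, hrd⟩
    | succ n ih =>
      rw [pow_succ', Equiv.Perm.mul_apply]
      exact ⟨(fst _).trans ih.1, (hs _ ih.1).trans ih.2⟩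
  obtain ⟨n, _, hn'⟩ := (hcyc d d' (hd.trans hd'.symm)).exists_pow_eq'
  have h1 := (hn n).2
  rw [hn'] at h1
  refine ⟨h1, ?_⟩
  have h2 := CharTwo.add_eq_zero.1 (hx d' hd')
  rw [← h2]
  exact h1

theorem r_face {σ : Equiv.Perm G.Dart} {r : G.Dart → ZMod 2}
    (hinv : ∀ d, r (faceNext σ d) = r d) {d d' : G.Dart} (h : (faceNext σ).SameCycle d d') :
    r d' = r d := by
  obtain ⟨n, _, hn⟩ := h.exists_pow_eq'
  have hk : ∀ n : ℕ, r ((faceNext σ ^ n) d) = r d := by
    intro n
    induction n with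
    | zero => rfl
    | succ n ih =>
      rw [pow_succ', Equiv.Perm.mul_apply, hinv, ih]
  rw [← hn, hk]

variable (hc : G.Connected) {σ : Equiv.Perm G.Dart} (hσ : PlaneMap G σ) {d₀ : G.Dart}
  {ℓ : Sym2 V → ℝ} {h : V → ℝ} {s t : V} {u : V → V} {e : G.Dart} {r : G.Dart → ZMod 2}
  (hB : Bip G ℓ h s t) (hs : s ∈ onFace σ d₀) (ht : t ∈ onFace σ d₀)
  (hr : Cfg σ d₀ ℓ h t u e r) (hl : Least σ d₀ ℓ h t r)

include hσ hB hs ht hr hl

/-- there is no edge inside the least region -/
theorem no_inside (g : G.Dart) (h1 : r g = 1) (h2 : r g.symm = 1) : False := by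
  have hc := hB.conn
  have hnt := not_tr hr.up hr.nt
  have hface : ∀ {x : V}, x ∈ onFace σ d₀ →
      ¬ (∀ d' : G.Dart, d'.fst = x → r d' = 1 ∧ r d'.symm = 1) := by
    rintro x ⟨d', hd', rfl⟩ hall
    have h3 := r_face hr.inv hd'
    rw [hr.base, (hall d' rfl).1] at h3
    exact absurd h3 (by decide)
  have htight : ∀ g : G.Dart, r g = 1 → r g.symm = 1 → |h g.fst - h g.snd| = ℓ s(g.fst, g.snd) :=
    fun g k1 k2 => le_antisymm (hB.lip _ _ g.adj) (not_lt.1 (least_slack hc hσ hr hl k1 k2))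
  obtain ⟨q, hq⟩ := exists_top hr.up e.fst e.snd
  -- no dart above the top
  have habove : ∀ y : V, h q < h y → ∀ d : G.Dart, d.fst = y → r d = 1 → r d.symm = 1 → False := by
    intro y
    induction y using (wf_up h).induction with
    | _ y ih =>
      intro hy d hd k1 k2
      have hoff : ∀ d : G.Dart, d.fst = y → r d + r d.symm = 0 := by
        intro d hd
        by_contra k
        rw [hr.bd] at k
        have := CC_le hr.up hnt hq k
        rw [hd] at this
        exact absurd hy (not_lt.2 this)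
      have hall : ∀ d' : G.Dart, d'.fst = y → r d' = 1 ∧ r d'.symm = 1 := fun d' hd' =>
        all_inside hσ.cyc hr.inv hσ.fst hoff hd k1 hd'
      by_cases hyt : y = t
      · rw [hyt] at hall
        exact hface ht hall
      · have hu := hr.up y hyt
        have h3 := hall ⟨(y, u y), hu.1⟩ rfl
        refine ih (u y) hu.2.2 (hy.trans hu.2.2) (⟨(y, u y), hu.1⟩ : G.Dart).symm rfl h3.2 ?_
        rw [Dart.symm_symm]
        exact h3.1
  -- the lowest inside dart which goes upwards
  have hex : ∃ x : V, ∃ d : G.Dart, d.fst = x ∧ r d = 1 ∧ r d.symm = 1 ∧ h d.fst < h d.snd := by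
    have h3 := htight g h1 h2
    rcases lt_trichotomy (h g.fst) (h g.snd) with h4 | h4 | h4
    · exact ⟨_, g, rfl, h1, h2, h4⟩
    · rw [h4, sub_self, abs_zero] at h3
      have := hB.pos _ _ g.adj
      rw [← h3] at this
      exact absurd this (lt_irrefl _)
    · exact ⟨_, g.symm, rfl, h2, by rw [Dart.symm_symm]; exact h1, h4⟩
  obtain ⟨x, ⟨d, hdx, k1, k2, k3⟩, hmin⟩ := Set.exists_min_image
    {x : V | ∃ d : G.Dart, d.fst = x ∧ r d = 1 ∧ r d.symm = 1 ∧ h d.fst < h d.snd} h
    (Set.toFinite _) hex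
  have hti : h d.snd - h d.fst = ℓ s(d.fst, d.snd) := by
    rw [← htight d k1 k2, abs_of_neg (by linarith)]
    ring
  by_cases hoff : ∀ d : G.Dart, d.fst = x → r d + r d.symm = 0
  · have hall : ∀ d' : G.Dart, d'.fst = x → r d' = 1 ∧ r d'.symm = 1 := fun d' hd' =>
      all_inside hσ.cyc hr.inv hσ.fst hoff hdx k1 hd'
    by_cases hxs : x = s
    · rw [hxs] at hall
      exact hface hs hall
    · obtain ⟨w, hw1, hw2⟩ := hB.dn x hxs
      have h3 := hall ⟨(x, w), hw1⟩ rfl
      have h4 := hB.pos _ _ hw1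
      have h5 : h w < h x := by linarith
      have h6 := hmin w ⟨(⟨(x, w), hw1⟩ : G.Dart).symm, rfl, h3.2, by
        rw [Dart.symm_symm]
        exact h3.1, h5⟩
      exact absurd h5 (not_lt.2 h6)
  · push Not at hoff
    obtain ⟨d₁, hd₁, hne⟩ := hoff
    rw [hr.bd] at hne
    rcases lt_or_ge (h x) (h q) with h3 | h3
    · have hxt : x ≠ t := by
        intro k
        have h4 := hq.min t (orb_top hr.up _) (orb_top hr.up _)
        rw [k] at h3
        exact absurd h3 (not_lt.2 h4)
      have hu := hr.up x hxt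
      have h4 := CC_next (δ := ⟨(x, u x), hu.1⟩) hr.up hnt hq hne (by rw [hd₁]; exact h3)
        (by rw [hd₁]) (by rw [hd₁])
      rw [← hr.bd, least_tight hc hσ hr hl k1 k2 (by rw [hdx]; exact hxt) k3 hti
        ⟨(x, u x), hu.1⟩ (by rw [hdx]) (by rw [hdx])] at h4
      exact absurd h4 (by decide)
    · rw [hdx] at k3
      exact habove d.snd (lt_of_le_of_lt h3 k3) d.symm rfl k2 (by rw [Dart.symm_symm]; exact k1)

/-- the least region is one face -/
theorem one_face {d₁ d : G.Dart} (h1 : r d₁ = 1) (h2 : r d = 1) :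
    (faceNext σ).SameCycle d₁ d := by
  have hc := hB.conn
  have hnt := not_tr hr.up hr.nt
  set S : G.Dart → ZMod 2 := fun x => ind ((faceNext σ).SameCycle d₁ x) with hS
  have hSi : ∀ x, S (faceNext σ x) = S x := fun x =>
    ind_congr Equiv.Perm.sameCycle_apply_right
  have hS1 : S d₁ = 1 := ind_pos (Equiv.Perm.SameCycle.refl _ _)
  have hSr : ∀ x, S x = 1 → r x = 1 := fun x hx => by
    rw [r_face hr.inv (ind_eq_one hx), h1]
  have hS0 : S d₀ = 0 := by
    rcases zmod2_cases (S d₀) with h3 | h3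
    · exact h3
    · have h4 := hSr _ h3
      rw [hr.base] at h4
      exact absurd h4 (by decide)
  have hsupp : ∀ x : G.Dart, S x + S x.symm ≠ 0 → x = e ∨ x = e.symm ∨ Tr u t x := by
    intro x hx
    refine CC_supp fun h3 => ?_
    rw [← hr.bd] at h3
    have h4 := CharTwo.add_eq_zero.1 h3
    have h5 : r x = 1 := by
      rcases zmod2_cases (S x) with h6 | h6 <;> rcases zmod2_cases (S x.symm) with h7 | h7
      · rw [h6, h7] at hx
        exact absurd (by decide) hx
      · rw [h4]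
        exact hSr _ h7
      · exact hSr _ h6
      · exact hSr _ h6
    exact no_inside hσ hB hs ht hr hl x h5 (h4 ▸ h5)
  rcases cyc_or hr.up hnt (fun x => S x + S x.symm) (fun x => by
      show S x.symm + S x.symm.symm = S x + S x.symm
      rw [Dart.symm_symm, add_comm]) (fun v => sum_face hσ.fst S hSi v) hsupp with h4 | h4
  · exfalso
    have h5 := const_face hc hσ hSi h4 hS0 d₁
    rw [hS1] at h5
    exact absurd h5 (by decide)
  · have h5 := const_face hc hσ (S := fun x => S x + r x) (fun x => by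
        show S _ + r _ = S x + r x
        rw [hSi, hr.inv]) (fun x => by
        show S x + r x + (S x.symm + r x.symm) = 0
        have h6 := h4 x
        have h7 := hr.bd x
        have h8 := CharTwo.add_self_eq_zero (CC u t e x)
        linear_combination h6 + h7 + h8) (d₀ := d₀) (by
        show S d₀ + r d₀ = 0
        rw [hS0, hr.base, add_zero]) d
    have h6 : S d = r d := CharTwo.add_eq_zero.1 h5
    rw [h2] at h6
    exact ind_eq_one h6

end

end Vale.Agent.P235.Tight
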