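/-
P235-M (helper802).  The good face: an essential slack edge `e` and a vertex `q` of the face of `e`
which is above both ends of `e` along shortest paths.
-/
import Vale.Agent.P235.R2.H802.Region2

set_option linter.unusedSectionVars false
set_option linter.unusedDecidableInType false
set_option linter.unusedFintypeInType false

namespace Vale.Agent.P235.Tight

open SimpleGraph Finset

variable {V : Type} {G : SimpleGraph V}

/-- all walks round the edge are longer than it -/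
def Essential (G : SimpleGraph V) (ℓ : Sym2 V → ℝ) (e : G.Dart) : Prop :=
  ∀ w : (G.deleteEdges {e.edge}).Walk e.fst e.snd, ℓ s(e.fst, e.snd) < (w.edges.map ℓ).sum

theorem orb_walk {ℓ : Sym2 V → ℝ} {h : V → ℝ} {t : V} {u : V → V} (hu : UpMap G ℓ h t u)
    {e : G.Dart} (he : |h e.fst - h e.snd| < ℓ s(e.fst, e.snd)) {a v : V} (h1 : Orb u t a v) :
    ∃ w : (G.deleteEdges {e.edge}).Walk a v, (w.edges.map ℓ).sum = h v - h a := by
  induction h1 with
  | refl => exact ⟨Walk.nil, by simp⟩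
  | @tail b c _ hbc ih =>
    obtain ⟨w, hw⟩ := ih
    obtain ⟨hb, rfl⟩ := hbc
    have h2 := hu b hb
    have h3 : (G.deleteEdges {e.edge}).Adj b (u b) := by
      rw [deleteEdges_adj]
      refine ⟨h2.1, fun k => ?_⟩
      have k1 : s(b, u b) = s(e.fst, e.snd) := k
      have k2 : |h b - h (u b)| = ℓ s(b, u b) := by
        rw [abs_of_neg (by linarith [h2.2.2]), ← h2.2.1]
        ring
      rw [Sym2.eq_iff] at k1
      rcases k1 with ⟨k3, k4⟩ | ⟨k3, k4⟩
      · rw [k3] at k2 k4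
        rw [k4] at k2
        rw [k2] at he
        exact lt_irrefl _ he
      · rw [k3] at k2 k4
        rw [k4, abs_sub_comm, Sym2.eq_swap] at k2
        rw [k2] at he
        exact lt_irrefl _ he
    refine ⟨w.append (Walk.cons h3 Walk.nil), ?_⟩
    rw [Walk.edges_append, List.map_append, List.sum_append, hw]
    simp only [Walk.edges_cons, Walk.edges_nil, List.map_cons, List.map_nil, List.sum_cons,
      List.sum_nil, add_zero]
    rw [← h2.2.1]
    ring

theorem exists_upMap {ℓ : Sym2 V → ℝ} {h : V → ℝ} {s t : V} (hB : Bip G ℓ h s t) :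
    ∃ u, UpMap G ℓ h t u := by
  classical
  choose! u hu using hB.up
  refine ⟨u, fun v hv => ⟨(hu v hv).1, (hu v hv).2, ?_⟩⟩
  have h1 := hB.pos _ _ (hu v hv).1
  have h2 := (hu v hv).2
  linarith

theorem CC_rev (u : V → V) (t : V) (e d : G.Dart) : CC u t e.symm d = CC u t e d := by
  unfold CC
  rw [Dart.symm_symm]
  show pz u t e.snd d + pz u t e.fst d + (ind (d = e.symm) + ind (d = e)) = _
  ring

theorem Cfg.rev [Fintype V] [DecidableEq V] [Fintype G.Dart] [DecidableEq G.Dart]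
    {σ : Equiv.Perm G.Dart} {d₀ : G.Dart} {ℓ : Sym2 V → ℝ} {h : V → ℝ} {t : V} {u : V → V}
    {e : G.Dart} {r : G.Dart → ZMod 2} (hr : Cfg σ d₀ ℓ h t u e r) :
    Cfg σ d₀ ℓ h t u e.symm r where
  up := hr.up
  nt := by
    have h1 := hr.nt
    rw [abs_sub_comm, Sym2.eq_swap] at h1
    exact h1
  inv := hr.inv
  base := hr.base
  bd := fun d => by rw [CC_rev, hr.bd]

theorem walk_reverse_sum {ℓ : Sym2 V → ℝ} {a b : V} (w : G.Walk a b) :
    (w.reverse.edges.map ℓ).sum = (w.edges.map ℓ).sum := by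
  rw [Walk.edges_reverse, List.map_reverse, List.sum_reverse]

theorem walk_append_sum {ℓ : Sym2 V → ℝ} {a b c : V} (w : G.Walk a b) (w' : G.Walk b c) :
    ((w.append w').edges.map ℓ).sum = (w.edges.map ℓ).sum + (w'.edges.map ℓ).sum := by
  rw [Walk.edges_append, List.map_append, List.sum_append]

/-- what the star replacement needs -/
structure Good (σ : Equiv.Perm G.Dart) (d₀ : G.Dart) (ℓ : Sym2 V → ℝ) (h : V → ℝ) (e : G.Dart)
    (q : V) : Prop where
  nt : |h e.fst - h e.snd| < ℓ s(e.fst, e.snd)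
  far : ¬ (faceNext σ).SameCycle d₀ e
  on : q ∈ onFace σ e
  ne1 : q ≠ e.fst
  ne2 : q ≠ e.snd
  w1 : ∃ w : G.Walk e.fst q, (w.edges.map ℓ).sum = h q - h e.fst
  w2 : ∃ w : G.Walk e.snd q, (w.edges.map ℓ).sum = h q - h e.snd
  lt : ℓ s(e.fst, e.snd) < (h q - h e.fst) + (h q - h e.snd)

/-- **(T3)** the good face -/
theorem exists_good [Finite V] {σ : Equiv.Perm G.Dart} (hσ : PlaneMap G σ) {d₀ : G.Dart}
    {ℓ : Sym2 V → ℝ} {h : V → ℝ} {s t : V} (hB : Bip G ℓ h s t) (hs : s ∈ onFace σ d₀)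
    (ht : t ∈ onFace σ d₀) (hex : ∃ e : G.Dart, |h e.fst - h e.snd| < ℓ s(e.fst, e.snd))
    (hess : ∀ e : G.Dart, |h e.fst - h e.snd| < ℓ s(e.fst, e.snd) → Essential G ℓ e) :
    ∃ e q, Good σ d₀ ℓ h e q := by
  classical
  have := Fintype.ofFinite V
  obtain ⟨u₀, hu₀⟩ := exists_upMap hB
  obtain ⟨e₀, he₀⟩ := hex
  obtain ⟨r₀, hr₀⟩ := exists_cfg hB.conn hσ d₀ hu₀ he₀
  obtain ⟨u, e₁, r, hr₁, hl⟩ := exists_least ⟨u₀, e₀, r₀, hr₀⟩
  obtain ⟨e, hr, he1⟩ : ∃ e, Cfg σ d₀ ℓ h t u e r ∧ r e = 1 := by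
    rcases zmod2_cases (r e₁) with h1 | h1
    · refine ⟨e₁.symm, hr₁.rev, ?_⟩
      have h2 := hr₁.bd e₁
      rw [CC_self (not_tr hr₁.up hr₁.nt), h1, zero_add] at h2
      exact h2
    · exact ⟨e₁, hr₁, h1⟩
  have hnt := not_tr hr.up hr.nt
  obtain ⟨q, hq⟩ := exists_top hr.up e.fst e.snd
  obtain ⟨w1, hw1⟩ := orb_walk hr.up hr.nt hq.left
  obtain ⟨w2, hw2⟩ := orb_walk hr.up hr.nt hq.right
  have hE := hess e hr.nt
  have hle : G.deleteEdges {e.edge} ≤ G := deleteEdges_le _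
  have hlt : ℓ s(e.fst, e.snd) < (h q - h e.fst) + (h q - h e.snd) := by
    have h1 := hE (w1.append w2.reverse)
    rw [walk_append_sum, walk_reverse_sum, hw1, hw2] at h1
    exact h1
  have hab := abs_lt.1 hr.nt
  have hqa : q ≠ e.fst := by
    intro k
    rw [k] at hlt
    linarith [hab.1]
  have hqb : q ≠ e.snd := by
    intro k
    rw [k] at hlt
    linarith [hab.2]
  have hon : q ∈ onFace σ e := by
    rcases Relation.ReflTransGen.cases_tail hq.left with k | ⟨w, hw, hwt, hwq⟩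
    · exact absurd k hqa
    · have h1 := hr.up w hwt
      set δ : G.Dart := ⟨(w, u w), h1.1⟩ with hδ
      have h2 : ¬ Orb u t e.snd w := fun k => by
        have h3 := hq.min w hw k
        rw [hwq] at h3
        exact absurd h1.2.2 (not_lt.2 h3)
      have h3 : CC u t e δ = 1 := by
        have k1 : ind (Orb u t e.fst δ.fst) = 1 := ind_pos hw
        have k2 : ind (Orb u t e.snd δ.fst) = 0 := ind_neg h2
        rw [CC_up hr.up hnt hwt rfl, k1, k2, add_zero]
      rw [← hr.bd] at h3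
      rcases zmod2_cases (r δ) with h4 | h4
      · rw [h4, zero_add] at h3
        exact ⟨δ.symm, one_face hσ hB hs ht hr hl he1 h3, hwq.symm⟩
      · have h5 : r (faceNext σ δ) = 1 := by rw [hr.inv, h4]
        refine ⟨faceNext σ δ, one_face hσ hB hs ht hr hl he1 h5, ?_⟩
        rw [faceNext_apply, hσ.fst]
        exact hwq.symm
  refine ⟨e, q, hr.nt, ?_, hon, hqa, hqb, ⟨w1.mapLe hle, ?_⟩, ⟨w2.mapLe hle, ?_⟩, hlt⟩
  · intro k
    have h1 := r_face hr.inv k
    rw [hr.base, he1] at h1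
    exact absurd h1 (by decide)
  · rw [Walk.edges_mapLe_eq_edges, hw1]
  · rw [Walk.edges_mapLe_eq_edges, hw2]

/-- slack edges have two different sides -/
theorem two_sides [Finite V] {σ : Equiv.Perm G.Dart} (hσ : PlaneMap G σ)
    {ℓ : Sym2 V → ℝ} {h : V → ℝ} {s t : V} (hB : Bip G ℓ h s t) {e : G.Dart}
    (he : |h e.fst - h e.snd| < ℓ s(e.fst, e.snd)) : ¬ (faceNext σ).SameCycle e e.symm := by
  classical
  have := Fintype.ofFinite V
  obtain ⟨u₀, hu₀⟩ := exists_upMap hB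
  obtain ⟨r, hr⟩ := exists_cfg hB.conn hσ e hu₀ he
  intro k
  have h1 := hr.bd e
  rw [CC_self (not_tr hu₀ he), r_face hr.inv k, CharTwo.add_self_eq_zero] at h1
  exact absurd h1 (by decide)

end Vale.Agent.P235.Tight
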