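/-
P235-M (helper802).  Adding a vertex inside a face, joined to three of its vertices.
-/
import Vale.Agent.P235.R2.H802.Genus

set_option linter.unusedSectionVars false
set_option linter.all false

namespace Vale.Agent.P235.Tight

open SimpleGraph

/-- the six new darts -/
inductive ND
  | az | za | bz | zb | qz | zq
  deriving DecidableEq

instance : Fintype ND :=
  ⟨{.az, .za, .bz, .zb, .qz, .zq}, by intro n; cases n <;> simp⟩

theorem card_ND : Fintype.card ND = 6 := rfl

/-- reversal of new darts -/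
def ND.rev : ND → ND
  | .az => .za
  | .za => .az
  | .bz => .zb
  | .zb => .bz
  | .qz => .zq
  | .zq => .qz

/-- rotation of the new darts -/
def ND.rot : Equiv.Perm ND where
  toFun
    | .az => .az
    | .bz => .bz
    | .qz => .qz
    | .za => .zq
    | .zq => .zb
    | .zb => .za
  invFun
    | .az => .az
    | .bz => .bz
    | .qz => .qz
    | .za => .zb
    | .zq => .za
    | .zb => .zq
  left_inv := by intro n; cases n <;> rfl
  right_inv := by intro n; cases n <;> rfl

/-- end points of the new darts -/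
def ndP {V : Type} (a b q : V) : ND → Option V × Option V
  | .az => (some a, none)
  | .za => (none, some a)
  | .bz => (some b, none)
  | .zb => (none, some b)
  | .qz => (some q, none)
  | .zq => (none, some q)

/-- old and new darts -/
def toD {V : Type} (G : SimpleGraph V) (a b q : V) : G.Dart ⊕ ND → (addZ G a b q).Dart
  | .inl d => ⟨(some d.fst, some d.snd), d.adj⟩
  | .inr n => ⟨ndP a b q n, by
      cases n
      · exact Or.inl rfl
      · exact Or.inl rfl
      · exact Or.inr (Or.inl rfl)
      · exact Or.inr (Or.inl rfl)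
      · exact Or.inr (Or.inr rfl)
      · exact Or.inr (Or.inr rfl)⟩

theorem toD_bij {V : Type} (G : SimpleGraph V) {a b q : V} (hab : a ≠ b) (haq : q ≠ a)
    (hbq : q ≠ b) : Function.Bijective (toD G a b q) := by
  constructor
  · rintro (d | n) (d' | n') h
    · have h1 : (some d.fst, some d.snd) =
        ((some d'.fst, some d'.snd) : Option V × Option V) :=
        congrArg SimpleGraph.Dart.toProd h
      simp only [Prod.mk.injEq, Option.some.injEq] at h1
      congr 1
      exact SimpleGraph.Dart.ext _ _ (Prod.ext h1.1 h1.2)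
    · exfalso
      have h1 : (some d.fst, some d.snd) = ndP a b q n' :=
        congrArg SimpleGraph.Dart.toProd h
      cases n' <;> simp [ndP] at h1
    · exfalso
      have h1 : ndP a b q n = (some d'.fst, some d'.snd) :=
        congrArg SimpleGraph.Dart.toProd h
      cases n <;> simp [ndP] at h1
    · have h1 : ndP a b q n = ndP a b q n' := congrArg SimpleGraph.Dart.toProd h
      cases n <;> cases n' <;>
        simp [ndP, hab, hab.symm, haq, haq.symm, hbq, hbq.symm] at h1 ⊢
  · rintro ⟨⟨x, y⟩, h⟩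
    rcases x with _ | x <;> rcases y with _ | y
    · exact h.elim
    · rcases h with rfl | rfl | rfl
      · exact ⟨.inr .za, rfl⟩
      · exact ⟨.inr .zb, rfl⟩
      · exact ⟨.inr .zq, rfl⟩
    · rcases h with rfl | rfl | rfl
      · exact ⟨.inr .az, rfl⟩
      · exact ⟨.inr .bz, rfl⟩
      · exact ⟨.inr .qz, rfl⟩
    · exact ⟨.inl ⟨(x, y), h⟩, rfl⟩

theorem addZ_connected {V : Type} {G : SimpleGraph V} (hc : G.Connected) (a b q : V) :
    (addZ G a b q).Connected := by
  have h1 : ∀ {x y : V}, G.Walk x y → (addZ G a b q).Reachable (some x) (some y) := by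
    intro x y p
    induction p with
    | nil => exact Reachable.refl _
    | @cons x y z hxy _ ih =>
      have h2 : (addZ G a b q).Adj (some x) (some y) := hxy
      exact h2.reachable.trans ih
  have h2 : ∀ x : Option V, (addZ G a b q).Reachable x (some a) := by
    rintro (_ | x)
    · have h3 : (addZ G a b q).Adj none (some a) := Or.inl rfl
      exact h3.reachable
    · obtain ⟨p⟩ := hc.preconnected x a
      exact h1 p
  have : Nonempty (Option V) := ⟨none⟩
  exact ⟨fun x y => (h2 x).trans (h2 y).symm⟩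

theorem rel_cyc {α : Type} {f : Equiv.Perm α} {S : α → α → Prop} (hr : ∀ x, S x x)
    (hs : ∀ x y, S x y → S y x) (ht : ∀ x y z, S x y → S y z → S x z) (h : ∀ x, S x (f x))
    {x y : α} (hxy : f.SameCycle x y) : S x y := by
  have hn : ∀ (n : ℤ) (d : α), S d ((f ^ n) d) := by
    intro n
    induction n using Int.induction_on with
    | zero => intro d; exact hr d
    | succ n ih =>
      intro d
      rw [zpow_add_one, Equiv.Perm.mul_apply]
      exact ht _ _ _ (h d) (ih _)
    | pred n ih =>
      intro d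
      have h3 := h (f⁻¹ d)
      rw [show f (f⁻¹ d) = d from Equiv.apply_symm_apply _ _] at h3
      rw [zpow_sub_one, Equiv.Perm.mul_apply]
      exact ht _ _ _ (hs _ _ h3) (ih _)
  obtain ⟨n, rfl⟩ := hxy
  exact hn n x

theorem card_edges_add {V : Type} [Finite V] {G : SimpleGraph V} {a b q : V} (hab : a ≠ b)
    (haq : q ≠ a) (hbq : q ≠ b) :
    Nat.card (addZ G a b q).edgeSet = Nat.card G.edgeSet + 3 := by
  classical
  have hDart : Finite G.Dart := fin_dart
  have hDart' : Finite (addZ G a b q).Dart := fin_dart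
  have := Fintype.ofFinite V
  have : Fintype G.Dart := Fintype.ofFinite _
  have h1 := SimpleGraph.dart_card_eq_twice_card_edges G
  have h2 := SimpleGraph.dart_card_eq_twice_card_edges (addZ G a b q)
  have h3 : Fintype.card (addZ G a b q).Dart = Fintype.card G.Dart + 6 := by
    rw [← Fintype.card_congr (Equiv.ofBijective _ (toD_bij G hab haq hbq)), Fintype.card_sum]
    rfl
  have h4 : Nat.card G.edgeSet = G.edgeFinset.card := by
    rw [Nat.card_eq_fintype_card, SimpleGraph.edgeFinset_card]
  have h5 : Nat.card (addZ G a b q).edgeSet = (addZ G a b q).edgeFinset.card := by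
    rw [Nat.card_eq_fintype_card, SimpleGraph.edgeFinset_card]
  rw [h4, h5]
  have h6 : Fintype.card G.Dart = 2 * G.edgeFinset.card := by
    convert h1
  omega

section perm

variable {V : Type} {G : SimpleGraph V}

/-- exchange of an old and a new dart -/
noncomputable def sw (x : G.Dart) (n : ND) : Equiv.Perm (G.Dart ⊕ ND) := by
  classical
  exact Equiv.swap (.inl x) (.inr n)

theorem sw_l (x : G.Dart) (n : ND) : sw x n (.inl x) = .inr n := by
  classical
  exact Equiv.swap_apply_left _ _

theorem sw_r (x : G.Dart) (n : ND) : sw x n (.inr n) = .inl x := by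
  classical
  exact Equiv.swap_apply_right _ _

theorem sw_ol {x d : G.Dart} (n : ND) (h : d ≠ x) : sw x n (.inl d) = .inl d := by
  classical
  exact Equiv.swap_apply_of_ne_of_ne (by simpa using h) (by simp)

theorem sw_or (x : G.Dart) {n m : ND} (h : m ≠ n) : sw x n (.inr m) = .inr m := by
  classical
  exact Equiv.swap_apply_of_ne_of_ne (by simp) (by simpa using h)

variable (σ : Equiv.Perm G.Dart) (x₁ x₂ x₃ : G.Dart)

/-- the new rotation on old and new darts: a new dart is inserted after each of `x₁`, `x₂`, `x₃` -/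
noncomputable def newR : Equiv.Perm (G.Dart ⊕ ND) :=
  Equiv.sumCongr σ ND.rot * sw x₁ .az * sw x₂ .bz * sw x₃ .qz

theorem newR_apply (z : G.Dart ⊕ ND) : newR σ x₁ x₂ x₃ z =
    Equiv.sumCongr σ ND.rot (sw x₁ .az (sw x₂ .bz (sw x₃ .qz z))) := rfl

variable {x₁ x₂ x₃}

variable (h12 : x₁ ≠ x₂) (h13 : x₁ ≠ x₃) (h23 : x₂ ≠ x₃)

include h12 h13 h23

theorem newR_1 : newR σ x₁ x₂ x₃ (.inl x₁) = .inr .az := by
  rw [newR_apply, sw_ol _ h13, sw_ol _ h12, sw_l]
  rfl

theorem newR_2 : newR σ x₁ x₂ x₃ (.inl x₂) = .inr .bz := by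
  rw [newR_apply, sw_ol _ h23, sw_l, sw_or _ (by simp)]
  rfl

theorem newR_3 : newR σ x₁ x₂ x₃ (.inl x₃) = .inr .qz := by
  rw [newR_apply, sw_l, sw_or _ (by simp), sw_or _ (by simp)]
  rfl

theorem newR_old {d : G.Dart} (h1 : d ≠ x₁) (h2 : d ≠ x₂) (h3 : d ≠ x₃) :
    newR σ x₁ x₂ x₃ (.inl d) = .inl (σ d) := by
  rw [newR_apply, sw_ol _ h3, sw_ol _ h2, sw_ol _ h1]
  rfl

theorem newR_az : newR σ x₁ x₂ x₃ (.inr .az) = .inl (σ x₁) := by
  rw [newR_apply, sw_or _ (by simp), sw_or _ (by simp), sw_r]
  rfl

theorem newR_bz : newR σ x₁ x₂ x₃ (.inr .bz) = .inl (σ x₂) := by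
  rw [newR_apply, sw_or _ (by simp), sw_r, sw_ol _ h12.symm]
  rfl

theorem newR_qz : newR σ x₁ x₂ x₃ (.inr .qz) = .inl (σ x₃) := by
  rw [newR_apply, sw_r, sw_ol _ h23.symm, sw_ol _ h13.symm]
  rfl

theorem newR_z {n : ND} (h1 : n ≠ .az) (h2 : n ≠ .bz) (h3 : n ≠ .qz) :
    newR σ x₁ x₂ x₃ (.inr n) = .inr (ND.rot n) := by
  rw [newR_apply, sw_or _ h3, sw_or _ h2, sw_or _ h1]
  rfl

end perm

end Vale.Agent.P235.Tight
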