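/-
P235-M (helper802).  Path distances of the two surgeries.
-/
import Vale.Agent.P235.R2.H802.Region3
import Vale.Agent.P235.R2.H802.Star

set_option linter.unusedSectionVars false

namespace Vale.Agent.P235.Tight

open SimpleGraph

variable {V : Type} {G : SimpleGraph V} {ℓ : Sym2 V → ℝ}

theorem walk_nonneg (hpos : ∀ u v, G.Adj u v → 0 < ℓ s(u, v)) {x y : V} (w : G.Walk x y) :
    0 ≤ (w.edges.map ℓ).sum := by
  refine List.sum_nonneg ?_
  intro r hr
  obtain ⟨e, he, rfl⟩ := List.mem_map.1 hr
  have h1 := w.edges_subset_edgeSet he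
  induction e using Sym2.ind with
  | _ a b => exact (hpos a b h1).le

theorem pd_le (hpos : ∀ u v, G.Adj u v → 0 < ℓ s(u, v)) {x y : V} (w : G.Walk x y) :
    pathDist G ℓ x y ≤ (w.edges.map ℓ).sum := by
  refine ciInf_le ⟨0, ?_⟩ w
  rintro _ ⟨w', rfl⟩
  exact walk_nonneg hpos w'

theorem le_pd (hc : G.Connected) {x y : V} {c : ℝ}
    (h : ∀ w : G.Walk x y, c ≤ (w.edges.map ℓ).sum) : c ≤ pathDist G ℓ x y := by
  have : Nonempty (G.Walk x y) := hc.preconnected x y
  exact le_ciInf h

theorem lip_walk {φ : V → ℝ} (hφ : ∀ u v, G.Adj u v → |φ u - φ v| ≤ ℓ s(u, v)) {x y : V}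
    (w : G.Walk x y) : φ y - φ x ≤ (w.edges.map ℓ).sum := by
  induction w with
  | nil => simp
  | @cons a b c hab p ih =>
    simp only [Walk.edges_cons, List.map_cons, List.sum_cons]
    have h1 := abs_le.1 (hφ a b hab)
    linarith [h1.1, h1.2]

theorem lip_pd (hc : G.Connected) {φ : V → ℝ}
    (hφ : ∀ u v, G.Adj u v → |φ u - φ v| ≤ ℓ s(u, v)) (x y : V) :
    φ y - φ x ≤ pathDist G ℓ x y := le_pd hc fun w => lip_walk hφ w

theorem pd_self (hpos : ∀ u v, G.Adj u v → 0 < ℓ s(u, v)) (x : V) : pathDist G ℓ x x = 0 := by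
  refine le_antisymm ?_ ?_
  · have := pd_le hpos (Walk.nil : G.Walk x x)
    simpa using this
  · exact Real.iInf_nonneg fun w => walk_nonneg hpos w

theorem pd_symm (x y : V) : pathDist G ℓ x y = pathDist G ℓ y x := by
  unfold pathDist
  refine Equiv.iInf_congr ⟨Walk.reverse, Walk.reverse, fun w => w.reverse_reverse,
    fun w => w.reverse_reverse⟩ fun w => ?_
  exact walk_reverse_sum w

theorem pd_tri (hc : G.Connected) (hpos : ∀ u v, G.Adj u v → 0 < ℓ s(u, v)) (x y z : V) :
    pathDist G ℓ x z ≤ pathDist G ℓ x y + pathDist G ℓ y z := by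
  have h1 : ∀ w : G.Walk x y, pathDist G ℓ x z - pathDist G ℓ y z ≤ (w.edges.map ℓ).sum := by
    intro w
    have h2 : pathDist G ℓ x z - (w.edges.map ℓ).sum ≤ pathDist G ℓ y z :=
      le_pd hc fun w' => by
        have h3 := pd_le hpos (w.append w')
        rw [walk_append_sum] at h3
        linarith
    linarith
  have h2 := le_pd hc h1
  linarith

theorem pd_adj (hpos : ∀ u v, G.Adj u v → 0 < ℓ s(u, v)) {x y : V} (h : G.Adj x y) :
    pathDist G ℓ x y ≤ ℓ s(x, y) := by
  have := pd_le hpos (Walk.cons h Walk.nil)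
  simpa using this

theorem pd_lip (hc : G.Connected) (hpos : ∀ u v, G.Adj u v → 0 < ℓ s(u, v)) (x u v : V)
    (h : G.Adj u v) : |pathDist G ℓ x u - pathDist G ℓ x v| ≤ ℓ s(u, v) := by
  have h1 := pd_tri hc hpos x u v
  have h2 := pd_tri hc hpos x v u
  have h3 := pd_adj hpos h
  rw [pd_symm v u] at h2
  rw [abs_le]
  constructor <;> linarith

/-- comparison of two graphs -/
theorem pd_eq {V' : Type} {G' : SimpleGraph V'} {ℓ' : Sym2 V' → ℝ} (hc : G.Connected)
    (hc' : G'.Connected) (hpos : ∀ u v, G.Adj u v → 0 < ℓ s(u, v))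
    (hpos' : ∀ u v, G'.Adj u v → 0 < ℓ' s(u, v)) (ι : V → V')
    (hA : ∀ u v, G.Adj u v → pathDist G' ℓ' (ι u) (ι v) ≤ ℓ s(u, v))
    (hB : ∀ x, ∃ φ : V' → ℝ, (∀ u v, G'.Adj u v → |φ u - φ v| ≤ ℓ' s(u, v)) ∧
      ∀ y, φ (ι y) = pathDist G ℓ x y) (x y : V) :
    pathDist G' ℓ' (ι x) (ι y) = pathDist G ℓ x y := by
  refine le_antisymm ?_ ?_
  · refine le_pd hc fun w => ?_
    induction w with
    | nil => simp [pd_self hpos']
    | @cons a b c hab p ih =>
      simp only [Walk.edges_cons, List.map_cons, List.sum_cons]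
      have h1 := pd_tri hc' hpos' (ι a) (ι b) (ι c)
      have h2 := hA a b hab
      linarith
  · obtain ⟨φ, h1, h2⟩ := hB x
    have h3 := lip_pd hc' h1 (ι x) (ι y)
    rw [h2, h2, pd_self hpos] at h3
    linarith

/-! ### the star -/

/-- lengths after adding the vertex `none` with height `ζ` -/
noncomputable def lenZ (ℓ : Sym2 V → ℝ) (h : V → ℝ) (ζ : ℝ) : Sym2 (Option V) → ℝ :=
  Sym2.lift ⟨fun x y => match x, y with
    | some x, some y => ℓ s(x, y)
    | none, some x => |ζ - h x|
    | some x, none => |ζ - h x|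
    | none, none => 0, by
      rintro (_ | x) (_ | y)
      · rfl
      · rfl
      · rfl
      · show ℓ s(x, y) = ℓ s(y, x)
        rw [Sym2.eq_swap]⟩

theorem lenZ_old (ℓ : Sym2 V → ℝ) (h : V → ℝ) (ζ : ℝ) (x y : V) :
    lenZ ℓ h ζ s(some x, some y) = ℓ s(x, y) := rfl

theorem lenZ_new (ℓ : Sym2 V → ℝ) (h : V → ℝ) (ζ : ℝ) (x : V) :
    lenZ ℓ h ζ s(none, some x) = |ζ - h x| := rfl

theorem lenZ_new' (ℓ : Sym2 V → ℝ) (h : V → ℝ) (ζ : ℝ) (x : V) :
    lenZ ℓ h ζ s(some x, none) = |ζ - h x| := rfl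

/-- heights after adding a vertex -/
def hZ (h : V → ℝ) (ζ : ℝ) : Option V → ℝ
  | some x => h x
  | none => ζ

/-- the height of the new vertex -/
noncomputable def zet (ℓ : Sym2 V → ℝ) (h : V → ℝ) (e : G.Dart) : ℝ :=
  (h e.fst + h e.snd + ℓ s(e.fst, e.snd)) / 2

section star

variable {σ : Equiv.Perm G.Dart} {d₀ : G.Dart} {h : V → ℝ} {s t : V} {e : G.Dart} {q : V}
  (hB : Bip G ℓ h s t) (hg : Good σ d₀ ℓ h e q)

include hg

theorem zet_a : 0 < zet ℓ h e - h e.fst := by
  have := abs_lt.1 hg.nt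
  unfold zet
  linarith [this.1, this.2]

theorem zet_b : 0 < zet ℓ h e - h e.snd := by
  have := abs_lt.1 hg.nt
  unfold zet
  linarith [this.1, this.2]

theorem zet_q : zet ℓ h e - h q < 0 := by
  have := hg.lt
  unfold zet
  linarith

include hB

theorem bip_star : Bip (addZ G e.fst e.snd q) (lenZ ℓ h (zet ℓ h e)) (hZ h (zet ℓ h e))
    (some s) (some t) where
  conn := addZ_connected hB.conn _ _ _
  pos := by
    rintro (_ | x) (_ | y) hxy
    · exact hxy.elim
    · show 0 < |zet ℓ h e - h y|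
      rcases hxy with rfl | rfl | rfl
      · exact abs_pos.2 (zet_a hg).ne'
      · exact abs_pos.2 (zet_b hg).ne'
      · exact abs_pos.2 (zet_q hg).ne
    · show 0 < |zet ℓ h e - h x|
      rcases hxy with rfl | rfl | rfl
      · exact abs_pos.2 (zet_a hg).ne'
      · exact abs_pos.2 (zet_b hg).ne'
      · exact abs_pos.2 (zet_q hg).ne
    · exact hB.pos x y hxy
  lip := by
    rintro (_ | x) (_ | y) hxy
    · exact hxy.elim
    · exact le_rfl
    · show |h x - zet ℓ h e| ≤ |zet ℓ h e - h x|
      rw [abs_sub_comm]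
    · exact hB.lip x y hxy
  up := by
    rintro (_ | x) hx
    · refine ⟨some q, Or.inr (Or.inr rfl), ?_⟩
      show h q - zet ℓ h e = |zet ℓ h e - h q|
      rw [abs_of_neg (zet_q hg)]
      ring
    · obtain ⟨w, hw1, hw2⟩ := hB.up x fun k => hx (by rw [k])
      exact ⟨some w, hw1, hw2⟩
  dn := by
    rintro (_ | x) hx
    · refine ⟨some e.fst, Or.inl rfl, ?_⟩
      show zet ℓ h e - h e.fst = |zet ℓ h e - h e.fst|
      rw [abs_of_pos (zet_a hg)]
    · obtain ⟨w, hw1, hw2⟩ := hB.dn x fun k => hx (by rw [k])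
      exact ⟨some w, hw1, hw2⟩

/-- the star keeps all distances -/
theorem pd_star (x y : V) : pathDist (addZ G e.fst e.snd q) (lenZ ℓ h (zet ℓ h e)) (some x)
    (some y) = pathDist G ℓ x y := by
  have hB' := bip_star hB hg
  refine pd_eq hB.conn hB'.conn hB.pos hB'.pos some (fun u v huv => ?_) (fun x => ?_) x y
  · have h1 : (addZ G e.fst e.snd q).Adj (some u) (some v) := huv
    exact pd_adj hB'.pos h1
  · set c : V → ℝ := fun p => |zet ℓ h e - h p| with hc
    set d := pathDist G ℓ x with hd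
    have tri : ∀ u v, d v ≤ d u + pathDist G ℓ u v := fun u v => pd_tri hB.conn hB.pos x u v
    have ca : c e.fst = zet ℓ h e - h e.fst := abs_of_pos (zet_a hg)
    have cb : c e.snd = zet ℓ h e - h e.snd := abs_of_pos (zet_b hg)
    have cq : c q = h q - zet ℓ h e := by
      show |zet ℓ h e - h q| = _
      rw [abs_of_neg (zet_q hg)]
      ring
    have dab : pathDist G ℓ e.fst e.snd ≤ c e.fst + c e.snd := by
      rw [ca, cb]
      have := pd_adj hB.pos e.adj
      unfold zet
      linarith
    have daq : pathDist G ℓ e.fst q ≤ c e.fst + c q := by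
      rw [ca, cq]
      obtain ⟨w, hw⟩ := hg.w1
      have := pd_le hB.pos w
      rw [hw] at this
      linarith
    have dbq : pathDist G ℓ e.snd q ≤ c e.snd + c q := by
      rw [cb, cq]
      obtain ⟨w, hw⟩ := hg.w2
      have := pd_le hB.pos w
      rw [hw] at this
      linarith
    set m := min (d e.fst + c e.fst) (min (d e.snd + c e.snd) (d q + c q)) with hm
    have m1 : m ≤ d e.fst + c e.fst := min_le_left _ _
    have m2 : m ≤ d e.snd + c e.snd := (min_le_right _ _).trans (min_le_left _ _)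
    have m3 : m ≤ d q + c q := (min_le_right _ _).trans (min_le_right _ _)
    have hself : ∀ p, 0 ≤ c p := fun p => abs_nonneg _
    have key : ∀ p, p = e.fst ∨ p = e.snd ∨ p = q → |m - d p| ≤ c p := by
      intro p hp
      have k1 : d p - c p ≤ d e.fst + c e.fst := by
        rcases hp with rfl | rfl | rfl
        · linarith [hself e.fst]
        · linarith [tri e.fst e.snd]
        · linarith [tri e.fst p]
      have k2 : d p - c p ≤ d e.snd + c e.snd := by
        rcases hp with rfl | rfl | rfl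
        · have := tri e.snd e.fst
          rw [pd_symm] at this
          linarith
        · linarith [hself e.snd]
        · linarith [tri e.snd p]
      have k3 : d p - c p ≤ d q + c q := by
        rcases hp with rfl | rfl | rfl
        · have := tri q e.fst
          rw [pd_symm] at this
          linarith
        · have := tri q e.snd
          rw [pd_symm] at this
          linarith
        · linarith [hself p]
      have k4 : d p - c p ≤ m := le_min k1 (le_min k2 k3)
      have k5 : m ≤ d p + c p := by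
        rcases hp with rfl | rfl | rfl
        · exact m1
        · exact m2
        · exact m3
      rw [abs_le]
      constructor <;> linarith
    refine ⟨hZ d m, ?_, fun y => rfl⟩
    rintro (_ | u) (_ | v) huv
    · exact huv.elim
    · exact key v huv
    · show |d u - m| ≤ |zet ℓ h e - h u|
      rw [abs_sub_comm]
      exact key u huv
    · exact pd_lip hB.conn hB.pos x u v huv

end star

end Vale.Agent.P235.Tight
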