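/-
P235-M (helper802).  Deleting an edge of a plane map.
-/
import Vale.Agent.P235.R2.H802.Genus

set_option linter.unusedSectionVars false

namespace Vale.Agent.P235.Tight

open SimpleGraph

variable {V : Type} {G : SimpleGraph V}

/-- the darts of the graph without the edge of `e` -/
def upD (e : G.Dart) (d : (G.deleteEdges {e.edge}).Dart) : G.Dart :=
  ⟨d.toProd, (deleteEdges_adj.1 d.adj).1⟩

theorem upD_inj (e : G.Dart) : Function.Injective (upD e) := fun _ _ h =>
  Dart.ext _ _ (congrArg (fun x : G.Dart => x.toProd) h)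

theorem upD_symm (e : G.Dart) (d : (G.deleteEdges {e.edge}).Dart) :
    upD e d.symm = (upD e d).symm := rfl

theorem upD_ne (e : G.Dart) (d : (G.deleteEdges {e.edge}).Dart) :
    upD e d ≠ e ∧ upD e d ≠ e.symm := by
  have h1 := (deleteEdges_adj.1 d.adj).2
  have h2 : (upD e d).edge ≠ e.edge := fun k => h1 k
  rw [Ne, dart_edge_eq_iff] at h2
  push Not at h2
  exact h2

theorem exists_upD {e x : G.Dart} (h1 : x ≠ e) (h2 : x ≠ e.symm) : ∃ d, upD e d = x := by
  refine ⟨⟨x.toProd, deleteEdges_adj.2 ⟨x.adj, fun k => ?_⟩⟩, rfl⟩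
  have h3 : x.edge = e.edge := k
  rw [dart_edge_eq_iff] at h3
  rcases h3 with h3 | h3
  · exact h1 h3
  · exact h2 h3

theorem fst_ne (e : G.Dart) : e.fst ≠ e.symm.fst := e.adj.ne

/-- the rotation which bypasses the two darts -/
noncomputable def byp (σ : Equiv.Perm G.Dart) (e : G.Dart) : Equiv.Perm G.Dart := by
  classical
  exact σ * Equiv.swap e (σ⁻¹ e) * Equiv.swap e.symm (σ⁻¹ e.symm)

section byp

variable {σ : Equiv.Perm G.Dart} (fst : ∀ d, (σ d).fst = d.fst) (e : G.Dart)

include fst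

theorem inv_fst (x : G.Dart) : (σ⁻¹ x).fst = x.fst := by
  rw [← fst, show σ (σ⁻¹ x) = x from Equiv.apply_symm_apply _ _]

theorem inv_eq {x y : G.Dart} : x = σ⁻¹ y ↔ σ x = y := by
  rw [Equiv.Perm.eq_inv_iff_eq]

theorem byp_self : byp σ e e = e := by
  classical
  have h1 : e ≠ e.symm := (Dart.symm_ne e).symm
  have h2 : e ≠ σ⁻¹ e.symm := fun k => by
    have := congrArg (fun d : G.Dart => d.fst) k
    rw [inv_fst fst] at this
    exact fst_ne e this
  show σ (Equiv.swap e (σ⁻¹ e) (Equiv.swap e.symm (σ⁻¹ e.symm) e)) = e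
  rw [Equiv.swap_apply_of_ne_of_ne h1 h2, Equiv.swap_apply_left]
  exact Equiv.apply_symm_apply _ _

theorem byp_symm : byp σ e e.symm = e.symm := by
  classical
  have h1 : σ⁻¹ e.symm ≠ e := fun k => by
    have := congrArg (fun d : G.Dart => d.fst) k
    rw [inv_fst fst] at this
    exact fst_ne e this.symm
  have h2 : σ⁻¹ e.symm ≠ σ⁻¹ e := fun k => Dart.symm_ne e (σ⁻¹.injective k)
  show σ (Equiv.swap e (σ⁻¹ e) (Equiv.swap e.symm (σ⁻¹ e.symm) e.symm)) = e.symm
  rw [Equiv.swap_apply_left, Equiv.swap_apply_of_ne_of_ne h1 h2]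
  exact Equiv.apply_symm_apply _ _

theorem byp_one {x : G.Dart} (h1 : x ≠ e) (h2 : x ≠ e.symm) (h3 : σ x ≠ e) (h4 : σ x ≠ e.symm) :
    byp σ e x = σ x := by
  classical
  show σ (Equiv.swap e (σ⁻¹ e) (Equiv.swap e.symm (σ⁻¹ e.symm) x)) = σ x
  rw [Equiv.swap_apply_of_ne_of_ne h2 (fun k => h4 ((inv_eq fst).1 k)),
    Equiv.swap_apply_of_ne_of_ne h1 (fun k => h3 ((inv_eq fst).1 k))]

theorem byp_two {x : G.Dart} (_ : x ≠ e) (h2 : x ≠ e.symm) (h3 : σ x = e ∨ σ x = e.symm) :
    byp σ e x = σ (σ x) := by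
  classical
  show σ (Equiv.swap e (σ⁻¹ e) (Equiv.swap e.symm (σ⁻¹ e.symm) x)) = σ (σ x)
  rcases h3 with h3 | h3
  · have h4 : x ≠ σ⁻¹ e.symm := fun k => by
      rw [(inv_eq fst).1 k] at h3
      exact Dart.symm_ne e h3
    have h5 : x = σ⁻¹ e := (inv_eq fst).2 h3
    rw [Equiv.swap_apply_of_ne_of_ne h2 h4, h5, Equiv.swap_apply_right]
    rw [show σ (σ⁻¹ e) = e from Equiv.apply_symm_apply _ _]
  · have h5 : x = σ⁻¹ e.symm := (inv_eq fst).2 h3
    have h6 : e.symm ≠ σ⁻¹ e := fun k => by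
      have := congrArg (fun d : G.Dart => d.fst) k
      rw [inv_fst fst] at this
      exact fst_ne e this.symm
    rw [h5, Equiv.swap_apply_right, Equiv.swap_apply_of_ne_of_ne (Dart.symm_ne e) h6]
    rw [show σ (σ⁻¹ e.symm) = e.symm from Equiv.apply_symm_apply _ _]

theorem byp_fst (x : G.Dart) : (byp σ e x).fst = x.fst := by
  by_cases h1 : x = e
  · rw [h1, byp_self fst]
  by_cases h2 : x = e.symm
  · rw [h2, byp_symm fst]
  by_cases h3 : σ x = e ∨ σ x = e.symm
  · rw [byp_two fst e h1 h2 h3, fst, fst]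
  · push Not at h3
    rw [byp_one fst e h1 h2 h3.1 h3.2, fst]

/-- the rotation of the smaller graph -/
theorem exists_rot : ∃ σ' : Equiv.Perm (G.deleteEdges {e.edge}).Dart,
    ∀ d, upD e (σ' d) = byp σ e (upD e d) := by
  have h1 : ∀ d, ∃ d', upD e d' = byp σ e (upD e d) := fun d => by
    refine exists_upD ?_ ?_
    · intro k
      exact (upD_ne e d).1 ((byp σ e).injective (by
        rw [k, byp_self fst]))
    · intro k
      exact (upD_ne e d).2 ((byp σ e).injective (by rw [k, byp_symm fst]))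
  choose f hf using h1
  have h2 : ∀ d, ∃ d', upD e d' = (byp σ e)⁻¹ (upD e d) := fun d => by
    refine exists_upD ?_ ?_
    · intro k
      have := congrArg (byp σ e) k
      rw [show byp σ e ((byp σ e)⁻¹ (upD e d)) = upD e d from Equiv.apply_symm_apply _ _,
        byp_self fst] at this
      exact (upD_ne e d).1 this
    · intro k
      have := congrArg (byp σ e) k
      rw [show byp σ e ((byp σ e)⁻¹ (upD e d)) = upD e d from Equiv.apply_symm_apply _ _,
        byp_symm fst] at this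
      exact (upD_ne e d).2 this
  choose g hg using h2
  refine ⟨⟨f, g, fun d => upD_inj e ?_, fun d => upD_inj e ?_⟩, hf⟩
  · rw [hg, hf]
    exact Equiv.symm_apply_apply _ _
  · rw [hf, hg]
    exact Equiv.apply_symm_apply _ _

end byp

theorem rot_cyc {σ : Equiv.Perm G.Dart} (fst : ∀ d, (σ d).fst = d.fst) [Finite V]
    (cyc : ∀ d d' : G.Dart, d.fst = d'.fst → σ.SameCycle d d') (e : G.Dart)
    {σ' : Equiv.Perm (G.deleteEdges {e.edge}).Dart}
    (hσ' : ∀ d, upD e (σ' d) = byp σ e (upD e d)) (d d' : (G.deleteEdges {e.edge}).Dart)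
    (h : d.fst = d'.fst) : σ'.SameCycle d d' := by
  have hfin : Finite G.Dart := fin_dart
  have key : ∀ n : ℕ, ∃ y, σ'.SameCycle d y ∧ ((σ ^ n) (upD e d) = upD e y ∨
      (σ (upD e y) = (σ ^ n) (upD e d) ∧
        ((σ ^ n) (upD e d) = e ∨ (σ ^ n) (upD e d) = e.symm))) := by
    intro n
    induction n with
    | zero => exact ⟨d, Equiv.Perm.SameCycle.refl _ _, Or.inl rfl⟩
    | succ n ih =>
      obtain ⟨y, hy, h1⟩ := ih
      rw [pow_succ', Equiv.Perm.mul_apply]
      rcases h1 with h1 | ⟨h1, h2⟩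
      · rw [h1]
        by_cases h3 : σ (upD e y) = e ∨ σ (upD e y) = e.symm
        · exact ⟨y, hy, Or.inr ⟨rfl, h3⟩⟩
        · push Not at h3
          refine ⟨σ' y, Equiv.Perm.sameCycle_apply_right.2 hy, Or.inl ?_⟩
          rw [hσ', byp_one fst e (upD_ne e y).1 (upD_ne e y).2 h3.1 h3.2]
      · refine ⟨σ' y, Equiv.Perm.sameCycle_apply_right.2 hy, Or.inl ?_⟩
        rw [← h1] at h2 ⊢
        rw [hσ', byp_two fst e (upD_ne e y).1 (upD_ne e y).2 h2]
  obtain ⟨n, _, hn⟩ := (cyc (upD e d) (upD e d') h).exists_pow_eq'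
  obtain ⟨y, hy, h1⟩ := key n
  rw [hn] at h1
  rcases h1 with h1 | ⟨_, h1⟩
  · rw [upD_inj e h1]
    exact hy
  · rcases h1 with h1 | h1
    · exact absurd h1 (upD_ne e d').1
    · exact absurd h1 (upD_ne e d').2

theorem card_edges_del [Finite V] (e : G.Dart) :
    Nat.card (G.deleteEdges {e.edge}).edgeSet + 1 = Nat.card G.edgeSet := by
  have hfin : Finite G.Dart := fin_dart
  have : Finite G.edgeSet := Finite.of_surjective (fun d : G.Dart => (⟨d.edge, d.edge_mem⟩ :
    G.edgeSet)) fun x => by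
      obtain ⟨d, hd⟩ := exists_dart x
      exact ⟨d, Subtype.ext hd⟩
  rw [edgeSet_deleteEdges]
  exact Set.ncard_sdiff_singleton_add_one e.edge_mem (Set.toFinite _)

theorem exists_nbr {H : SimpleGraph V} (hc : H.Connected) {a b : V} (hab : a ≠ b) :
    ∃ c, H.Adj a c := by
  obtain ⟨p⟩ := hc.preconnected a b
  cases p with
  | nil => exact absurd rfl hab
  | cons h _ => exact ⟨_, h⟩

theorem rowDel : RowDel := by
  intro V _ G σ d₀ e s t hσ hs ht hne hc
  classical
  have hfin : Finite G.Dart := fin_dart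
  have hfin' : Finite (G.deleteEdges {e.edge}).Dart := fin_dart
  obtain ⟨σ', hσ'⟩ := exists_rot hσ.fst e
  have fst' : ∀ d, (σ' d).fst = d.fst := fun d => by
    have h1 : (upD e (σ' d)).fst = (upD e d).fst := by rw [hσ', byp_fst hσ.fst]
    exact h1
  have cyc' := rot_cyc hσ.fst hσ.cyc e hσ'
  set F := Quotient (Equiv.Perm.SameCycle.setoid (faceNext σ)) with hF
  set F' := Quotient (Equiv.Perm.SameCycle.setoid (faceNext σ')) with hF'
  have hst : ∀ d : G.Dart, (Quotient.mk _ (faceNext σ d) : F) = Quotient.mk _ d := fun d =>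
    Quotient.sound (Equiv.Perm.sameCycle_apply_left.2 (Equiv.Perm.SameCycle.refl _ _))
  have hφψ : (Quotient.mk _ e : F) ≠ Quotient.mk _ e.symm := fun k => hne (Quotient.exact k)
  set M : F → F := fun f => if f = Quotient.mk _ e.symm then Quotient.mk _ e else f with hM
  have M1 : M (Quotient.mk _ e.symm) = Quotient.mk _ e := if_pos rfl
  have M2 : M (Quotient.mk _ e) = Quotient.mk _ e := if_neg hφψ
  have M3 : ∀ f, f ≠ Quotient.mk _ e.symm → M f = f := fun f hf => if_neg hf
  have q1 : (Quotient.mk _ (σ e) : F) = Quotient.mk _ e.symm := by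
    have := hst e.symm
    rw [faceNext_apply, Dart.symm_symm] at this
    exact this
  have q2 : (Quotient.mk _ (σ e.symm) : F) = Quotient.mk _ e := hst e
  set L : (G.deleteEdges {e.edge}).Dart → F := fun d => M (Quotient.mk _ (upD e d)) with hL
  have hinv : ∀ d, L (faceNext σ' d) = L d := by
    intro d
    show M (Quotient.mk _ (upD e (σ' d.symm))) = M (Quotient.mk _ (upD e d))
    rw [hσ']
    have h1 := upD_ne e d.symm
    have h2 : faceNext σ (upD e d) = σ (upD e d.symm) := rfl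
    by_cases h3 : σ (upD e d.symm) = e
    · rw [byp_two hσ.fst e h1.1 h1.2 (Or.inl h3), h3, q1, M1, ← hst (upD e d), h2, h3, M2]
    by_cases h4 : σ (upD e d.symm) = e.symm
    · rw [byp_two hσ.fst e h1.1 h1.2 (Or.inr h4), h4, q2, M2, ← hst (upD e d), h2, h4, M1]
    rw [byp_one hσ.fst e h1.1 h1.2 h3 h4, ← hst (upD e d), h2]
  have hdeg : ∀ x : G.Dart, (x = e ∨ x = e.symm) → σ x ≠ x := by
    intro x hx k
    obtain ⟨c, hc1⟩ : ∃ c, (G.deleteEdges {e.edge}).Adj x.fst c := by
      refine exists_nbr hc (b := x.snd) x.adj.ne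
    have h1 := hσ.cyc x (upD e ⟨(x.fst, c), hc1⟩) rfl
    obtain ⟨n, _, hn⟩ := h1.exists_pow_eq'
    have h2 : ∀ n : ℕ, (σ ^ n) x = x := by
      intro n
      induction n with
      | zero => rfl
      | succ n ih => rw [pow_succ', Equiv.Perm.mul_apply, ih, k]
    rw [h2] at hn
    have h3 := upD_ne e ⟨(x.fst, c), hc1⟩
    rw [← hn] at h3
    rcases hx with hx | hx
    · exact h3.1 hx
    · exact h3.2 hx
  have hrep : ∀ x : G.Dart, ∃ x', x'.fst = x.fst ∧ L x' = M (Quotient.mk _ x) := by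
    intro x
    by_cases h1 : x = e
    · have h2 : σ x ≠ e := by
        have := hdeg x (Or.inl h1)
        rwa [h1] at this ⊢
      have h3 : σ x ≠ e.symm := fun k => by
        have := congrArg (fun d : G.Dart => d.fst) k
        rw [hσ.fst, h1] at this
        exact fst_ne e this
      obtain ⟨y, hy⟩ := exists_upD h2 h3
      refine ⟨y, ?_, ?_⟩
      · have h4 : (upD e y).fst = x.fst := by rw [hy, hσ.fst]
        exact h4
      · show M (Quotient.mk _ (upD e y)) = _
        rw [hy, h1, q1, M1, M2]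
    by_cases h2 : x = e.symm
    · have h3 : σ x ≠ e.symm := by
        have := hdeg x (Or.inr h2)
        rwa [h2] at this ⊢
      have h4 : σ x ≠ e := fun k => by
        have := congrArg (fun d : G.Dart => d.fst) k
        rw [hσ.fst, h2] at this
        exact fst_ne e this.symm
      obtain ⟨y, hy⟩ := exists_upD h4 h3
      refine ⟨y, ?_, ?_⟩
      · have h4 : (upD e y).fst = x.fst := by rw [hy, hσ.fst]
        exact h4
      · show M (Quotient.mk _ (upD e y)) = _
        rw [hy, h2, q2, M1, M2]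
    · obtain ⟨y, hy⟩ := exists_upD h1 h2
      refine ⟨y, ?_, ?_⟩
      · have h4 : (upD e y).fst = x.fst := by rw [hy]
        exact h4
      · show M (Quotient.mk _ (upD e y)) = _
        rw [hy]
  let C : Option F' → F := fun o => o.elim (Quotient.mk _ e.symm)
    (Quotient.lift L fun d d' h => cyc_const hinv h)
  have hCs : ∀ d, C (some (Quotient.mk _ d)) = L d := fun d => rfl
  have hC : Function.Surjective C := by
    intro f
    by_cases hf : f = Quotient.mk _ e.symm
    · exact ⟨none, hf.symm⟩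
    · induction f using Quotient.inductionOn with
      | h x =>
        obtain ⟨x', _, hx'⟩ := hrep x
        refine ⟨some (Quotient.mk _ x'), ?_⟩
        rw [hCs, hx', M3 _ hf]
  have hcard := Nat.card_le_card_of_surjective C hC
  rw [Finite.card_option] at hcard
  have hE := card_edges_del e
  have hEu : Nat.card V + Nat.card F = Nat.card G.edgeSet + 2 := hσ.euler
  have hpl : PlaneMap (G.deleteEdges {e.edge}) σ' := by
    refine plane_of_le hc fst' cyc' ?_
    show _ ≤ Nat.card V + Nat.card F'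
    omega
  have hEu' : Nat.card V + Nat.card F' = Nat.card (G.deleteEdges {e.edge}).edgeSet + 2 :=
    hpl.euler
  have hbij : Function.Bijective C := by
    refine hC.bijective_of_nat_card_le ?_
    rw [Finite.card_option]
    omega
  have hinj : ∀ {x y}, L x = L y → (faceNext σ').SameCycle x y := by
    intro x y h
    rw [← hCs, ← hCs] at h
    exact Quotient.exact (Option.some.inj (hbij.1 h))
  obtain ⟨x, hx1, rfl⟩ := hs
  obtain ⟨y, hy1, rfl⟩ := ht
  obtain ⟨x', hx2, hx3⟩ := hrep x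
  obtain ⟨y', hy2, hy3⟩ := hrep y
  refine ⟨σ', x', hpl, ⟨x', Equiv.Perm.SameCycle.refl _ _, hx2⟩, ⟨y', hinj ?_, hy2⟩⟩
  rw [hx3, hy3]
  congr 1
  exact Quotient.sound (hx1.symm.trans hy1)

end Vale.Agent.P235.Tight
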