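/-
P235-M (helper802).  The star inside a face is again a plane map.
-/
import Vale.Agent.P235.R2.H802.Star

set_option linter.all false

namespace Vale.Agent.P235.Tight

open SimpleGraph

theorem rowStar : RowStar := by
  intro V _ G σ d₀ e q s t hc hσ hs ht hfar hq hqa hqb
  classical
  have hDart : Finite G.Dart := fin_dart
  set φ : Equiv.Perm G.Dart := faceNext σ with hφ
  have hab : e.fst ≠ e.snd := e.adj.ne
  have φfst : ∀ x, (φ x).fst = x.snd := fun x => by
    rw [hφ, faceNext_apply, hσ.fst]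
    rfl
  -- the first dart at `q`
  have hex : ∃ n : ℕ, ((φ ^ n) e).fst = q := by
    obtain ⟨d', h1, h2⟩ := hq
    obtain ⟨n, _, hn⟩ := h1.exists_pow_eq'
    exact ⟨n, by rw [hn, h2]⟩
  set k := Nat.find hex with hk
  have hkq : ((φ ^ k) e).fst = q := Nat.find_spec hex
  have hkm : ∀ i, i < k → ((φ ^ i) e).fst ≠ q := fun i hi => Nat.find_min hex hi
  have hk0 : k ≠ 0 := by
    intro h0
    rw [h0] at hkq
    exact hqa hkq.symm
  have hk1 : k ≠ 1 := by
    intro h1
    rw [h1, pow_one, φfst] at hkq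
    exact hqb hkq.symm
  have hpow : ∀ i, φ ((φ ^ i) e) = (φ ^ (i + 1)) e := fun i => by
    rw [pow_succ', Equiv.Perm.mul_apply]
  set mid : G.Dart → Prop := fun d => ∃ i, 1 ≤ i ∧ i < k ∧ (φ ^ i) e = d with hmid
  have M0 : ¬ mid e := by
    rintro ⟨i, h1, h2, h3⟩
    refine hkm (k - i) (by omega) ?_
    have h4 : (φ ^ k) e = (φ ^ (k - i)) e := by
      conv_lhs => rw [show k = (k - i) + i by omega, pow_add, Equiv.Perm.mul_apply, h3]
    rw [← h4, hkq]
  have M1 : ∀ d, mid d → φ d ≠ e := by
    rintro d ⟨i, h1, h2, rfl⟩ h3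
    rw [hpow] at h3
    by_cases h4 : i + 1 = k
    · rw [h4] at h3
      rw [h3] at hkq
      exact hqa hkq.symm
    · exact M0 ⟨i + 1, by omega, by omega, h3⟩
  set y₂ := φ e with hy₂
  set y₃ := (φ ^ k) e with hy₃
  have hy₂m : mid y₂ := ⟨1, le_rfl, by omega, by rw [pow_one]⟩
  have hy₃m : ¬ mid y₃ := by
    rintro ⟨i, h1, h2, h3⟩
    refine hkm i h2 ?_
    rw [h3, hkq]
  set x₁ := σ⁻¹ e with hx₁
  set x₂ := e.symm with hx₂
  set x₃ := σ⁻¹ y₃ with hx₃
  have s1 : σ x₁ = e := Equiv.apply_symm_apply _ _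
  have s2 : σ x₂ = y₂ := rfl
  have s3 : σ x₃ = y₃ := Equiv.apply_symm_apply _ _
  have f1 : x₁.fst = e.fst := by rw [← hσ.fst, s1]
  have f2 : x₂.fst = e.snd := rfl
  have f3 : x₃.fst = q := by rw [← hσ.fst, s3, hkq]
  have hy2f : y₂.fst = e.snd := φfst e
  have h12 : x₁ ≠ x₂ := fun h => hab (by rw [← f1, h, f2])
  have h13 : x₁ ≠ x₃ := fun h => hqa (by rw [← f3, ← h, f1])
  have h23 : x₂ ≠ x₃ := fun h => hqb (by rw [← f3, ← h, f2])
  set π := newR σ x₁ x₂ x₃ with hπ
  have p1 : π (.inl x₁) = .inr .az := newR_1 σ h12 h13 h23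
  have p2 : π (.inl x₂) = .inr .bz := newR_2 σ h12 h13 h23
  have p3 : π (.inl x₃) = .inr .qz := newR_3 σ h12 h13 h23
  have p4 : ∀ {d}, d ≠ x₁ → d ≠ x₂ → d ≠ x₃ → π (.inl d) = .inl (σ d) := fun h1 h2 h3 =>
    newR_old σ h12 h13 h23 h1 h2 h3
  have p5 : π (.inr .az) = .inl e := by rw [hπ, newR_az σ h12 h13 h23, s1]
  have p6 : π (.inr .bz) = .inl y₂ := by rw [hπ, newR_bz σ h12 h13 h23, s2]
  have p7 : π (.inr .qz) = .inl y₃ := by rw [hπ, newR_qz σ h12 h13 h23, s3]
  have p8 : π (.inr .za) = .inr .zq := newR_z σ h12 h13 h23 (by simp) (by simp) (by simp)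
  have p9 : π (.inr .zq) = .inr .zb := newR_z σ h12 h13 h23 (by simp) (by simp) (by simp)
  have p10 : π (.inr .zb) = .inr .za := newR_z σ h12 h13 h23 (by simp) (by simp) (by simp)
  set E : G.Dart ⊕ ND ≃ (addZ G e.fst e.snd q).Dart :=
    Equiv.ofBijective _ (toD_bij G hab hqa hqb) with hE
  set σ' : Equiv.Perm (addZ G e.fst e.snd q).Dart := (E.symm.trans π).trans E with hσ'
  have hσE : ∀ z, σ' (E z) = E (π z) := by
    intro z
    show E (π (E.symm (E z))) = _
    rw [E.symm_apply_apply]
  have efst : ∀ z, (E z).fst = (toD G e.fst e.snd q z).fst := fun z => rfl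
  have hc' := addZ_connected hc e.fst e.snd q
  -- vertices are preserved
  have hfst : ∀ d, (σ' d).fst = d.fst := by
    intro d
    obtain ⟨z, rfl⟩ := E.surjective d
    rw [hσE, efst, efst]
    rcases z with d | n
    · by_cases h1 : d = x₁
      · subst h1; rw [p1]
        show some e.fst = some (x₁).fst
        rw [f1]
      by_cases h2 : d = x₂
      · subst h2; rw [p2]; rfl
      by_cases h3 : d = x₃
      · subst h3; rw [p3]
        show some q = some (x₃).fst
        rw [f3]
      rw [p4 h1 h2 h3]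
      show some (σ d).fst = some d.fst
      rw [hσ.fst]
    · cases n
      · rw [p5]; rfl
      · rw [p8]; rfl
      · rw [p6]
        show some y₂.fst = some e.snd
        rw [hy2f]
      · rw [p10]; rfl
      · rw [p7]
        show some y₃.fst = some q
        rw [hkq]
      · rw [p9]; rfl
  -- cyclic at every vertex
  have hcyc : ∀ d d' : (addZ G e.fst e.snd q).Dart, d.fst = d'.fst → σ'.SameCycle d d' := by
    set S : G.Dart ⊕ ND → G.Dart ⊕ ND → Prop := fun z z' => σ'.SameCycle (E z) (E z') with hS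
    have step : ∀ z, S z (π z) := fun z => ⟨1, by rw [zpow_one, hσE]⟩
    have Ss : ∀ z z', S z z' → S z' z := fun z z' h => h.symm
    have St : ∀ z z' z'', S z z' → S z' z'' → S z z'' := fun z z' z'' h h' => h.trans h'
    have Sr : ∀ z, S z z := fun z => Equiv.Perm.SameCycle.refl _ _
    have t1 : S (.inr .az) (.inl e) := p5 ▸ step (.inr .az)
    have t2 : S (.inr .bz) (.inl y₂) := p6 ▸ step (.inr .bz)
    have t3 : S (.inr .qz) (.inl y₃) := p7 ▸ step (.inr .qz)
    have hold : ∀ d, S (.inl d) (.inl (σ d)) := by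
      intro d
      by_cases h1 : d = x₁
      · subst h1
        rw [s1]
        exact St _ _ _ (p1 ▸ step (.inl x₁)) t1
      by_cases h2 : d = x₂
      · subst h2
        rw [s2]
        exact St _ _ _ (p2 ▸ step (.inl x₂)) t2
      by_cases h3 : d = x₃
      · subst h3
        rw [s3]
        exact St _ _ _ (p3 ▸ step (.inl x₃)) t3
      have := step (.inl d)
      rwa [p4 h1 h2 h3] at this
    have hcyc : ∀ {d d' : G.Dart}, σ.SameCycle d d' → S (.inl d) (.inl d') :=
      fun h => rel_cyc (S := fun d d' => S (.inl d) (.inl d')) (fun _ => Sr _)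
        (fun _ _ => Ss _ _) (fun _ _ _ => St _ _ _) hold h
    have r1 : ∀ z v, (toD G e.fst e.snd q z).fst = some v →
        ∃ d : G.Dart, d.fst = v ∧ S z (.inl d) := by
      rintro (d | n) v h
      · exact ⟨d, Option.some.inj h, Sr _⟩
      · cases n
        · exact ⟨e, Option.some.inj h, t1⟩
        · exact absurd h (by simp [toD, ndP])
        · exact ⟨y₂, hy2f.trans (Option.some.inj h), t2⟩
        · exact absurd h (by simp [toD, ndP])
        · exact ⟨y₃, hkq.trans (Option.some.inj h), t3⟩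
        · exact absurd h (by simp [toD, ndP])
    have r2 : ∀ z, (toD G e.fst e.snd q z).fst = none → S z (.inr .za) := by
      rintro (d | n) h
      · exact absurd h (by simp [toD])
      · cases n
        · exact absurd h (by simp [toD, ndP])
        · exact Sr _
        · exact absurd h (by simp [toD, ndP])
        · exact p10 ▸ step (.inr .zb)
        · exact absurd h (by simp [toD, ndP])
        · exact Ss _ _ (p8 ▸ step (.inr .za))
    intro d d' h
    obtain ⟨z, rfl⟩ := E.surjective d
    obtain ⟨z', rfl⟩ := E.surjective d'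
    rw [efst, efst] at h
    show S z z'
    rcases hz : (toD G e.fst e.snd q z).fst with _ | v
    · exact St _ _ _ (r2 z hz) (Ss _ _ (r2 z' (h ▸ hz)))
    · obtain ⟨d, hd, h1⟩ := r1 z v hz
      obtain ⟨d', hd', h2⟩ := r1 z' v (h ▸ hz)
      exact St _ _ _ h1 (St _ _ _ (hcyc (hσ.cyc d d' (hd.trans hd'.symm))) (Ss _ _ h2))
  set rv : G.Dart ⊕ ND → G.Dart ⊕ ND := Sum.map SimpleGraph.Dart.symm ND.rev with hrv
  have hface : ∀ z, faceNext σ' (E z) = E (π (rv z)) := by
    intro z
    show σ' ((E z).symm) = _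
    have : (E z).symm = E (rv z) := by
      rcases z with d | n
      · rfl
      · cases n <;> rfl
    rw [this, hσE]
  -- Euler's formula
  set F := Quotient (Equiv.Perm.SameCycle.setoid φ) with hF
  have hst : ∀ d : G.Dart, (Quotient.mk _ (φ d) : F) = Quotient.mk _ d := fun d =>
    Quotient.sound ⟨-1, by simp⟩
  have hstn : ∀ n : ℕ, (Quotient.mk _ ((φ ^ n) e) : F) = Quotient.mk _ e := by
    intro n
    induction n with
    | zero => rfl
    | succ n ih => rw [← hpow, hst, ih]
  set c : G.Dart ⊕ ND → F ⊕ Fin 2 := fun z =>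
    match z with
    | .inl d => if d = e then .inr 0 else if mid d then .inr 1 else .inl (Quotient.mk _ d)
    | .inr .bz => .inr 0
    | .inr .za => .inr 0
    | .inr .zb => .inr 1
    | .inr .qz => .inr 1
    | .inr .zq => .inl (Quotient.mk _ e)
    | .inr .az => .inl (Quotient.mk _ e) with hcdef
  have c1 : c (.inl e) = .inr 0 := if_pos rfl
  have c2 : ∀ d, mid d → c (.inl d) = .inr 1 := by
    intro d hd
    have h1 : d ≠ e := fun h => M0 (h ▸ hd)
    show (if d = e then (Sum.inr 0 : F ⊕ Fin 2) else if mid d then .inr 1 else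
      .inl (Quotient.mk _ d)) = _
    rw [if_neg h1, if_pos hd]
  have c3 : ∀ d, d ≠ e → ¬ mid d → c (.inl d) = .inl (Quotient.mk _ d) := by
    intro d h1 h2
    show (if d = e then (Sum.inr 0 : F ⊕ Fin 2) else if mid d then .inr 1 else
      .inl (Quotient.mk _ d)) = _
    rw [if_neg h1, if_neg h2]
  have hx₁' : ∀ d : G.Dart, d.symm = x₁ → φ d = e := fun d h => by
    show σ d.symm = e
    rw [h, s1]
  have hx₃' : ∀ d : G.Dart, d.symm = x₃ → φ d = y₃ := fun d h => by
    show σ d.symm = y₃
    rw [h, s3]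
  have hφe : φ e ≠ e := fun h => by
    have := congrArg (fun d : G.Dart => d.fst) h
    rw [φfst] at this
    exact hab this.symm
  have hy3e : y₃ ≠ e := fun h => by
    rw [h] at hkq
    exact hqa hkq.symm
  have hinv : ∀ z, c (π (rv z)) = c z := by
    rintro (d | n)
    · show c (π (.inl d.symm)) = c (.inl d)
      by_cases h1 : d.symm = x₁
      · have h2 := hx₁' d h1
        rw [h1, p1]
        have h3 : d ≠ e := fun h => hφe (by rw [← h, h2, h])
        have h4 : ¬ mid d := fun h => M1 d h h2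
        rw [c3 d h3 h4, ← hst d, h2]
      by_cases h2 : d.symm = x₂
      · have h3 : d = e := by
          rw [← Dart.symm_symm d, h2, hx₂, Dart.symm_symm]
        rw [h2, p2, h3, c1]
      by_cases h3 : d.symm = x₃
      · have h4 := hx₃' d h3
        have h5 : (φ ^ (k - 1)) e = d := by
          apply φ.injective
          rw [hpow, h4, hy₃, show k - 1 + 1 = k by omega]
        rw [h3, p3, c2 d ⟨k - 1, by omega, by omega, h5⟩]
      rw [p4 h1 h2 h3]
      show c (.inl (φ d)) = c (.inl d)
      have h4 : φ d ≠ e := fun h => h1 (by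
        apply σ.injective
        rw [s1]
        exact h)
      have h5 : d ≠ e := fun h => h2 (by rw [h])
      have h6 : φ d ≠ y₃ := fun h => h3 (by
        apply σ.injective
        rw [s3]
        exact h)
      by_cases h7 : mid d
      · rw [c2 d h7]
        obtain ⟨i, k1, k2, rfl⟩ := h7
        refine c2 _ ⟨i + 1, by omega, ?_, (hpow i).symm⟩
        by_contra k3
        have k4 : i + 1 = k := by omega
        rw [hpow, k4] at h6
        exact h6 rfl
      · rw [c3 d h5 h7]
        have h8 : ¬ mid (φ d) := by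
          rintro ⟨i, k1, k2, k3⟩
          have k4 : (φ ^ (i - 1)) e = d := by
            apply φ.injective
            rw [hpow, show i - 1 + 1 = i by omega, k3]
          by_cases k5 : i = 1
          · rw [k5] at k4
            exact h5 k4.symm
          · exact h7 ⟨i - 1, by omega, by omega, k4⟩
        rw [c3 _ h4 h8, hst]
    · cases n
      · show c (π (.inr .za)) = _
        rw [p8]
      · show c (π (.inr .az)) = _
        rw [p5, c1]
      · show c (π (.inr .zb)) = _
        rw [p10]
      · show c (π (.inr .bz)) = _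
        rw [p6, c2 _ hy₂m]
      · show c (π (.inr .zq)) = _
        rw [p9]
      · show c (π (.inr .qz)) = _
        rw [p7, c3 _ hy3e hy₃m, hstn]
  have hsurj : Function.Surjective c := by
    rintro (f | i)
    · induction f using Quotient.inductionOn with
      | h d =>
        by_cases h1 : d = e
        · exact ⟨.inr .az, by rw [h1]⟩
        by_cases h2 : mid d
        · obtain ⟨i, _, _, rfl⟩ := h2
          exact ⟨.inr .az, by rw [hstn]⟩
        · exact ⟨.inl d, c3 d h1 h2⟩
    · fin_cases i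
      · exact ⟨.inr .bz, rfl⟩
      · exact ⟨.inr .qz, rfl⟩
  set F' := Quotient (Equiv.Perm.SameCycle.setoid (faceNext σ')) with hF'
  have hDart' : Finite (addZ G e.fst e.snd q).Dart := fin_dart
  have hinv' : ∀ d : (addZ G e.fst e.snd q).Dart,
      c (E.symm (faceNext σ' d)) = c (E.symm d) := by
    intro d
    obtain ⟨z, rfl⟩ := E.surjective d
    rw [hface, E.symm_apply_apply, E.symm_apply_apply, hinv]
  let C : F' → F ⊕ Fin 2 := Quotient.lift (fun d => c (E.symm d)) fun d d' h =>
    cyc_const (c := fun d => c (E.symm d)) hinv' h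
  have hC : Function.Surjective C := by
    intro f
    obtain ⟨z, hz⟩ := hsurj f
    refine ⟨Quotient.mk _ (E z), ?_⟩
    show c (E.symm (E z)) = f
    rw [E.symm_apply_apply, hz]
  have hFF : Nat.card F + 2 ≤ Nat.card F' := by
    have h1 := Nat.card_le_card_of_surjective C hC
    rw [Nat.card_sum] at h1
    simpa using h1
  have hV : Nat.card (Option V) = Nat.card V + 1 := Finite.card_option
  have hEd := card_edges_add (G := G) hab hqa hqb
  have hpl : PlaneMap (addZ G e.fst e.snd q) σ' := by
    refine plane_of_le hc' hfst hcyc ?_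
    have h := hσ.euler
    show Nat.card (addZ G e.fst e.snd q).edgeSet + 2 ≤ Nat.card (Option V) + Nat.card F'
    rw [hV, hEd]
    have h' : Nat.card V + Nat.card F = Nat.card G.edgeSet + 2 := h
    omega
  -- the face of `s` and `t` is kept
  have hkeep : ∀ n : ℕ, ∀ x : G.Dart, φ.SameCycle d₀ x →
      (faceNext σ').SameCycle (E (.inl x)) (E (.inl ((φ ^ n) x))) ∧
        φ.SameCycle d₀ ((φ ^ n) x) := by
    intro n x hx
    induction n with
    | zero => exact ⟨Equiv.Perm.SameCycle.refl _ _, hx⟩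
    | succ n ih =>
      obtain ⟨ih1, ih2⟩ := ih
      rw [pow_succ', Equiv.Perm.mul_apply]
      set y := (φ ^ n) x with hy
      refine ⟨?_, Equiv.Perm.sameCycle_apply_right.2 ih2⟩
      have h1 : φ y ≠ e := fun h => hfar (h ▸ Equiv.Perm.sameCycle_apply_right.2 ih2)
      have h2 : y ≠ e := fun h => hfar (h ▸ ih2)
      have h3 : φ y ≠ y₃ := fun h => hfar (by
        have h4 : φ.SameCycle d₀ y₃ := h ▸ Equiv.Perm.sameCycle_apply_right.2 ih2
        refine h4.trans ?_
        exact ⟨-(k : ℤ), by rw [zpow_neg, zpow_natCast]; exact Equiv.symm_apply_apply _ _⟩)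
      have h5 : faceNext σ' (E (.inl y)) = E (.inl (φ y)) := by
        rw [hface]
        show E (π (.inl y.symm)) = _
        rw [p4 (fun h => h1 (hx₁' _ h)) (fun h => h2 (by
          rw [← Dart.symm_symm y, h, hx₂, Dart.symm_symm])) (fun h => h3 (hx₃' _ h))]
        rfl
      rw [← h5]
      exact Equiv.Perm.sameCycle_apply_right.2 ih1
  obtain ⟨x, hx, rfl⟩ := hs
  obtain ⟨y, hy, rfl⟩ := ht
  obtain ⟨n, _, hn⟩ := (hx.symm.trans hy).exists_pow_eq'
  have h1 := (hkeep n x hx).1
  change (φ ^ n) x = y at hn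
  rw [hn] at h1
  exact ⟨σ', E (.inl x), hpl, ⟨E (.inl x), Equiv.Perm.SameCycle.refl _ _, rfl⟩,
    ⟨E (.inl y), h1, rfl⟩⟩

end Vale.Agent.P235.Tight
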