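/-
P235-M (helper802).  Removing all slack edges by induction.
-/
import Vale.Agent.P235.R2.H802.Met
import Vale.Agent.P235.R2.H802.Del
import Vale.Agent.P235.R2.H802.Star2

set_option linter.unusedSectionVars false

namespace Vale.Agent.P235.Tight

open SimpleGraph

/-- the slack darts -/
def Slk {V : Type} (G : SimpleGraph V) (ℓ : Sym2 V → ℝ) (h : V → ℝ) : Set G.Dart :=
  {e | |h e.fst - h e.snd| < ℓ s(e.fst, e.snd)}

section

variable {V : Type} [Finite V] {G : SimpleGraph V} {ℓ : Sym2 V → ℝ} {h : V → ℝ} {s t : V}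

/-- deleting a slack edge which has a short detour -/
theorem del_step (hB : Bip G ℓ h s t) (hP : StPlane G s t) {e : G.Dart}
    (he : |h e.fst - h e.snd| < ℓ s(e.fst, e.snd))
    (w : (G.deleteEdges {e.edge}).Walk e.fst e.snd)
    (hw : (w.edges.map ℓ).sum ≤ ℓ s(e.fst, e.snd)) :
    Bip (G.deleteEdges {e.edge}) ℓ h s t ∧ StPlane (G.deleteEdges {e.edge}) s t ∧
      (∀ x y, pathDist (G.deleteEdges {e.edge}) ℓ x y = pathDist G ℓ x y) ∧
      (Slk (G.deleteEdges {e.edge}) ℓ h).ncard < (Slk G ℓ h).ncard := by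
  have hfin : Finite G.Dart := fin_dart
  have hfin' : Finite (G.deleteEdges {e.edge}).Dart := fin_dart
  -- every edge of `G` is replaced by a walk
  have hrep : ∀ u v, G.Adj u v → (G.deleteEdges {e.edge}).Adj u v ∨
      (u = e.fst ∧ v = e.snd) ∨ (u = e.snd ∧ v = e.fst) := by
    intro u v huv
    by_cases h1 : s(u, v) = e.edge
    · right
      have h2 : s(u, v) = s(e.fst, e.snd) := h1
      exact Sym2.eq_iff.1 h2
    · left
      exact deleteEdges_adj.2 ⟨huv, h1⟩
  have hconn : (G.deleteEdges {e.edge}).Connected := by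
    have := hB.conn.nonempty
    refine ⟨fun x y => ?_⟩
    obtain ⟨p⟩ := hB.conn.preconnected x y
    induction p with
    | nil => exact Reachable.refl _
    | @cons a b c hab _ ih =>
      refine Reachable.trans ?_ ih
      rcases hrep a b hab with h1 | ⟨rfl, rfl⟩ | ⟨rfl, rfl⟩
      · exact h1.reachable
      · exact ⟨w⟩
      · exact ⟨w.reverse⟩
  have hle : ∀ u v, (G.deleteEdges {e.edge}).Adj u v → G.Adj u v := fun u v huv =>
    (deleteEdges_adj.1 huv).1
  have htight : ∀ u v, G.Adj u v → |h u - h v| = ℓ s(u, v) →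
      (G.deleteEdges {e.edge}).Adj u v := by
    intro u v huv h1
    rcases hrep u v huv with h2 | ⟨rfl, rfl⟩ | ⟨rfl, rfl⟩
    · exact h2
    · rw [h1] at he
      exact absurd he (lt_irrefl _)
    · rw [abs_sub_comm, Sym2.eq_swap] at h1
      rw [h1] at he
      exact absurd he (lt_irrefl _)
  have hB' : Bip (G.deleteEdges {e.edge}) ℓ h s t := by
    refine ⟨hconn, fun u v huv => hB.pos u v (hle u v huv), fun u v huv => hB.lip u v (hle u v huv),
      fun v hv => ?_, fun v hv => ?_⟩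
    · obtain ⟨w, hw1, hw2⟩ := hB.up v hv
      have h1 := hB.pos _ _ hw1
      refine ⟨w, htight v w hw1 ?_, hw2⟩
      rw [abs_of_neg (by linarith), ← hw2]
      ring
    · obtain ⟨w, hw1, hw2⟩ := hB.dn v hv
      have h1 := hB.pos _ _ hw1
      refine ⟨w, htight v w hw1 ?_, hw2⟩
      rw [abs_of_pos (by linarith), ← hw2]
  refine ⟨hB', ?_, ?_, ?_⟩
  · obtain ⟨σ, d₀, hσ, hs, ht⟩ := hP
    exact rowDel V G σ d₀ e s t hσ hs ht (two_sides hσ hB he) hconn
  · refine pd_eq hB.conn hconn hB.pos hB'.pos id (fun u v huv => ?_) fun x => ?_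
    · have hwle : pathDist (G.deleteEdges {e.edge}) ℓ e.fst e.snd ≤ ℓ s(e.fst, e.snd) :=
        (pd_le hB'.pos w).trans hw
      rcases hrep u v huv with h1 | ⟨rfl, rfl⟩ | ⟨rfl, rfl⟩
      · exact pd_adj hB'.pos h1
      · exact hwle
      · rw [pd_symm, Sym2.eq_swap]
        exact hwle
    · exact ⟨pathDist G ℓ x, fun u v huv => pd_lip hB.conn hB.pos x u v (hle u v huv),
        fun y => rfl⟩
  · have h1 : (upD e '' Slk (G.deleteEdges {e.edge}) ℓ h).ncard =
        (Slk (G.deleteEdges {e.edge}) ℓ h).ncard := Set.ncard_image_of_injective _ (upD_inj e)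
    rw [← h1]
    refine Set.ncard_lt_ncard ⟨?_, ?_⟩ (Set.toFinite _)
    · rintro _ ⟨d, hd, rfl⟩
      exact hd
    · intro h2
      obtain ⟨d, _, hd⟩ := h2 (show e ∈ Slk G ℓ h from he)
      exact (upD_ne e d).1 hd

/-- replacing an essential slack edge by a star -/
theorem star_step (hB : Bip G ℓ h s t) {σ : Equiv.Perm G.Dart} {d₀ : G.Dart}
    (hσ : PlaneMap G σ) (hs : s ∈ onFace σ d₀) (ht : t ∈ onFace σ d₀) {e : G.Dart} {q : V}
    (hg : Good σ d₀ ℓ h e q) :
    ∃ (G' : SimpleGraph (Option V)) (ℓ' : Sym2 (Option V) → ℝ) (h' : Option V → ℝ),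
      Bip G' ℓ' h' (some s) (some t) ∧ StPlane G' (some s) (some t) ∧
      (∀ x y, pathDist G' ℓ' (some x) (some y) = pathDist G ℓ x y) ∧
      (Slk G' ℓ' h').ncard < (Slk G ℓ h).ncard := by
  have hfin : Finite G.Dart := fin_dart
  have hB₁ := bip_star hB hg
  have hP₁ := rowStar V G σ d₀ e q s t hB.conn hσ hs ht hg.far hg.on hg.ne1 hg.ne2
  set G₁ := addZ G e.fst e.snd q with hG₁
  have hfin₁ : Finite G₁.Dart := fin_dart
  set ℓ₁ := lenZ ℓ h (zet ℓ h e) with hℓ₁
  set h₁ := hZ h (zet ℓ h e) with hh₁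
  set e₁ : G₁.Dart := ⟨(some e.fst, some e.snd), e.adj⟩ with he₁
  have k1 : (G₁.deleteEdges {e₁.edge}).Adj (some e.fst) none := by
    refine deleteEdges_adj.2 ⟨Or.inl rfl, fun k => ?_⟩
    have k' : s((some e.fst : Option V), none) = s(some e.fst, some e.snd) := k
    rw [Sym2.eq_iff] at k'
    rcases k' with ⟨_, k2⟩ | ⟨_, k2⟩
    · exact absurd k2 (by simp)
    · exact absurd k2 (by simp)
  have k2 : (G₁.deleteEdges {e₁.edge}).Adj none (some e.snd) := by
    refine deleteEdges_adj.2 ⟨Or.inr (Or.inl rfl), fun k => ?_⟩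
    have k' : s((none : Option V), some e.snd) = s(some e.fst, some e.snd) := k
    rw [Sym2.eq_iff] at k'
    rcases k' with ⟨k2, _⟩ | ⟨k2, _⟩
    · exact absurd k2 (by simp)
    · exact absurd k2 (by simp)
  have hslack : |h₁ e₁.fst - h₁ e₁.snd| < ℓ₁ s(e₁.fst, e₁.snd) := hg.nt
  obtain ⟨hB₂, hP₂, hd₂, hc₂⟩ := del_step hB₁ hP₁ hslack (Walk.cons k1 (Walk.cons k2 Walk.nil)) (by
    simp only [Walk.edges_cons, Walk.edges_nil, List.map_cons, List.map_nil, List.sum_cons,
      List.sum_nil, add_zero]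
    show |zet ℓ h e - h e.fst| + |zet ℓ h e - h e.snd| ≤ ℓ s(e.fst, e.snd)
    rw [abs_of_pos (zet_a hg), abs_of_pos (zet_b hg)]
    unfold zet
    linarith)
  refine ⟨_, ℓ₁, h₁, hB₂, hP₂, fun x y => ?_, lt_of_lt_of_le hc₂ ?_⟩
  · rw [hd₂]
    exact pd_star hB hg x y
  · -- the slack darts of the star are the old ones
    have h1 : Slk G₁ ℓ₁ h₁ ⊆ (fun d : G.Dart => (⟨(some d.fst, some d.snd), d.adj⟩ : G₁.Dart)) ''
        Slk G ℓ h := by
      rintro ⟨⟨x, y⟩, hxy⟩ hd
      rcases x with _ | x <;> rcases y with _ | y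
      · exact hxy.elim
      · have hd' : |zet ℓ h e - h y| < |zet ℓ h e - h y| := hd
        exact absurd hd' (lt_irrefl _)
      · have hd' : |h x - zet ℓ h e| < |zet ℓ h e - h x| := hd
        rw [abs_sub_comm] at hd'
        exact absurd hd' (lt_irrefl _)
      · exact ⟨⟨(x, y), hxy⟩, hd, rfl⟩
    exact (Set.ncard_le_ncard h1 (Set.toFinite _)).trans (Set.ncard_image_le (Set.toFinite _))

end

/-- **All slack edges can be removed.** -/
theorem straighten : ∀ (n : ℕ) (V : Type) [Finite V] (G : SimpleGraph V) (ℓ : Sym2 V → ℝ)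
    (h : V → ℝ) (s t : V), Bip G ℓ h s t → StPlane G s t → (Slk G ℓ h).ncard ≤ n →
    ∃ (V' : Type) (_ : Finite V') (G' : SimpleGraph V') (ℓ' : Sym2 V' → ℝ) (h' : V' → ℝ)
      (s' t' : V') (ι : V → V'), Bip G' ℓ' h' s' t' ∧ StPlane G' s' t' ∧
      (∀ u v, G'.Adj u v → |h' u - h' v| = ℓ' s(u, v)) ∧
      (∀ x y, pathDist G' ℓ' (ι x) (ι y) = pathDist G ℓ x y) ∧
      Nat.card V' ≤ Nat.card V + n := by
  intro n
  induction n with
  | zero =>
    intro V _ G ℓ h s t hB hP hn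
    have hfin : Finite G.Dart := fin_dart
    refine ⟨V, inferInstance, G, ℓ, h, s, t, id, hB, hP, fun u v huv => ?_, fun _ _ => rfl, le_rfl⟩
    refine le_antisymm (hB.lip u v huv) (not_lt.1 fun k => ?_)
    have h1 : Slk G ℓ h = ∅ := (Set.ncard_eq_zero (Set.toFinite _)).1 (Nat.le_zero.1 hn)
    have h2 : (⟨(u, v), huv⟩ : G.Dart) ∈ Slk G ℓ h := k
    rw [h1] at h2
    exact h2
  | succ n ih =>
    intro V _ G ℓ h s t hB hP hn
    have hfin : Finite G.Dart := fin_dart
    by_cases hex : ∃ e : G.Dart, |h e.fst - h e.snd| < ℓ s(e.fst, e.snd)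
    · by_cases hess : ∀ e : G.Dart, |h e.fst - h e.snd| < ℓ s(e.fst, e.snd) → Essential G ℓ e
      · obtain ⟨σ, d₀, hσ, hs, ht⟩ := hP
        obtain ⟨e, q, hg⟩ := exists_good hσ hB hs ht hex hess
        obtain ⟨G₁, ℓ₁, h₁, hB₁, hP₁, hd₁, hc₁⟩ := star_step hB hσ hs ht hg
        obtain ⟨V', hV', G', ℓ', h', s', t', ι, k1, k2, k3, k4, k5⟩ :=
          ih (Option V) G₁ ℓ₁ h₁ (some s) (some t) hB₁ hP₁ (by omega)
        refine ⟨V', hV', G', ℓ', h', s', t', fun x => ι (some x), k1, k2, k3, fun x y => ?_, ?_⟩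
        · rw [k4, hd₁]
        · rw [Finite.card_option] at k5
          omega
      · unfold Essential at hess
        push Not at hess
        obtain ⟨e, he, w, hw⟩ := hess
        obtain ⟨hB₁, hP₁, hd₁, hc₁⟩ := del_step hB hP he w hw
        obtain ⟨V', hV', G', ℓ', h', s', t', ι, k1, k2, k3, k4, k5⟩ :=
          ih V _ ℓ h s t hB₁ hP₁ (by omega)
        refine ⟨V', hV', G', ℓ', h', s', t', ι, k1, k2, k3, fun x y => ?_, by omega⟩
        rw [k4, hd₁]
    · push Not at hex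
      refine ⟨V, inferInstance, G, ℓ, h, s, t, id, hB, hP, fun u v huv => ?_, fun _ _ => rfl,
        Nat.le_add_right _ _⟩
      exact le_antisymm (hB.lip u v huv) (hex ⟨(u, v), huv⟩)

end Vale.Agent.P235.Tight
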