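/-
P235-M (helper802).  From vertices on shortest paths to edges on shortest paths, and steep heights.
-/
import Vale.Agent.P235.R2.H802.Ind

set_option linter.unusedSectionVars false

namespace Vale.Agent.P235.Tight

open SimpleGraph MeasureTheory

section

variable {V : Type} [Finite V] {G : SimpleGraph V} {ℓ : Sym2 V → ℝ} {h : V → ℝ} {s t : V}

theorem Bip.rev (hB : Bip G ℓ h s t) : Bip G ℓ (fun v => - h v) t s where
  conn := hB.conn
  pos := hB.pos
  lip := fun u v huv => by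
    show |- h u - - h v| ≤ _
    rw [neg_sub_neg, abs_sub_comm]
    exact hB.lip u v huv
  up := fun v hv => by
    obtain ⟨w, h1, h2⟩ := hB.dn v hv
    exact ⟨w, h1, by linarith⟩
  dn := fun v hv => by
    obtain ⟨w, h1, h2⟩ := hB.up v hv
    exact ⟨w, h1, by linarith⟩

theorem pd_up (hB : Bip G ℓ h s t) (v : V) : pathDist G ℓ v t = h t - h v := by
  refine le_antisymm ?_ (lip_pd hB.conn hB.lip v t)
  induction v using (wf_up h).induction with
  | _ v ih =>
    by_cases hv : v = t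
    · rw [hv, pd_self hB.pos, sub_self]
    · obtain ⟨w, h1, h2⟩ := hB.up v hv
      have h3 := hB.pos _ _ h1
      have h4 := ih w (by linarith)
      have h5 := pd_tri hB.conn hB.pos v w t
      have h6 := pd_adj hB.pos h1
      linarith

theorem pd_dn (hB : Bip G ℓ h s t) (v : V) : pathDist G ℓ s v = h v - h s := by
  have h1 := pd_up hB.rev v
  rw [pd_symm, h1]
  ring

/-- a tight height certifies that all edges lie on shortest paths from `s` to `t` -/
theorem all_tight (hB : Bip G ℓ h s t) (hT : ∀ u v, G.Adj u v → |h u - h v| = ℓ s(u, v)) (u v : V)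
    (huv : G.Adj u v) :
    pathDist G ℓ s u + ℓ s(u, v) + pathDist G ℓ v t = pathDist G ℓ s t ∨
      pathDist G ℓ s v + ℓ s(u, v) + pathDist G ℓ u t = pathDist G ℓ s t := by
  have h1 := hT u v huv
  have h2 := hB.pos u v huv
  rw [pd_dn hB, pd_up hB, pd_dn hB, pd_dn hB, pd_up hB, ← h1]
  rcases le_total (h u) (h v) with h3 | h3
  · left
    rw [abs_of_nonpos (by linarith)]
    ring
  · right
    rw [abs_of_nonneg (by linarith)]
    ring

theorem exists_next (hc : G.Connected) (hpos : ∀ u v, G.Adj u v → 0 < ℓ s(u, v)) {v t : V}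
    (hv : v ≠ t) : ∃ w, G.Adj v w ∧ ℓ s(v, w) + pathDist G ℓ w t ≤ pathDist G ℓ v t := by
  obtain ⟨w₀, hw₀⟩ := exists_nbr hc hv
  obtain ⟨w, hw, hmin⟩ := Set.exists_min_image {w | G.Adj v w}
    (fun w => ℓ s(v, w) + pathDist G ℓ w t) (Set.toFinite _) ⟨w₀, hw₀⟩
  refine ⟨w, hw, le_pd hc fun p => ?_⟩
  cases p with
  | nil => exact absurd rfl hv
  | @cons _ b _ hab p =>
    simp only [Walk.edges_cons, List.map_cons, List.sum_cons]
    have h1 := hmin b hab
    have h2 := pd_le hpos p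
    linarith

/-- vertices on shortest paths -/
theorem bip_of_vertices (hc : G.Connected) (hpos : ∀ u v, G.Adj u v → 0 < ℓ s(u, v))
    (hv : ∀ v, pathDist G ℓ s v + pathDist G ℓ v t = pathDist G ℓ s t) :
    Bip G ℓ (pathDist G ℓ s) s t where
  conn := hc
  pos := hpos
  lip := fun u v huv => pd_lip hc hpos s u v huv
  up := fun v hvt => by
    obtain ⟨w, h1, h2⟩ := exists_next hc hpos hvt
    refine ⟨w, h1, ?_⟩
    have h3 := hv v
    have h4 := hv w
    have h5 := abs_le.1 (pd_lip hc hpos s v w h1)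
    linarith [h5.1, h5.2]
  dn := fun v hvs => by
    obtain ⟨w, h1, h2⟩ := exists_next hc hpos hvs
    refine ⟨w, h1, ?_⟩
    rw [pd_symm w s, pd_symm v s] at h2
    have h5 := abs_le.1 (pd_lip hc hpos s v w h1)
    linarith [h5.1, h5.2]

theorem card_slk (G : SimpleGraph V) (ℓ : Sym2 V → ℝ) (h : V → ℝ) :
    (Slk G ℓ h).ncard ≤ Nat.card V ^ 2 := by
  have hfin : Finite G.Dart := fin_dart
  have h1 : (Slk G ℓ h).ncard ≤ Nat.card G.Dart := Set.ncard_le_card _
  have h2 : Nat.card G.Dart ≤ Nat.card (V × V) :=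
    Nat.card_le_card_of_injective (fun d : G.Dart => d.toProd) fun _ _ h => Dart.ext _ _ h
  rw [Nat.card_prod] at h2
  rw [pow_two]
  exact h1.trans h2

/-- **From vertices to edges.**  The graph `G` sits isometrically in a plane graph with at most
`|V| + |V|²` vertices in which every edge lies on a shortest path from `s'` to `t'`, and `s'`, `t'`
lie on one face. -/
theorem to_edges (hB : Bip G ℓ h s t) (hP : StPlane G s t) :
    ∃ (V' : Type) (_ : Finite V') (G' : SimpleGraph V') (σ' : Equiv.Perm G'.Dart) (d' : G'.Dart)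
      (ℓ' : Sym2 V' → ℝ) (s' t' : V') (ι : V → V'), G'.Connected ∧ PlaneMap G' σ' ∧
      s' ∈ onFace σ' d' ∧ t' ∈ onFace σ' d' ∧ (∀ e ∈ G'.edgeSet, 0 < ℓ' e) ∧
      (∀ u v, G'.Adj u v →
        pathDist G' ℓ' s' u + ℓ' s(u, v) + pathDist G' ℓ' v t' = pathDist G' ℓ' s' t' ∨
        pathDist G' ℓ' s' v + ℓ' s(u, v) + pathDist G' ℓ' u t' = pathDist G' ℓ' s' t') ∧
      (∀ x y, pathDist G' ℓ' (ι x) (ι y) = pathDist G ℓ x y) ∧
      Nat.card V' ≤ Nat.card V + Nat.card V ^ 2 := by
  obtain ⟨V', hV', G', ℓ', h', s', t', ι, k1, ⟨σ', d', k2, k2s, k2t⟩, k3, k4, k5⟩ :=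
    straighten (Nat.card V ^ 2) V G ℓ h s t hB hP (card_slk G ℓ h)
  refine ⟨V', hV', G', σ', d', ℓ', s', t', ι, k1.conn, k2, k2s, k2t, fun e he => ?_,
    fun u v huv => all_tight k1 k3 u v huv, k4, k5⟩
  induction e using Sym2.ind with
  | _ a b => exact k1.pos a b he

end

/-! ### embeddings -/

theorem embeds_comp {X Y : Type} {d : Y → Y → ℝ} {C : ℝ} (hE : EmbedsL1 d C) (ι : X → Y)
    {d' : X → X → ℝ} (h : ∀ x y, d (ι x) (ι y) = d' x y) : EmbedsL1 d' C := by
  obtain ⟨Ω, m, μ, f, hf⟩ := hE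
  refine ⟨Ω, m, μ, fun x => f (ι x), fun x y => ?_⟩
  rw [← h]
  exact hf _ _

/-- metrics within a factor -/
theorem embeds_scale {X : Type} {d d' : X → X → ℝ} {C c : ℝ} (hc : 0 < c) (hE : EmbedsL1 d' C)
    (h0 : ∀ x y, 0 ≤ d' x y) (h1 : ∀ x y, d' x y ≤ d x y) (h2 : ∀ x y, c * d x y ≤ d' x y) :
    EmbedsL1 d (C / c) := by
  obtain ⟨Ω, m, μ, f, hf⟩ := hE
  refine ⟨Ω, m, μ, fun x => (1 / c) • f x, fun x y => ?_⟩
  have hn : ‖(1 / c) • f x - (1 / c) • f y‖ = (1 / c) * ‖f x - f y‖ := by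
    rw [← smul_sub, norm_smul, Real.norm_of_nonneg (by positivity)]
  obtain ⟨f1, f2⟩ := hf x y
  simp only [hn]
  have hc' : 0 < 1 / c := by positivity
  constructor
  · have h3 : c * d x y ≤ ‖f x - f y‖ := (h2 x y).trans f1
    rw [one_div, inv_mul_eq_div, le_div_iff₀ hc, mul_comm]
    exact h3
  · have h3 : (1 / c) * ‖f x - f y‖ ≤ (1 / c) * (C * d' x y) :=
      mul_le_mul_of_nonneg_left f2 hc'.le
    refine h3.trans ?_
    have h4 : C * d' x y ≤ C * d x y := by
      rcases le_or_gt 0 C with h5 | h5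
      · exact mul_le_mul_of_nonneg_left (h1 x y) h5
      · have h6 : d' x y ≤ C * d' x y := f1.trans f2
        have h7 := h0 x y
        have h8 : d' x y = 0 := by nlinarith
        have h9 := h2 x y
        have h10 := h1 x y
        have h11 : d x y = 0 := by
          rw [h8] at h9 h10
          refine le_antisymm ?_ h10
          by_contra h12
          push Not at h12
          have := mul_pos hc h12
          linarith
        rw [h8, h11]
    have h6 : (1 / c) * (C * d' x y) ≤ (1 / c) * (C * d x y) :=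
      mul_le_mul_of_nonneg_left h4 hc'.le
    refine h6.trans (le_of_eq ?_)
    ring

/-- shortened lengths on steep edges -/
noncomputable def steepLen {V : Type} (ℓ : Sym2 V → ℝ) (h : V → ℝ) (c : ℝ) : Sym2 V → ℝ := by
  classical
  exact Sym2.lift ⟨fun x y => if c * ℓ s(x, y) ≤ |h x - h y| then |h x - h y| else ℓ s(x, y), by
    intro x y
    show (if c * ℓ s(x, y) ≤ |h x - h y| then |h x - h y| else ℓ s(x, y)) =
      if c * ℓ s(y, x) ≤ |h y - h x| then |h y - h x| else ℓ s(y, x)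
    rw [Sym2.eq_swap, abs_sub_comm]⟩

theorem steepLen_pos {V : Type} {ℓ : Sym2 V → ℝ} {h : V → ℝ} {c : ℝ} {x y : V}
    (h1 : c * ℓ s(x, y) ≤ |h x - h y|) : steepLen ℓ h c s(x, y) = |h x - h y| := by
  classical
  exact if_pos h1

theorem steepLen_neg {V : Type} {ℓ : Sym2 V → ℝ} {h : V → ℝ} {c : ℝ} {x y : V}
    (h1 : ¬ c * ℓ s(x, y) ≤ |h x - h y|) : steepLen ℓ h c s(x, y) = ℓ s(x, y) := by
  classical
  exact if_neg h1

/-- `h` is a `c`-steep height: it moves by at most the length along every edge, and every vertex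
except `t` (`s`) has an upward (downward) edge of slope at least `c` -/
structure Steep {V : Type} (G : SimpleGraph V) (ℓ : Sym2 V → ℝ) (h : V → ℝ) (s t : V) (c : ℝ) :
    Prop where
  lip : ∀ u v, G.Adj u v → |h u - h v| ≤ ℓ s(u, v)
  up : ∀ v, v ≠ t → ∃ w, G.Adj v w ∧ c * ℓ s(v, w) ≤ h w - h v
  dn : ∀ v, v ≠ s → ∃ w, G.Adj v w ∧ c * ℓ s(v, w) ≤ h v - h w

theorem bip_of_steep {V : Type} [Finite V] {G : SimpleGraph V} {ℓ : Sym2 V → ℝ} {h : V → ℝ}
    {s t : V} {c : ℝ} (hc0 : 0 < c) (hc : G.Connected)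
    (hpos : ∀ u v, G.Adj u v → 0 < ℓ s(u, v)) (hS : Steep G ℓ h s t c) :
    Bip G (steepLen ℓ h c) h s t where
  conn := hc
  pos := fun u v huv => by
    have h1 := hpos u v huv
    by_cases h2 : c * ℓ s(u, v) ≤ |h u - h v|
    · rw [steepLen_pos h2]
      exact lt_of_lt_of_le (mul_pos hc0 h1) h2
    · rw [steepLen_neg h2]
      exact h1
  lip := fun u v huv => by
    by_cases h2 : c * ℓ s(u, v) ≤ |h u - h v|
    · rw [steepLen_pos h2]
    · rw [steepLen_neg h2]
      exact hS.lip u v huv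
  up := fun v hv => by
    obtain ⟨w, h1, h2⟩ := hS.up v hv
    have h3 := mul_pos hc0 (hpos _ _ h1)
    have h4 : |h v - h w| = h w - h v := by
      rw [abs_of_neg (by linarith)]
      ring
    refine ⟨w, h1, ?_⟩
    rw [steepLen_pos (by rw [h4]; exact h2), h4]
  dn := fun v hv => by
    obtain ⟨w, h1, h2⟩ := hS.dn v hv
    have h3 := mul_pos hc0 (hpos _ _ h1)
    have h4 : |h v - h w| = h v - h w := abs_of_pos (by linarith)
    refine ⟨w, h1, ?_⟩
    rw [steepLen_pos (by rw [h4]; exact h2), h4]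

end Vale.Agent.P235.Tight
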