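/-
P235-M (helper802).  The wider classes: vertices on shortest paths; steep heights.
-/
import Vale.Agent.P235.R2.H802.Fin
import Vale.Agent.P235.R2.RED.Stmts

set_option linter.unusedSectionVars false

namespace Vale.Agent.P235.Tight

open SimpleGraph

/-- the bound of row F for graphs with a tight height -/
theorem embeds_bip {f : ℕ → ℝ} (hF : Red.RowF f) {V : Type} [Finite V] {G : SimpleGraph V}
    {ℓ : Sym2 V → ℝ} {h : V → ℝ} {s t : V} (hB : Bip G ℓ h s t) (hP : StPlane G s t) :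
    ∃ m, m ≤ Nat.card V + Nat.card V ^ 2 ∧ EmbedsL1 (pathDist G ℓ) (2 + 4 * f (m ^ 2)) := by
  obtain ⟨V', hV', G', σ', d', ℓ', s', t', ι, k1, k2, k3, k4, k5, k6, k7, k8⟩ := to_edges hB hP
  exact ⟨Nat.card V', k8, embeds_comp (hF V' G' σ' d' ℓ' s' t' k1 k2 k3 k4 k5 k6) ι k7⟩

/-- **Every vertex on a shortest path.**  The hypothesis of row F on the edges is only needed for
the vertices. -/
theorem embeds_vertices {f : ℕ → ℝ} (hF : Red.RowF f) (V : Type) [Finite V] (G : SimpleGraph V)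
    (σ : Equiv.Perm G.Dart) (d₀ : G.Dart) (ℓ : Sym2 V → ℝ) (s t : V) (hc : G.Connected)
    (hσ : PlaneMap G σ) (hs : s ∈ onFace σ d₀) (ht : t ∈ onFace σ d₀)
    (hpos : ∀ e ∈ G.edgeSet, 0 < ℓ e)
    (hv : ∀ v, pathDist G ℓ s v + pathDist G ℓ v t = pathDist G ℓ s t) :
    ∃ m, m ≤ Nat.card V + Nat.card V ^ 2 ∧ EmbedsL1 (pathDist G ℓ) (2 + 4 * f (m ^ 2)) :=
  embeds_bip hF (bip_of_vertices hc (fun u v huv => hpos s(u, v) huv) hv) ⟨σ, d₀, hσ, hs, ht⟩

/-- **Steep heights.**  If some height `h` moves by at most the length along every edge and every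
vertex except `t` (`s`) has an upward (downward) edge of slope at least `c`, then the path metric
embeds with the bound of row F divided by `c`. -/
theorem embeds_steep {f : ℕ → ℝ} (hF : Red.RowF f) (V : Type) [Finite V] (G : SimpleGraph V)
    (σ : Equiv.Perm G.Dart) (d₀ : G.Dart) (ℓ : Sym2 V → ℝ) (h : V → ℝ) (s t : V) (c : ℝ)
    (hc0 : 0 < c) (hc1 : c ≤ 1) (hc : G.Connected)
    (hσ : PlaneMap G σ) (hs : s ∈ onFace σ d₀) (ht : t ∈ onFace σ d₀)
    (hpos : ∀ e ∈ G.edgeSet, 0 < ℓ e) (hS : Steep G ℓ h s t c) :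
    ∃ m, m ≤ Nat.card V + Nat.card V ^ 2 ∧
      EmbedsL1 (pathDist G ℓ) ((2 + 4 * f (m ^ 2)) / c) := by
  have hpos' : ∀ u v, G.Adj u v → 0 < ℓ s(u, v) := fun u v huv => hpos s(u, v) huv
  have hB := bip_of_steep hc0 hc hpos' hS
  obtain ⟨m, hm, hE⟩ := embeds_bip hF hB ⟨σ, d₀, hσ, hs, ht⟩
  have hle : ∀ u v, G.Adj u v → steepLen ℓ h c s(u, v) ≤ ℓ s(u, v) := by
    intro u v huv
    by_cases h2 : c * ℓ s(u, v) ≤ |h u - h v|
    · rw [steepLen_pos h2]
      exact hS.lip u v huv
    · rw [steepLen_neg h2]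
  have hge : ∀ u v, G.Adj u v → c * ℓ s(u, v) ≤ steepLen ℓ h c s(u, v) := by
    intro u v huv
    by_cases h2 : c * ℓ s(u, v) ≤ |h u - h v|
    · rw [steepLen_pos h2]
      exact h2
    · rw [steepLen_neg h2]
      have := hpos' u v huv
      nlinarith
  refine ⟨m, hm, embeds_scale hc0 hE (fun x y => ?_) (fun x y => ?_) fun x y => ?_⟩
  · exact Real.iInf_nonneg fun w => walk_nonneg hB.pos w
  · refine le_pd hc fun w => (pd_le hB.pos w).trans ?_
    induction w with
    | nil => simp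
    | @cons a b _ hab p ih =>
      simp only [Walk.edges_cons, List.map_cons, List.sum_cons]
      linarith [hle a b hab]
  · refine le_pd hc fun w => ?_
    have h1 := mul_le_mul_of_nonneg_left (pd_le hpos' w) hc0.le
    refine h1.trans ?_
    clear h1
    induction w with
    | nil => simp
    | @cons a b _ hab p ih =>
      simp only [Walk.edges_cons, List.map_cons, List.sum_cons]
      rw [mul_add]
      linarith [hge a b hab]

end Vale.Agent.P235.Tight
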