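import Vale.Agent.P235.R2.H802.SqRoundL
import Vale.Agent.P235.R2.RED.Classes2
import Vale.Agent.P235.R2.H686.TR

/-!
# Rounds: lanes at the price of the square root, faces and arbitrary sets additively (helper802,
helper686)
-/

set_option linter.all false

namespace Vale.Agent.P235.SqR

open Finset Vale.Agent.P235 Vale.Agent.P235.Red H206 H536 H341W

theorem parts_comp {V : Type} {G : SimpleGraph V} {X : Set V} {S : V → Set V}
    (h : Pk.Parts G X S) {u : V} (hu : u ∉ X) : compSet G X u ⊆ S u := (h u hu).1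

theorem laneSet_lanes {V : Type} {G : SimpleGraph V} {ℓ : Sym2 V → ℝ} {s : ℕ} {X : Set V}
    (hX : X.Nonempty) (h : Pk.LaneSet G ℓ s X) : ∃ (u : V → ℝ) (L : Fin s → Set V), 0 < s ∧
      (∀ i, (L i).Nonempty) ∧ (∀ a b, |u a - u b| ≤ pathDist G ℓ a b) ∧
      (∀ i, ∀ a ∈ L i, ∀ b ∈ L i, pathDist G ℓ a b ≤ |u a - u b|) ∧ X = ⋃ i, L i := by
  classical
  obtain ⟨u, L, hu, hL, rfl⟩ := h
  obtain ⟨x, hx⟩ := hX
  obtain ⟨i₀, hi₀⟩ := Set.mem_iUnion.1 hx
  refine ⟨u, fun i => if (L i).Nonempty then L i else L i₀, i₀.pos, fun i => ?_, hu, fun i => ?_,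
    ?_⟩
  · beta_reduce
    split_ifs with h
    · exact h
    · exact ⟨x, hi₀⟩
  · beta_reduce
    split_ifs with h
    · exact hL i
    · exact hL i₀
  · ext y
    rw [Set.mem_iUnion, Set.mem_iUnion]
    constructor
    · rintro ⟨i, hi⟩
      refine ⟨i, ?_⟩
      rw [if_pos ⟨y, hi⟩]
      exact hi
    · rintro ⟨i, hi⟩
      split_ifs at hi with h
      · exact ⟨i, hi⟩
      · exact ⟨i₀, hi⟩

theorem pointedQ_monoK {V : Type} {G : SimpleGraph V} {ℓ : Sym2 V → ℝ} {H : V → ℝ}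
    {D : V → V → ℝ} {k K K' : ℝ} (hℓ : ∀ e ∈ G.edgeSet, 0 < ℓ e) (hH : ∀ v, 0 < H v) (hK : K ≤ K')
    (h : PointedQ G ℓ H D k K) : PointedQ G ℓ H D k K' := by
  obtain ⟨N, σ, h0, h1, h2, h3, h4, h5⟩ := h
  exact ⟨N, σ, h0, h1, fun u v huv => ⟨(h2 u v huv).1, (h2 u v huv).2.trans
    (mul_le_mul_of_nonneg_right hK (hℓ _ huv).le)⟩,
    fun v => ⟨(h3 v).1, (h3 v).2.trans (mul_le_mul_of_nonneg_right hK (hH v).le)⟩, h4, h5⟩

/-- the step which deletes any set of a plane graph, with the constant `A` -/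
def StepS (A : ℝ) : Prop :=
  ∀ (V : Type) [Finite V] (G : SimpleGraph V) (ℓ : Sym2 V → ℝ), G.Connected →
    (∃ σ : Equiv.Perm G.Dart, PlaneMap G σ) → (∀ e ∈ G.edgeSet, 0 < ℓ e) →
    ∀ (X : Set V) (B : ℝ), X.Nonempty → 1 ≤ B →
    EmbedsL1 (fun u v : X => pathDist G ℓ u v) B →
    ∃ F : V → V → ℝ, IsL1 F ∧ (∀ u v, G.Adj u v → F u v ≤ ℓ s(u, v)) ∧
      ∀ ν : V → V, Near G ℓ X ν → ∀ x y δ, 0 < δ → pathDist G ℓ x (ν x) ≤ δ →
        pathDist G ℓ y (ν y) ≤ 5 / 4 * δ → 8 * δ ≤ pathDist G ℓ x y →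
        2 * δ ≤ A * B * F x y

/-- the rounds, pointed form -/
theorem rounds_pointed {A : ℝ} (hA : 1 ≤ A) (hT : StepS A) {Q : ℝ} (hQ : 0 < Q)
    {s g k j : ℕ} {β : ℝ} {V : Type} {G : SimpleGraph V} {ℓ : Sym2 V → ℝ}
    (h : Pk.Rounds Q s g k j β G ℓ) : 0 ≤ β → Finite V → G.Connected →
      (∀ e ∈ G.edgeSet, 0 < ℓ e) → ∀ H : V → ℝ, (∀ v, 0 < H v) →
      (∀ u v, G.Adj u v → |H u - H v| ≤ ℓ s(u, v)) →
      PointedQ G ℓ H (pathDist G ℓ) (k * (24 * ((Nat.log 2 s + 1 : ℕ) : ℝ) ^ 2))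
        (96 * Q + 112 + β * (A + 4) + j * (((g + 1 : ℕ) : ℝ) + 4)) := by
  induction h with
  | @leaf k j β V G ℓ hD =>
    intro hβ _ hc hℓ H hH hHl
    refine pointedQ_monoK hℓ hH ?_ ((pointedQ_of (pointed_iff.2
      (pointed_leafW hQ hc hℓ hH hHl hD))).mono (by positivity))
    have : (0 : ℝ) ≤ β * (A + 4) + j * (((g + 1 : ℕ) : ℝ) + 4) := by
      positivity
    linarith
  | @lanes k j β V G ℓ X S hX hR hp _ ih =>
    intro hβ hfin hc hℓ H hH hHl
    obtain ⟨u, L, hs, hne, hu, hiso, rfl⟩ := laneSet_lanes hX hR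
    have h1 := pointedQ_step hc hℓ hH hHl hs le_rfl hne hu hiso
      (k := k * (24 * ((Nat.log 2 s + 1 : ℕ) : ℝ) ^ 2))
      (K := 96 * Q + 112 + β * (A + 4) + j * (((g + 1 : ℕ) : ℝ) + 4))
      (by positivity)
      (by positivity) fun v hv => piece_stepQ hc hℓ hv
        (H341W.Piece.induce hc hℓ (parts_comp hp hv) (hp v hv).2) (by positivity)
        (by positivity)
        fun H' hH' hHl' => ih v hv hβ inferInstance (hp v hv).2 (induce_pos hℓ _) H' hH' hHl'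
    refine h1.mono (le_of_eq ?_)
    push_cast
    ring
  | @face k j β V G ℓ σ d S hP hp _ ih =>
    intro hβ hfin hc hℓ H hH hHl
    have hd := pathDist_isMet hc hℓ
    obtain ⟨F, hF, hF1, hF2⟩ := surf_os hc hℓ hP d
    have hne : (onFace σ d).Nonempty := ⟨d.fst, d, Equiv.Perm.SameCycle.refl _ _, rfl⟩
    have hg1 : (1 : ℝ) ≤ ((g + 1 : ℕ) : ℝ) := by exact_mod_cast Nat.le_add_left 1 g
    have h1 := pointedQ_stepL (F := F) (L := ((g + 1 : ℕ) : ℝ)) hc hℓ hH hHl hne hF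
      (fun u v huv => (hF1 u v).trans (pathDist_adj hℓ huv)) hg1 (by
        intro ν hν x y δ hδ hx hy hxy
        have h1 := hF2 x y (ν x) (hν.mem x) (ν y) (hν.mem y)
        have h2 := hd.tri x (ν y) y
        rw [hd.symm (ν y) y] at h2
        have h3 := hd.tri x (ν x) y
        rw [hd.symm (ν x) y] at h3
        linarith)
      (k := k * (24 * ((Nat.log 2 s + 1 : ℕ) : ℝ) ^ 2))
      (K := 96 * Q + 112 + β * (A + 4) + j * (((g + 1 : ℕ) : ℝ) + 4))
      (by positivity)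
      (by positivity) fun v hv => piece_stepQ hc hℓ hv
        (H341W.Piece.induce hc hℓ (parts_comp hp hv) (hp v hv).2) (by positivity)
        (by positivity)
        fun H' hH' hHl' => ih v hv hβ inferInstance (hp v hv).2 (induce_pos hℓ _) H' hH' hHl'
    refine pointedQ_monoK hℓ hH (le_of_eq ?_) h1
    push_cast
    ring
  | @set k j β B V G ℓ σ X S hP hX hE hB hβ hp _ ih =>
    intro _ hfin hc hℓ H hH hHl
    obtain ⟨F, hF, hF1, hF2⟩ := hT V G ℓ hc ⟨σ, hP⟩ hℓ X B hX hB hE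
    have hAB : (1 : ℝ) ≤ A * B := by nlinarith
    have h1 := pointedQ_stepL (F := F) (L := A * B) hc hℓ hH hHl hX hF hF1 hAB hF2
      (k := k * (24 * ((Nat.log 2 s + 1 : ℕ) : ℝ) ^ 2))
      (K := 96 * Q + 112 + β * (A + 4) + j * (((g + 1 : ℕ) : ℝ) + 4))
      (by positivity)
      (by positivity) fun v hv => piece_stepQ hc hℓ hv
        (H341W.Piece.induce hc hℓ (parts_comp hp hv) (hp v hv).2) (by positivity)
        (by positivity)
        fun H' hH' hHl' => ih v hv hβ inferInstance (hp v hv).2 (induce_pos hℓ _) H' hH' hHl'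
    refine pointedQ_monoK hℓ hH ?_ h1
    nlinarith

end Vale.Agent.P235.SqR
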