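import Vale.Agent.P235.R2.H802.PkG
import Vale.Agent.P235.R2.H882.MStar

/-!
# The hand-in `PlanarFewMaxima` (helper802)
-/

set_option linter.all false

namespace Vale.Agent.P235.Pk

open Vale.Agent.P235

theorem mStarLL : Red.MStarLL 228352 := H882.mStar

theorem upL {V : Type} {G : SimpleGraph V} {ℓ : Sym2 V → ℝ} (hℓ : ∀ e ∈ G.edgeSet, 0 < ℓ e)
    {L : Set V} {a b : ℝ} (hE : EmbedsL1 (fun u v : L => pathDist G ℓ u v) a) (hab : a ≤ b) :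
    EmbedsL1 (fun u v : L => pathDist G ℓ u v) b := by
  obtain ⟨Ω, m, μ, g, hg⟩ := hE
  exact ⟨Ω, m, μ, g, fun x y => ⟨(hg x y).1, (hg x y).2.trans
    (mul_le_mul_of_nonneg_right hab (Red.pd_nonneg hℓ _ _))⟩⟩

theorem up {V : Type} {G : SimpleGraph V} {ℓ : Sym2 V → ℝ} (hℓ : ∀ e ∈ G.edgeSet, 0 < ℓ e)
    {a b : ℝ} (hE : EmbedsL1 (pathDist G ℓ) a) (hab : a ≤ b) : EmbedsL1 (pathDist G ℓ) b := by
  obtain ⟨Ω, m, μ, g, hg⟩ := hE
  exact ⟨Ω, m, μ, g, fun x y => ⟨(hg x y).1, (hg x y).2.trans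
    (mul_le_mul_of_nonneg_right hab (Red.pd_nonneg hℓ _ _))⟩⟩

theorem main : ∃ C : ℝ, 1 ≤ C ∧ ∀ (V : Type) [Finite V] (G : SimpleGraph V) (ℓ : Sym2 V → ℝ)
    (D : ℝ), G.Connected → (∀ e ∈ G.edgeSet, 0 < ℓ e) → 1 ≤ D →
    (∀ (L : Set V) (a b : ℕ), OnSurface G ℓ D L a b → EmbedsL1 (fun u v : L => pathDist G ℓ u v)
      (C * D * (Swp.LL (Nat.card V) + Real.log ((a : ℝ) + 2) + √(Real.log ((b : ℝ) + 2))))) ∧
    (∀ (G' : SimpleGraph V) (n a b : ℕ), G ≤ G' →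
      Swp.VertexSum (Block n a b D) G' (pathDist G ℓ) → EmbedsL1 (pathDist G ℓ)
      (C * D * (Swp.LL n + Real.log ((a : ℝ) + 2) + √(Real.log ((b : ℝ) + 2))))) ∧
    (∀ (Q β : ℝ) (s g k j : ℕ), 1 ≤ Q → 0 ≤ β → Rounds Q s g k j β G ℓ →
      EmbedsL1 (pathDist G ℓ)
      (C * (Q + √(k : ℝ) * Real.log ((s : ℝ) + 2) + j * ((g : ℝ) + 1) + β))) := by
  obtain ⟨A, hA, hS⟩ := sums_block
  refine ⟨A * (10 ^ 34 * 228352), by nlinarith, ?_⟩
  intro V _ G ℓ D hc hℓ hD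
  have hC : (1 : ℝ) ≤ 228352 := by norm_num
  have hlog : ∀ x : ℕ, 0 ≤ Real.log ((x : ℝ) + 2) := fun x =>
    Real.log_nonneg (by have := (Nat.cast_nonneg x : (0 : ℝ) ≤ x); linarith)
  have hsq : ∀ x : ℕ, 0 ≤ √(Real.log ((x : ℝ) + 2)) := fun x => Real.sqrt_nonneg _
  have hLL : ∀ n, 0 ≤ Swp.LL n := fun n => by linarith [LL_pos n]
  refine ⟨fun L a b h => upL hℓ (h.embeds hC mStarLL hc hℓ hD) ?_,
    fun G' n a b hle h => up hℓ (hS 228352 hC mStarLL n a b D hD V G G' ℓ hc hℓ hle h) ?_,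
    fun Q β s g k j hQ hβ h => up hℓ (h.embeds hc hℓ hQ hβ) ?_⟩
  · refine mul_le_mul_of_nonneg_right (mul_le_mul_of_nonneg_right (by linarith) (by linarith)) ?_
    have := hLL (Nat.card V)
    have := hlog a
    have := hsq b
    positivity
  · refine mul_le_mul_of_nonneg_right (mul_le_mul_of_nonneg_right (by linarith) (by linarith)) ?_
    have := hLL n
    have := hlog a
    have := hsq b
    positivity
  · refine mul_le_mul_of_nonneg_right (by linarith) ?_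
    have := hlog s
    positivity

end Vale.Agent.P235.Pk
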