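import Vale.Agent.P235.R2.H802.RoundsG
import Vale.Agent.P235.R2.H90.ClsU
import Vale.Agent.P235.R2.H718.Desc
import Vale.Agent.P235.R2.H582.KprAll
import Vale.Agent.P235.R2.H882.MStar
import Vale.Agent.P235.R2.H341.UniLogK
import Vale.Agent.P235.R2.H745.RidgeF

/-!
# The hand-in `PlanarFewMaxima`, four clauses (helper802, after 90, 718, 745, 324, 341, 582, 611)
-/

set_option linter.all false

namespace Vale.Agent.P235.Pg

open Vale.Agent.P235 Vale.Agent.P235.Red Vale.Agent.P235.R2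

variable {V : Type} {G : SimpleGraph V} {ℓ : Sym2 V → ℝ} {C D : ℝ}

theorem LL_eq (n : ℕ) : Swp.LL n = (ll n : ℝ) + 1 := rfl

theorem LL_pos (n : ℕ) : 1 ≤ Swp.LL n := by
  rw [LL_eq]
  have := (Nat.cast_nonneg (ll n) : (0 : ℝ) ≤ (ll n : ℝ))
  linarith

theorem mStarLL : MStarLL 228352 := H882.mStar

theorem upL (hℓ : ∀ e ∈ G.edgeSet, 0 < ℓ e) {L : Set V} {a b : ℝ}
    (hE : EmbedsL1 (fun u v : L => pathDist G ℓ u v) a) (hab : a ≤ b) :
    EmbedsL1 (fun u v : L => pathDist G ℓ u v) b := by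
  obtain ⟨Ω, m, μ, g, hg⟩ := hE
  exact ⟨Ω, m, μ, g, fun x y => ⟨(hg x y).1, (hg x y).2.trans
    (mul_le_mul_of_nonneg_right hab (Red.pd_nonneg hℓ _ _))⟩⟩

theorem up (hℓ : ∀ e ∈ G.edgeSet, 0 < ℓ e)
    {a b : ℝ} (hE : EmbedsL1 (pathDist G ℓ) a) (hab : a ≤ b) : EmbedsL1 (pathDist G ℓ) b := by
  obtain ⟨Ω, m, μ, g, hg⟩ := hE
  exact ⟨Ω, m, μ, g, fun x y => ⟨(hg x y).1, (hg x y).2.trans
    (mul_le_mul_of_nonneg_right hab (Red.pd_nonneg hℓ _ _))⟩⟩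

theorem main : ∃ C : ℝ, 1 ≤ C ∧ ∀ (V : Type) [Finite V] (G : SimpleGraph V) (ℓ : Sym2 V → ℝ)
    (D : ℝ), G.Connected → (∀ e ∈ G.edgeSet, 0 < ℓ e) → 1 ≤ D →
    (∀ (L : Set V) (p a b : ℕ), OnSurface G ℓ D L p a b →
      EmbedsL1 (fun u v : L => pathDist G ℓ u v) (C * D * (Swp.LL (Nat.card V) +
        Real.log (1 + (p : ℝ) * ((a : ℝ) + 1)) + √(Real.log ((a : ℝ) + b + 2))))) ∧
    (∀ (E : Set V) (m : ℕ) (B : ℝ), 1 ≤ B → Ridges G ℓ D m E →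
      EmbedsL1 (fun u v : E => pathDist G ℓ u v) B → EmbedsL1 (pathDist G ℓ)
        (C * (D * (Swp.LL (Nat.card V) + √(Real.log ((m : ℝ) + 2))) + B))) ∧
    (∀ (r m : ℕ) (L : Fin m → Set V) (B : ℝ), ¬ H134.IsMinor (⊤ : SimpleGraph (Fin r)) G →
      1 ≤ B → (∀ i, EmbedsL1 (fun u v : L i => pathDist G ℓ u v) B) →
      EmbedsL1 (fun u v : (⋃ i, L i : Set V) => pathDist G ℓ u v)
        (C * ((r : ℝ) + 2) ^ 3 * B * Real.log ((m : ℝ) + 2))) ∧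
    (∀ (Q β : ℝ) (s g k j : ℕ), 1 ≤ Q → 0 ≤ β → Rounds Q s g k j β G ℓ →
      EmbedsL1 (pathDist G ℓ)
        (C * (Q + √(k : ℝ) * Real.log ((s : ℝ) + 2) + j * ((g : ℝ) + 1) + β))) := by
  have hC : (1 : ℝ) ≤ 228352 := by norm_num
  obtain ⟨K, hK, hO⟩ := R2.H90.PlaneU.onSurface_all Kpr.lanes_all Kpr.step hC mStarLL
  obtain ⟨K₂, hK₂, hR⟩ := Pf.ridges_all Kpr.lanes_all hC mStarLL
  refine ⟨K + K₂ + 10 ^ 14, by linarith, ?_⟩
  intro V _ G ℓ D hc hℓ hD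
  refine ⟨fun L p a b h => upL hℓ (hO V G ℓ D L p a b hc hℓ hD h) ?_,
    fun E m B hB h hE => up hℓ (hR V G ℓ D B m E hc hℓ hD hB h hE) ?_,
    fun r m L B hr hB hE => upL hℓ (Uni.unionK hc hr hℓ hB hE) ?_,
    fun Q β s g k j hQ hβ h => up hℓ (h.embeds hQ hβ hc hℓ) ?_⟩
  · have h1 := LL_pos (Nat.card V)
    have h2 : 0 ≤ Real.log (1 + (p : ℝ) * ((a : ℝ) + 1)) := Real.log_nonneg (by
      have := (by positivity : (0 : ℝ) ≤ (p : ℝ) * ((a : ℝ) + 1))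
      linarith)
    refine mul_le_mul_of_nonneg_right (mul_le_mul_of_nonneg_right (by linarith) (by linarith)) ?_
    positivity
  · have h1 := LL_pos (Nat.card V)
    exact mul_le_mul_of_nonneg_right (by linarith) (by positivity)
  · have h1 : 0 ≤ Real.log ((m : ℝ) + 2) := Real.log_nonneg (by
      have := (Nat.cast_nonneg m : (0 : ℝ) ≤ m)
      linarith)
    have h2 : 0 ≤ ((r : ℝ) + 2) ^ 3 := by positivity
    exact mul_le_mul_of_nonneg_right (mul_le_mul_of_nonneg_right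
      (mul_le_mul_of_nonneg_right (by linarith) h2) (by linarith)) h1
  · have h1 : 0 ≤ Real.log ((s : ℝ) + 2) := Real.log_nonneg (by
      have := (Nat.cast_nonneg s : (0 : ℝ) ≤ s)
      linarith)
    exact mul_le_mul_of_nonneg_right (by linarith) (by positivity)

end Vale.Agent.P235.Pg
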