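import Vale.Agent.P235.R2.H802.PkF
import Vale.Agent.P235.R2.RED.SweptE
import Vale.Agent.P235.R2.H90.TermS

/-!
# The classes of `Classes2.lean` embed, second part (helper802, after 598, 680 and 90)
-/

set_option linter.all false

namespace Vale.Agent.P235.Pk

open Vale.Agent.P235 Vale.Agent.P235.Red Vale.Agent.P235.R2 Vale.Agent.P235.R2.H598

variable {V : Type} {G : SimpleGraph V} {ℓ : Sym2 V → ℝ} {C D : ℝ}

/-- **terminals on surfaces** -/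
theorem OnSurface.embeds (hC : 1 ≤ C) (hM : MStarLL C) [Finite V] (hc : G.Connected)
    (hℓ : ∀ e ∈ G.edgeSet, 0 < ℓ e) (hD : 1 ≤ D) {L : Set V} {a b : ℕ}
    (h : OnSurface G ℓ D L a b) : EmbedsL1 (fun u v : L => pathDist G ℓ u v)
      (10 ^ 31 * C * D *
        (Swp.LL (Nat.card V) + Real.log ((a : ℝ) + 2) + √(Real.log ((b : ℝ) + 2)))) := by
  obtain ⟨γ, σ, h, A, B, M₁, M₂, hS, ha, hb, hsep, h1, hlow, hhigh⟩ := h
  obtain ⟨Ω, m, μ, f, hf⟩ := H90.TermFinal.surfL_ends hC hM V G σ ℓ h L A B M₁ M₂ γ D hD hc hS hℓ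
    hsep h1 hlow hhigh
  refine ⟨Ω, m, μ, f, fun x y => ⟨(hf x y).1, (hf x y).2.trans
    (mul_le_mul_of_nonneg_right ?_ (pd_nonneg hℓ x y))⟩⟩
  have ha' : (γ : ℝ) + A.card + M₁.card ≤ a := by exact_mod_cast ha
  have hb' : (B.card : ℝ) + M₂.card ≤ b := by exact_mod_cast hb
  have h3 : Real.log ((γ : ℝ) + A.card + M₁.card + 2) ≤ Real.log ((a : ℝ) + 2) :=
    Real.log_le_log (by positivity) (by linarith)
  have h4 : √(Real.log ((B.card : ℝ) + M₂.card + 2)) ≤ √(Real.log ((b : ℝ) + 2)) :=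
    Real.sqrt_le_sqrt (Real.log_le_log (by positivity) (by linarith))
  rw [LL_eq]
  exact mul_le_mul_of_nonneg_left (by linarith) (by positivity)

/-- a block with lengths -/
def SBlock (n a b : ℕ) (D : ℝ) (V : Type) (G : SimpleGraph V) (ℓ : Sym2 V → ℝ) : Prop :=
  Nat.card V ≤ n ∧ OnSurface G ℓ D Set.univ a b

theorem SBlock.embeds (hC : 1 ≤ C) (hM : MStarLL C) {n a b : ℕ} (hD : 1 ≤ D)
    (V : Type) [Finite V] (G : SimpleGraph V) (ℓ : Sym2 V → ℝ) (hc : G.Connected)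
    (hℓ : ∀ e ∈ G.edgeSet, 0 < ℓ e) (h : SBlock n a b D V G ℓ) :
    EmbedsL1 (pathDist G ℓ) (10 ^ 31 * C * D *
      (Swp.LL n + Real.log ((a : ℝ) + 2) + √(Real.log ((b : ℝ) + 2)))) := by
  obtain ⟨Ω, m, μ, f, hf⟩ := h.2.embeds hC hM hc hℓ hD
  refine ⟨Ω, m, μ, fun x => f ⟨x, trivial⟩, fun x y => ⟨(hf ⟨x, trivial⟩ ⟨y, trivial⟩).1,
    (hf ⟨x, trivial⟩ ⟨y, trivial⟩).2.trans (mul_le_mul_of_nonneg_right ?_ (pd_nonneg hℓ x y))⟩⟩
  have h2 : (ll (Nat.card V) : ℝ) ≤ (ll n : ℝ) := by exact_mod_cast ll_mono h.1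
  rw [LL_eq, LL_eq]
  exact mul_le_mul_of_nonneg_left (by linarith) (by positivity)

theorem vSumOf_block {n a b : ℕ} {D : ℝ} {V : Type} {G : SimpleGraph V} {d : V → V → ℝ}
    (h : Swp.VertexSum (Block n a b D) G d) :
    VSumOf (fun V G d => SumOf (Leaf2 n 0) G d ∨ ∃ ℓ : Sym2 V → ℝ,
      (∀ u v, G.Adj u v → ℓ s(u, v) = d u v) ∧ SBlock n a b D V G ℓ) G d := by
  induction h with
  | base h =>
    rcases h with h | h
    · exact .base (Or.inl h.sumOf)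
    · exact .base (Or.inr h)
  | glue h2 h3 h4 _ _ ihA ihB => exact .glue h2 h3 h4 ihA ihB

/-- **vertex sums of blocks, `a` and `b` for every block** -/
theorem sums_block : ∃ A : ℝ, 1 ≤ A ∧ ∀ (C : ℝ), 1 ≤ C → MStarLL C →
    ∀ (n a b : ℕ) (D : ℝ), 1 ≤ D →
    ∀ (V : Type) [Finite V] (G G' : SimpleGraph V) (ℓ : Sym2 V → ℝ), G.Connected →
      (∀ e ∈ G.edgeSet, 0 < ℓ e) → G ≤ G' → Swp.VertexSum (Block n a b D) G' (pathDist G ℓ) →
      EmbedsL1 (pathDist G ℓ)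
        (A * C * D * (Swp.LL n + Real.log ((a : ℝ) + 2) + √(Real.log ((b : ℝ) + 2)))) := by
  obtain ⟨A, hA, h⟩ := sums_tw
  refine ⟨A + 10 ^ 31, by linarith, ?_⟩
  intro C hC hM n a b D hD V _ G G' ℓ hc hℓ hle hS
  have hn := LL_pos n
  have hlog : 0 ≤ Real.log ((a : ℝ) + 2) :=
    Real.log_nonneg (by have := (Nat.cast_nonneg a : (0 : ℝ) ≤ a); linarith)
  have hsq : 0 ≤ √(Real.log ((b : ℝ) + 2)) := Real.sqrt_nonneg _
  set T : ℝ := Swp.LL n + Real.log ((a : ℝ) + 2) + √(Real.log ((b : ℝ) + 2)) with hTdef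
  have hE := h C hC hM (10 ^ 31 * C * D * T)
    (by positivity) n 0 (SBlock n a b D)
    (fun V _ G ℓ hc hℓ h => h.embeds hC hM hD V G ℓ hc hℓ) V G G' ℓ hc hℓ hle (vSumOf_block hS)
  obtain ⟨Ω, m, μ, f, hf⟩ := hE
  refine ⟨Ω, m, μ, f, fun x y => ⟨(hf x y).1, (hf x y).2.trans
    (mul_le_mul_of_nonneg_right ?_ (pd_nonneg hℓ x y))⟩⟩
  have h1 : A * (C * ((ll n : ℝ) + 1) + ((0 : ℕ) : ℝ)) ≤ A * C * D * T := by
    rw [← LL_eq]
    have h2 : 0 ≤ A * C * Swp.LL n := by positivity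
    calc A * (C * Swp.LL n + ((0 : ℕ) : ℝ)) = A * C * Swp.LL n := by
          push_cast; ring
      _ ≤ A * C * Swp.LL n * D := le_mul_of_one_le_right h2 hD
      _ ≤ A * C * T * D := by
          refine mul_le_mul_of_nonneg_right (mul_le_mul_of_nonneg_left (by rw [hTdef]; linarith)
            (by positivity)) (by linarith)
      _ = _ := by ring
  have h3 : (A + 10 ^ 31) * C * D * T = A * C * D * T + 10 ^ 31 * C * D * T := by ring
  rw [h3]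
  linarith

end Vale.Agent.P235.Pk
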