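import Vale.Agent.P235.R2.RED.ClassesG
import Vale.Agent.P235.R2.H324.KrAll

/-!
# Rounds which delete lanes, faces, or arbitrary sets (helper802, after helper324 and helper686)
-/

set_option linter.all false

namespace Vale.Agent.P235.Pg

open Vale.Agent.P235

theorem Rounds.minor {Q : ℝ} {s g k j : ℕ} {β : ℝ} {V : Type} {G : SimpleGraph V}
    {ℓ : Sym2 V → ℝ} (h : Rounds Q s g k j β G ℓ) : Pk.MinorRounds Q s g k j β G ℓ := by
  induction h with
  | leaf h => exact .leaf h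
  | lanes hX hL hp _ ih => exact .lanes hX hL hp ih
  | face hS hp _ ih => exact .face hS hp ih
  | set hr hX hB hβ hE hp _ ih => exact .set hr hX hB hE hp hβ ih

/-- **the rounds** -/
theorem Rounds.embeds {Q : ℝ} (hQ : 1 ≤ Q) {s g k j : ℕ} {β : ℝ} (hβ : 0 ≤ β) {V : Type}
    [Finite V] {G : SimpleGraph V} {ℓ : Sym2 V → ℝ} (hc : G.Connected)
    (hℓ : ∀ e ∈ G.edgeSet, 0 < ℓ e) (h : Rounds Q s g k j β G ℓ) :
    EmbedsL1 (pathDist G ℓ) (1600000000 * (Q + √(k : ℝ) * Real.log ((s : ℝ) + 2) +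
      j * ((g : ℝ) + 1) + β)) := MinR.minorRounds_all hQ hβ hc hℓ h.minor

end Vale.Agent.P235.Pg
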