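import Vale.Agent.P235.R2.H341.W4
import Vale.Agent.P235.R2.H718.SqDefs

/-!
# Separators by three chains (helper802, on helper341's sides of fundamental cycles)
-/

set_option linter.all false

namespace Vale.Agent.P235.SqR

open SimpleGraph Finset Vale.Agent.P235.H341W Vale.Agent.P235.H718

section flat

variable {V : Type} {G : SimpleGraph V} {σ : Equiv.Perm G.Dart}

/-- a function on the darts which does not change along faces and across darts off `X` -/
structure Flat (σ : Equiv.Perm G.Dart) (X : Set V) (c : G.Dart → ZMod 2) : Prop where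
  face : ∀ d, (faceNext σ d).fst ∉ X → c (faceNext σ d) = c d
  cross : ∀ d : G.Dart, d.fst ∉ X → c d.symm = c d

theorem Flat.at [Finite V] (hσ : PlaneMap G σ) {X : Set V} {c : G.Dart → ZMod 2}
    (hc : Flat σ X c) {d d' : G.Dart} (hd : d.fst ∉ X) (h : d.fst = d'.fst) : c d = c d' := by
  have hfin : Finite G.Dart := by
    classical
    have := Fintype.ofFinite V
    infer_instance
  have key : ∀ n : ℕ, ((σ ^ n) d).fst = d.fst ∧ c ((σ ^ n) d) = c d := by
    intro n
    induction n with
    | zero => exact ⟨rfl, rfl⟩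
    | succ n ih =>
      rw [pow_succ', Equiv.Perm.mul_apply]
      have h1 : (σ ((σ ^ n) d)).fst = d.fst := (hσ.fst _).trans ih.1
      have h3 := hc.face ((σ ^ n) d).symm (by
        rw [faceNext_apply, Dart.symm_symm, h1]
        exact hd)
      rw [faceNext_apply, Dart.symm_symm, hc.cross _ (by rw [ih.1]; exact hd)] at h3
      exact ⟨h1, h3.trans ih.2⟩
  obtain ⟨n, hn⟩ := (hσ.cyc d d' h).exists_nat_pow_eq
  rw [← hn]
  exact (key n).2.symm

theorem Flat.reach [Finite V] (hσ : PlaneMap G σ) {X : Set V} {c : G.Dart → ZMod 2}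
    (hc : Flat σ X c) {u v : V} (h : ReachOff G X u v) {d d' : G.Dart} (hd : d.fst = u)
    (hd' : d'.fst = v) : c d = c d' := by
  obtain ⟨w, hw⟩ := h
  induction w generalizing d with
  | nil => exact hc.at hσ (by rw [hd]; exact hw _ (by simp)) (hd.trans hd'.symm)
  | @cons a b v hab w ih =>
    have h1 := ih (d := (⟨(b, a), hab.symm⟩ : G.Dart)) rfl hd'
      (fun x hx => hw x (by rw [Walk.support_cons]; exact List.mem_cons_of_mem _ hx))
    rw [← h1]
    have ha : a ∉ X := hw a (by simp)
    have h2 := hc.cross (⟨(a, b), hab⟩ : G.Dart) ha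
    have h3 := hc.at hσ (d := d) (d' := (⟨(a, b), hab⟩ : G.Dart)) (by rw [hd]; exact ha) hd
    rw [h3, ← h2]
    rfl

end flat

section main

variable {V : Type} {G : SimpleGraph V} {σ : Equiv.Perm G.Dart} {h : V → ℝ} {s : V} {p : V → V}
variable {r : G.Dart → G.Dart → ZMod 2}

/-- the far side of a non-tree dart and the dart itself -/
noncomputable def q (r : G.Dart → G.Dart → ZMod 2) (p : V → V) (s : V) (e d : G.Dart) : ZMod 2 :=
  ind (¬ Tr p s e) * r e.symm d + ind (d = e)

theorem ind_symm (d e : G.Dart) : ind (d.symm = e) = ind (d = e.symm) := ind_congr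
  ⟨fun k => by rw [← k, Dart.symm_symm], fun k => by rw [k, Dart.symm_symm]⟩

theorem q_bd (hp : Up G (fun v => - h v) s p) (hr : ∀ e, Side σ p s e (r e)) (e d : G.Dart) :
    q r p s e d + q r p s e d.symm = pz p s e.fst d + pz p s e.snd d := by
  unfold q
  rw [ind_symm]
  by_cases he : Tr p s e
  · rw [ind_neg (fun k => k he), zero_mul, zero_mul, zero_add, zero_add]
    rcases he with ⟨h1, h2⟩ | ⟨h1, h2⟩
    · have h3 := pz_step hp h1 e rfl h2.symm d
      rw [h2] at h3
      have h4 := CharTwo.add_self_eq_zero (pz p s e.snd d)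
      linear_combination - h3 - h4
    · have h3 := pz_step hp h1 e.symm rfl h2.symm d
      rw [h2, Dart.symm_symm] at h3
      have h4 := CharTwo.add_self_eq_zero (pz p s e.fst d)
      linear_combination - h3 - h4
  · rw [ind_pos he, one_mul, one_mul]
    have h1 := (hr e.symm).bd d
    rw [CC_flip] at h1
    unfold CC at h1
    have h2 := CharTwo.add_self_eq_zero (ind (d = e) + ind (d = e.symm))
    linear_combination h1 + h2

theorem q_face (hr : ∀ e, Side σ p s e (r e)) (e d : G.Dart) :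
    q r p s e (faceNext σ d) + q r p s e d = ind (faceNext σ d = e) + ind (d = e) := by
  unfold q
  rw [(hr e.symm).inv]
  have h2 := CharTwo.add_self_eq_zero (ind (¬ Tr p s e) * r e.symm d)
  linear_combination h2

/-- the darts of a face in order -/
def bb (σ : Equiv.Perm G.Dart) (b₀ : G.Dart) (l : ℕ) : G.Dart := (faceNext σ ^ l) b₀

theorem bb_zero (b₀ : G.Dart) : bb σ b₀ 0 = b₀ := rfl

theorem bb_succ (b₀ : G.Dart) (l : ℕ) : bb σ b₀ (l + 1) = faceNext σ (bb σ b₀ l) := by
  unfold bb
  rw [pow_succ', Equiv.Perm.mul_apply]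

theorem bb_same (b₀ : G.Dart) (l : ℕ) : (faceNext σ).SameCycle b₀ (bb σ b₀ l) := ⟨l, by
  rw [zpow_natCast]
  rfl⟩

/-- the prefix sums -/
noncomputable def RR (σ : Equiv.Perm G.Dart) (r : G.Dart → G.Dart → ZMod 2) (p : V → V) (s : V)
    (b₀ : G.Dart) (j : ℕ) (d : G.Dart) : ZMod 2 :=
  ∑ l ∈ Finset.range j, q r p s (bb σ b₀ l) d

theorem RR_zero (b₀ d : G.Dart) : RR σ r p s b₀ 0 d = 0 := by
  unfold RR
  rw [Finset.range_zero, Finset.sum_empty]

theorem RR_succ (b₀ : G.Dart) (j : ℕ) (d : G.Dart) :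
    RR σ r p s b₀ (j + 1) d = RR σ r p s b₀ j d + q r p s (bb σ b₀ j) d := by
  unfold RR
  rw [Finset.sum_range_succ]

theorem RR_bd (hσ : PlaneMap G σ) (hp : Up G (fun v => - h v) s p)
    (hr : ∀ e, Side σ p s e (r e)) (b₀ : G.Dart) (j : ℕ) (d : G.Dart) :
    RR σ r p s b₀ j d + RR σ r p s b₀ j d.symm =
      pz p s b₀.fst d + pz p s (bb σ b₀ j).fst d := by
  induction j with
  | zero => rw [RR_zero, RR_zero, bb_zero, add_zero, CharTwo.add_self_eq_zero]
  | succ j ih =>
    rw [RR_succ, RR_succ]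
    have h1 := q_bd hp hr (bb σ b₀ j) d
    have h2 : (bb σ b₀ (j + 1)).fst = (bb σ b₀ j).snd := by
      rw [bb_succ, faceNext_fst hσ.fst]
    rw [h2]
    have h3 := CharTwo.add_self_eq_zero (pz p s (bb σ b₀ j).fst d)
    linear_combination ih + h1 + h3

theorem RR_face (hr : ∀ e, Side σ p s e (r e)) (b₀ : G.Dart) (j : ℕ) (d : G.Dart) :
    RR σ r p s b₀ j (faceNext σ d) + RR σ r p s b₀ j d =
      ind (faceNext σ d = b₀) + ind (faceNext σ d = bb σ b₀ j) := by
  induction j with
  | zero => rw [RR_zero, RR_zero, bb_zero, add_zero, CharTwo.add_self_eq_zero]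
  | succ j ih =>
    rw [RR_succ, RR_succ]
    have h1 := q_face hr (bb σ b₀ j) d
    have h2 : ind (d = bb σ b₀ j) = ind (faceNext σ d = bb σ b₀ (j + 1)) := ind_congr
      ⟨fun k => by rw [bb_succ, k], fun k => by
        rw [bb_succ] at k
        exact (faceNext σ).injective k⟩
    rw [h2] at h1
    have h3 := CharTwo.add_self_eq_zero (ind (faceNext σ d = bb σ b₀ j))
    linear_combination ih + h1 + h3

theorem pz_off {X : Set V} {a : V} (ha : chain p s a ⊆ X) {d : G.Dart} (hd : d.fst ∉ X) :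
    pz p s a d = 0 := by
  by_contra k
  exact hd (ha (pz_mem k).1)

theorem RR_flat (hσ : PlaneMap G σ) (hp : Up G (fun v => - h v) s p)
    (hr : ∀ e, Side σ p s e (r e)) (b₀ : G.Dart) (j : ℕ) {X : Set V}
    (h1 : chain p s b₀.fst ⊆ X) (h2 : chain p s (bb σ b₀ j).fst ⊆ X) :
    Flat σ X (RR σ r p s b₀ j) where
  face d hd := by
    have h3 := RR_face hr b₀ j d
    rw [ind_neg, ind_neg, add_zero] at h3
    · exact CharTwo.add_eq_zero.1 h3
    · intro k
      rw [k] at hd
      exact hd (h2 Relation.ReflTransGen.refl)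
    · intro k
      rw [k] at hd
      exact hd (h1 Relation.ReflTransGen.refl)
  cross d hd := by
    have h3 := RR_bd hσ hp hr b₀ j d
    rw [pz_off h1 hd, pz_off h2 hd, add_zero] at h3
    exact (CharTwo.add_eq_zero.1 h3).symm

end main

end Vale.Agent.P235.SqR
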