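import Vale.Agent.P235.R2.H802.SqStep

/-!
# Rounds of lanes, square root form: one round (helper802, after helper105 and helper341)
-/

set_option linter.all false

namespace Vale.Agent.P235.SqR

open Finset Vale.Agent.P235 H206 H536 H341W

section step

variable {V : Type} {G : SimpleGraph V} {ℓ : Sym2 V → ℝ}

/-- one round -/
theorem pointedQ_step [Finite V] (hc : G.Connected) (hℓ : ∀ e ∈ G.edgeSet, 0 < ℓ e) {H : V → ℝ}
    (hH : ∀ v, 0 < H v) (hHl : ∀ u v, G.Adj u v → |H u - H v| ≤ ℓ s(u, v))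
    {n s : ℕ} (hn : 0 < n) (hns : n ≤ s) {L : Fin n → Set V} (hL : ∀ i, (L i).Nonempty)
    {u : V → ℝ} (hu : ∀ a b, |u a - u b| ≤ pathDist G ℓ a b)
    (hiso : ∀ i, ∀ a ∈ L i, ∀ b ∈ L i, pathDist G ℓ a b ≤ |u a - u b|) {k K : ℝ} (hk : 0 ≤ k)
    (hK : 0 ≤ K) (ih : ∀ v ∉ ⋃ i, L i, StepQ G ℓ (⋃ i, L i) v k K) :
    PointedQ G ℓ H (pathDist G ℓ) (k + 24 * ((Nat.log 2 s + 1 : ℕ) : ℝ) ^ 2) K := by
  classical
  have := Fintype.ofFinite V
  have hd := pathDist_isMet hc hℓ
  have hPne : (⋃ i, L i).Nonempty := by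
    obtain ⟨z0, hz0⟩ := hL ⟨0, hn⟩
    exact ⟨z0, Set.mem_iUnion.2 ⟨_, hz0⟩⟩
  obtain ⟨ν, hν⟩ := exists_near (X := ⋃ i, L i) hc hℓ hPne
  obtain ⟨A, hA, hAe, hAu, hAl, hAs⟩ := lanes_sq hc hℓ hH hHl hn hns hL hu hiso hν
  set m2 : ℝ := 24 * ((Nat.log 2 s + 1 : ℕ) : ℝ) ^ 2 with hm2
  set P : Set V := ⋃ i, L i with hP
  obtain ⟨φ, hφ0, hφH, hφP, hφpos, hφl, hφn⟩ := exists_barrier hℓ hH hHl P
  have hH0 : ∀ v, 0 ≤ H v := fun v => (hH v).le
  -- components
  let Q := Quotient (compSetoid G P)
  have : Fintype Q := Fintype.ofFinite Q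
  have hQ : ∀ c : Q, PointedQ (G.induce (compSet G P c.out.1)) (fun e => ℓ (e.map Subtype.val))
      (fun v => φ v.1) (fun a b => pathDist G ℓ a.1 b.1) k K := fun c => ih c.out.1 c.out.2 φ hφ0
      hφpos hφl
  choose M r hMI hrI hr1 hr2 hr3 hr4 using hQ
  have hmk : ∀ (v : V) (hv : v ∉ P), v ∈ compSet G P (⟦⟨v, hv⟩⟧ : Q).out.1 := by
    intro v hv
    exact Quotient.mk_out (s := compSetoid G P) ⟨v, hv⟩
  have huniq : ∀ (c : Q) (v : V) (hv : v ∉ P), v ∈ compSet G P c.out.1 → c = ⟦⟨v, hv⟩⟧ := by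
    intro c v hv h
    have h1 : (⟦c.out⟧ : Q) = ⟦⟨v, hv⟩⟧ := Quotient.sound h
    rwa [Quotient.out_eq] at h1
  have hrX : ∀ (c : Q) (v : V), v ∈ P → v ∉ compSet G P c.out.1 := fun c v hv h =>
    ReachOff.right h hv
  let e : ∀ c : Q, Option V → Option (compSet G P c.out.1) := fun c a =>
    a.elim none fun v => if h : v ∈ compSet G P c.out.1 then some ⟨v, h⟩ else none
  have he0 : ∀ c, e c none = none := fun c => rfl
  have he1 : ∀ c v (h : v ∈ compSet G P c.out.1), e c (some v) = some ⟨v, h⟩ := by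
    intro c v h
    exact dif_pos h
  have he2 : ∀ c v, v ∉ compSet G P c.out.1 → e c (some v) = none := by
    intro c v h
    exact dif_neg h
  let N3 : Option V → Option V → ℝ := fun a b => ∑ c : Q, M c (e c a) (e c b)
  let G3 : Option V → Option V → ℝ := fun a b => ∑ c : Q, r c (e c a) (e c b)
  have hN3 : IsSq N3 := IsSq.sum Finset.univ (fun c a b => M c (e c a) (e c b))
    fun c _ => (hMI c).comap (e c)
  have hG3 : IsL1 G3 := IsL1.sum Finset.univ (fun c a b => r c (e c a) (e c b))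
    fun c _ => (hrI c).comap (e c)
  have hn1' : ∀ a b, 0 ≤ A a b := hA.nonneg
  have hn3' : ∀ a b, 0 ≤ N3 a b := hN3.nonneg
  have hn4' : ∀ a b, 0 ≤ G3 a b := hG3.nonneg
  have htermM : ∀ (c : Q) a b, 0 ≤ M c (e c a) (e c b) := fun c a b => (hMI c).nonneg _ _
  have hterm : ∀ (c : Q) a b, 0 ≤ r c (e c a) (e c b) := fun c a b => (hrI c).nonneg _ _
  have hsingleM : ∀ (c : Q) a b, M c (e c a) (e c b) ≤ N3 a b := fun c a b =>
    Finset.single_le_sum (f := fun c => M c (e c a) (e c b)) (fun c _ => htermM c a b)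
      (Finset.mem_univ c)
  have hsingle : ∀ (c : Q) a b, r c (e c a) (e c b) ≤ G3 a b := fun c a b =>
    Finset.single_le_sum (f := fun c => r c (e c a) (e c b)) (fun c _ => hterm c a b)
      (Finset.mem_univ c)
  refine ⟨fun a b => A a b + N3 a b, G3, hA.add hN3, hG3, ?_, ?_, ?_, ?_⟩
  · -- edges
    intro u v huv
    have hl0 : 0 < ℓ s(u, v) := hℓ _ huv
    have f1 := hAe u v huv
    have hone : ∀ u v, u ∉ P → G.Adj u v → N3 (some u) (some v) ≤ k * ℓ s(u, v) ^ 2 ∧
        G3 (some u) (some v) ≤ K * ℓ s(u, v) := by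
      intro u v hu huv
      have hz : ∀ c ∈ Finset.univ, c ≠ (⟦⟨u, hu⟩⟧ : Q) →
          e c (some u) = none ∧ e c (some v) = none := by
        intro c _ hc
        have h1 : u ∉ compSet G P c.out.1 := fun h => hc (huniq c u hu h)
        have h2 : v ∉ compSet G P c.out.1 := fun h =>
          h1 (ReachOff.trans h (ReachOff.adj (ReachOff.right h) hu huv.symm))
        exact ⟨he2 c u h1, he2 c v h2⟩
      have hsumM : N3 (some u) (some v) = M ⟦⟨u, hu⟩⟧ (e _ (some u)) (e _ (some v)) := by
        refine Finset.sum_eq_single _ (fun c hc1 hc => ?_) (fun h => absurd (Finset.mem_univ _) h)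
        rw [(hz c hc1 hc).1, (hz c hc1 hc).2]
        exact (hMI c).self _
      have hsum : G3 (some u) (some v) = r ⟦⟨u, hu⟩⟧ (e _ (some u)) (e _ (some v)) := by
        refine Finset.sum_eq_single _ (fun c hc1 hc => ?_) (fun h => absurd (Finset.mem_univ _) h)
        rw [(hz c hc1 hc).1, (hz c hc1 hc).2]
        exact (hrI c).self _
      rw [hsum, hsumM, he1 _ u (hmk u hu)]
      by_cases hv : v ∈ P
      · rw [he2 _ v (hrX _ v hv)]
        have h1 := hφl u v huv
        rw [hφP v hv, sub_zero] at h1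
        have h2 := (le_abs_self _).trans h1
        have h3 := hr2 (⟦⟨u, hu⟩⟧ : Q) ⟨u, hmk u hu⟩
        refine ⟨h3.1.trans (mul_le_mul_of_nonneg_left ?_ hk),
          h3.2.trans (mul_le_mul_of_nonneg_left h2 hK)⟩
        exact pow_le_pow_left₀ (hφ0 u) h2 2
      · have hvK : v ∈ compSet G P (⟦⟨u, hu⟩⟧ : Q).out.1 :=
          ReachOff.trans (hmk u hu) (ReachOff.adj hu hv huv)
        rw [he1 _ v hvK]
        exact hr1 _ _ _ huv
    have f3 : N3 (some u) (some v) ≤ k * ℓ s(u, v) ^ 2 ∧
        G3 (some u) (some v) ≤ K * ℓ s(u, v) := by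
      by_cases hu : u ∈ P
      · by_cases hv : v ∈ P
        · have hzM : N3 (some u) (some v) = 0 := Finset.sum_eq_zero fun c _ => by
            rw [he2 c u (hrX c u hu), he2 c v (hrX c v hv)]
            exact (hMI c).self _
          have hz : G3 (some u) (some v) = 0 := Finset.sum_eq_zero fun c _ => by
            rw [he2 c u (hrX c u hu), he2 c v (hrX c v hv)]
            exact (hrI c).self _
          rw [hz, hzM]
          constructor <;> positivity
        · rw [hG3.symm, hN3.symm, Sym2.eq_swap]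
          exact hone v u hv huv.symm
      · exact hone u v hu huv
    refine ⟨?_, f3.2⟩
    show A (some u) (some v) + N3 (some u) (some v) ≤ _
    have := f3.1
    linarith
  · -- upper bound at the base point
    intro v
    have f1 := hAu v
    have f3 : N3 (some v) none ≤ k * H v ^ 2 ∧ G3 (some v) none ≤ K * H v := by
      by_cases hv : v ∈ P
      · have hzM : N3 (some v) none = 0 := Finset.sum_eq_zero fun c _ => by
          rw [he2 c v (hrX c v hv), he0]
          exact (hMI c).self _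
        have hz : G3 (some v) none = 0 := Finset.sum_eq_zero fun c _ => by
          rw [he2 c v (hrX c v hv), he0]
          exact (hrI c).self _
        rw [hz, hzM]
        exact ⟨mul_nonneg hk (sq_nonneg _), mul_nonneg hK (hH0 v)⟩
      · have hz0 : ∀ c ∈ Finset.univ, c ≠ (⟦⟨v, hv⟩⟧ : Q) → e c (some v) = none := by
          intro c _ hc
          exact he2 c v fun h => hc (huniq c v hv h)
        have hsumM : N3 (some v) none = M ⟦⟨v, hv⟩⟧ (e _ (some v)) (e _ none) := by
          refine Finset.sum_eq_single _ (fun c hc1 hc => ?_)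
            (fun h => absurd (Finset.mem_univ _) h)
          rw [hz0 c hc1 hc, he0]
          exact (hMI c).self _
        have hsum : G3 (some v) none = r ⟦⟨v, hv⟩⟧ (e _ (some v)) (e _ none) := by
          refine Finset.sum_eq_single _ (fun c hc1 hc => ?_)
            (fun h => absurd (Finset.mem_univ _) h)
          rw [hz0 c hc1 hc, he0]
          exact (hrI c).self _
        rw [hsum, hsumM, he1 _ v (hmk v hv), he0]
        have h3 := hr2 (⟦⟨v, hv⟩⟧ : Q) ⟨v, hmk v hv⟩
        exact ⟨h3.1.trans (mul_le_mul_of_nonneg_left (pow_le_pow_left₀ (hφ0 v) (hφH v) 2) hk),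
          h3.2.trans (mul_le_mul_of_nonneg_left (hφH v) hK)⟩
    refine ⟨?_, f3.2⟩
    show A (some v) none + N3 (some v) none ≤ _
    have := f3.1
    linarith
  · -- lower bound at the base point
    intro v
    left
    have f1 := hAl v
    have := hn3' (some v) none
    show H v ^ 2 ≤ 4000000 * (A (some v) none + N3 (some v) none)
    linarith
  · -- separation
    intro x y δ hδ hx hy hxy
    show δ ^ 2 ≤ 4000000 * (A (some x) (some y) + N3 (some x) (some y)) ∨
      δ ≤ 2000 * G3 (some x) (some y)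
    have p1 := hn1' (some x) (some y)
    have p3 := hn3' (some x) (some y)
    have p4 := hn4' (some x) (some y)
    have key : ∀ a b, δ ≤ H a → δ ≤ H b → 8 * δ ≤ pathDist G ℓ a b → φ a < δ →
        δ ^ 2 ≤ 4000000 * A (some a) (some b) := by
      intro a b ha hb hab hφa
      obtain ⟨z, hz, hzf⟩ := hφn a (hφa.trans_le ha)
      have haz : pathDist G ℓ a z < δ := by
        have h1 := hzf (fun v => pathDist G ℓ v z) (fun u v huv => by
          have a1 := hd.tri u v z
          have a2 := hd.tri v u z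
          rw [hd.symm v u] at a2
          have a3 := pathDist_adj hℓ huv
          rw [abs_le]; constructor <;> linarith)
        rw [hd.self, sub_zero] at h1
        exact ((le_abs_self _).trans h1).trans_lt hφa
      exact hAs a b δ hδ ha hb hab ((hν.le a z hz).trans_lt haz)
    by_cases hφx : δ ≤ φ x
    · by_cases hφy : δ ≤ φ y
      · have hxP : x ∉ P := fun h => by rw [hφP x h] at hφx; linarith
        have hyP : y ∉ P := fun h => by rw [hφP y h] at hφy; linarith
        have h3 := hsingle ⟦⟨x, hxP⟩⟧ (some x) (some y)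
        have h3' := hsingleM ⟦⟨x, hxP⟩⟧ (some x) (some y)
        rw [he1 _ x (hmk x hxP)] at h3 h3'
        by_cases hyK : y ∈ compSet G P (⟦⟨x, hxP⟩⟧ : Q).out.1
        · rw [he1 _ y hyK] at h3 h3'
          rcases hr4 ⟦⟨x, hxP⟩⟧ ⟨x, hmk x hxP⟩ ⟨y, hyK⟩ δ hδ hφx hφy hxy with h4 | h4
          · left; linarith
          · right; linarith
        · rw [he2 _ y hyK] at h3 h3'
          rcases hr3 ⟦⟨x, hxP⟩⟧ ⟨x, hmk x hxP⟩ with h4 | h4
          · left
            have h5 : φ x ^ 2 ≤ 4000000 * M ⟦⟨x, hxP⟩⟧ (some ⟨x, hmk x hxP⟩) none := h4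
            have h6 : δ ^ 2 ≤ φ x ^ 2 := pow_le_pow_left₀ hδ.le hφx 2
            linarith
          · right
            have h5 : φ x ≤ 2000 * r ⟦⟨x, hxP⟩⟧ (some ⟨x, hmk x hxP⟩) none := h4
            linarith
      · push Not at hφy
        left
        have h1 := key y x hy hx (by rw [hd.symm]; exact hxy) hφy
        rw [hA.symm] at h1
        linarith
    · push Not at hφx
      left
      have h1 := key x y hx hy hxy hφx
      linarith

end step

end Vale.Agent.P235.SqR
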