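import Vale.Agent.P235.R2.H341.W2
import Vale.Agent.P235.H105.Peel2

/-!
# Rounds of lanes, square root form

`Pointed2` of `H105/Peel2.lean` for unions of lanes and for relative pieces (helper802, after
helper105 and helper341).
-/

set_option linter.all false

namespace Vale.Agent.P235.SqR

open Finset Vale.Agent.P235 H206 H536 H341W

/-- a pointed `ℓ₂` family `N` (squared distances) and a pointed `L₁` semimetric `σ` which are
bounded by the edge lengths and by `H`, and such that one of them separates `x`, `y` if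
`D x y ≥ 8 δ` and `H ≥ δ` at both -/
def PointedQ {V : Type} (G : SimpleGraph V) (ℓ : Sym2 V → ℝ) (H : V → ℝ) (D : V → V → ℝ)
    (k K : ℝ) : Prop :=
  ∃ N σ : Option V → Option V → ℝ, IsSq N ∧ IsL1 σ ∧
    (∀ u v, G.Adj u v → N (some u) (some v) ≤ k * ℓ s(u, v) ^ 2 ∧
      σ (some u) (some v) ≤ K * ℓ s(u, v)) ∧
    (∀ v, N (some v) none ≤ k * H v ^ 2 ∧ σ (some v) none ≤ K * H v) ∧
    (∀ v, H v ^ 2 ≤ 4000000 * N (some v) none ∨ H v ≤ 2000 * σ (some v) none) ∧
    ∀ x y δ, 0 < δ → δ ≤ H x → δ ≤ H y → 8 * δ ≤ D x y →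
      δ ^ 2 ≤ 4000000 * N (some x) (some y) ∨ δ ≤ 2000 * σ (some x) (some y)

theorem pointedQ_of {V : Type} {G : SimpleGraph V} {ℓ : Sym2 V → ℝ} {H : V → ℝ} {D : V → V → ℝ}
    {K : ℝ} (h : PointedD G ℓ H D K) : PointedQ G ℓ H D 0 K := by
  obtain ⟨σ, h1, h2, h3, h4, h5⟩ := h
  refine ⟨fun _ _ => 0, σ, IsSq.zero, h1, fun u v huv => ⟨by simp, h2 u v huv⟩,
    fun v => ⟨by simp, h3 v⟩, fun v => Or.inr (h4 v), fun x y δ _ hx hy hxy =>
      Or.inr (h5 x y δ hx hy hxy)⟩

theorem PointedQ.mono {V : Type} {G : SimpleGraph V} {ℓ : Sym2 V → ℝ} {H : V → ℝ}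
    {D : V → V → ℝ} {k k' K : ℝ} (hk : k ≤ k') (h : PointedQ G ℓ H D k K) :
    PointedQ G ℓ H D k' K := by
  obtain ⟨N, σ, h0, h1, h2, h3, h4, h5⟩ := h
  exact ⟨N, σ, h0, h1, fun u v huv => ⟨(h2 u v huv).1.trans
    (mul_le_mul_of_nonneg_right hk (sq_nonneg _)), (h2 u v huv).2⟩,
    fun v => ⟨(h3 v).1.trans (mul_le_mul_of_nonneg_right hk (sq_nonneg _)), (h3 v).2⟩, h4, h5⟩

/-- what a round needs from one component -/
def StepQ {V : Type} (G : SimpleGraph V) (ℓ : Sym2 V → ℝ) (P : Set V) (u : V) (k K : ℝ) : Prop :=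
  ∀ φ : V → ℝ, (∀ v, 0 ≤ φ v) → (∀ v, v ∉ P → 0 < φ v) →
    (∀ u v, G.Adj u v → |φ u - φ v| ≤ ℓ s(u, v)) →
    PointedQ (G.induce (compSet G P u)) (fun e => ℓ (e.map Subtype.val)) (fun v => φ v.1)
      (fun a b => pathDist G ℓ a.1 b.1) k K

section step

variable {V : Type} {G : SimpleGraph V} {ℓ : Sym2 V → ℝ}

/-- three pointed families which separate the pairs close to a union of lanes -/
theorem lanes_sq [Finite V] (hc : G.Connected) (hℓ : ∀ e ∈ G.edgeSet, 0 < ℓ e) {H : V → ℝ}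
    (hH : ∀ v, 0 < H v) (hHl : ∀ u v, G.Adj u v → |H u - H v| ≤ ℓ s(u, v))
    {n s : ℕ} (hn : 0 < n) (hns : n ≤ s) {L : Fin n → Set V} (hL : ∀ i, (L i).Nonempty)
    {u : V → ℝ} (hu : ∀ a b, |u a - u b| ≤ pathDist G ℓ a b)
    (hiso : ∀ i, ∀ a ∈ L i, ∀ b ∈ L i, pathDist G ℓ a b ≤ |u a - u b|)
    {ν : V → V} (hν : Near G ℓ (⋃ i, L i) ν) :
    ∃ N : Option V → Option V → ℝ, IsSq N ∧
      (∀ a b, G.Adj a b → N (some a) (some b) ≤ 24 * ((Nat.log 2 s + 1 : ℕ) : ℝ) ^ 2 *
        ℓ s(a, b) ^ 2) ∧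
      (∀ v, N (some v) none ≤ 24 * ((Nat.log 2 s + 1 : ℕ) : ℝ) ^ 2 * H v ^ 2) ∧
      (∀ v, H v ^ 2 ≤ 4000000 * N (some v) none) ∧
      ∀ x y δ, 0 < δ → δ ≤ H x → δ ≤ H y → 8 * δ ≤ pathDist G ℓ x y →
        pathDist G ℓ x (ν x) < δ → δ ^ 2 ≤ 4000000 * N (some x) (some y) := by
  classical
  have := Fintype.ofFinite V
  have : Nonempty (Fin n) := ⟨⟨0, hn⟩⟩
  have hd := pathDist_isMet hc hℓ
  have hH0 : ∀ v, 0 ≤ H v := fun v => (hH v).le
  have hHd : ∀ x y, |H x - H y| ≤ pathDist G ℓ x y := pathDist_gen hc hHl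
  obtain ⟨ι1, _, w1, g1, hw1, hs1, hb1, hm1, hl1, -, hn1⟩ := fan' fan (fun _ : V => ())
    u H hH0
  obtain ⟨ι2, _, w2, g2, hw2, hs2, hb2, hm2, hl2, -, -⟩ := fan' fan (fun _ : V => ())
    (fun v => pathDist G ℓ v (ν v)) H hH0
  choose N hN using fun i => exists_near (X := L i) hc hℓ (hL i)
  -- the truncated distances to the lanes
  let D : Fin n → Option V → ℝ := fun i a => a.elim 0 fun x => min (pathDist G ℓ x (N i x)) (2 * H x)
  have hDs : ∀ i x, D i (some x) = min (pathDist G ℓ x (N i x)) (2 * H x) := fun _ _ => rfl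
  have hDn : ∀ i, D i none = 0 := fun _ => rfl
  have hD0 : ∀ i a, 0 ≤ D i a := by
    intro i a
    cases a with
    | none => exact le_rfl
    | some x => exact le_min (hd.nonneg _ _) (by linarith [hH0 x])
  let d' : Option V → Option V → ℝ := fun a b =>
    a.elim (b.elim 0 fun y => 2 * H y) fun x => b.elim (2 * H x) fun y => 2 * pathDist G ℓ x y
  have hds : ∀ a b, d' a b = d' b a := by
    intro a b
    cases a <;> cases b <;> try rfl
    show 2 * _ = 2 * _
    rw [hd.symm]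
  have hdn : ∀ a b, 0 ≤ d' a b := by
    intro a b
    cases a with
    | none =>
      cases b with
      | none => exact le_rfl
      | some y => show 0 ≤ 2 * H y; linarith [hH0 y]
    | some x =>
      cases b with
      | none => show 0 ≤ 2 * H x; linarith [hH0 x]
      | some y => show 0 ≤ 2 * pathDist G ℓ x y; linarith [hd.nonneg x y]
  have hDl : ∀ i a b, |D i a - D i b| ≤ d' a b := by
    intro i a b
    cases a with
    | none =>
      cases b with
      | none => simp [D, d']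
      | some y =>
        show |0 - D i (some y)| ≤ 2 * H y
        rw [zero_sub, abs_neg, abs_of_nonneg (hD0 i _)]
        exact min_le_right _ _
    | some x =>
      cases b with
      | none =>
        show |D i (some x) - 0| ≤ 2 * H x
        rw [sub_zero, abs_of_nonneg (hD0 i _)]
        exact min_le_right _ _
      | some y =>
        show |min (pathDist G ℓ x (N i x)) (2 * H x) - min (pathDist G ℓ y (N i y)) (2 * H y)| ≤
          2 * pathDist G ℓ x y
        refine (abs_min_sub_min_le_max _ _ _ _).trans (max_le ?_ ?_)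
        · have e1 := (hN i).lip hc hℓ x y
          have e2 := (hN i).lip hc hℓ y x
          have e3 := hd.nonneg x y
          rw [hd.symm y x] at e2
          rw [abs_le]; constructor <;> linarith
        · have e : 2 * H x - 2 * H y = 2 * (H x - H y) := by ring
          rw [e, abs_mul, abs_two]
          linarith [hHd x y]
  obtain ⟨κ, _, w, g, hw, hs, hg, hl⟩ := H105.lanes_fam hds hdn D hD0 hDl
  rw [Fintype.card_fin] at hl
  have hm : ((Nat.log 2 n + 1 : ℕ) : ℝ) ≤ ((Nat.log 2 s + 1 : ℕ) : ℝ) := by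
    exact_mod_cast Nat.succ_le_succ (Nat.log_mono_right hns)
  have hm1' : (1 : ℝ) ≤ ((Nat.log 2 s + 1 : ℕ) : ℝ) := by
    exact_mod_cast Nat.le_add_left 1 _
  set m : ℝ := ((Nat.log 2 s + 1 : ℕ) : ℝ) with hmdef
  have hmsq : 1 ≤ m ^ 2 := by nlinarith
  let N1 : Option V → Option V → ℝ := fun a b =>
    ∑ i, (4 * w1 i) * (a.elim 0 (g1 i) - b.elim 0 (g1 i)) ^ 2
  let N2 : Option V → Option V → ℝ := fun a b =>
    ∑ i, (16 * w2 i) * (a.elim 0 (g2 i) - b.elim 0 (g2 i)) ^ 2
  let N3 : Option V → Option V → ℝ := fun a b => ∑ i, (m ^ 2 * w i) * (g i a - g i b) ^ 2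
  have hN1 : IsSq N1 := ⟨ι1, inferInstance, fun i => 4 * w1 i, fun i a => a.elim 0 (g1 i),
    fun i => mul_nonneg (by norm_num) (hw1 i), fun _ _ => rfl⟩
  have hN2 : IsSq N2 := ⟨ι2, inferInstance, fun i => 16 * w2 i, fun i a => a.elim 0 (g2 i),
    fun i => mul_nonneg (by norm_num) (hw2 i), fun _ _ => rfl⟩
  have hN3 : IsSq N3 := ⟨κ, inferInstance, fun i => m ^ 2 * w i, g,
    fun i => mul_nonneg (sq_nonneg _) (hw i), fun _ _ => rfl⟩
  have hn1' : ∀ a b, 0 ≤ N1 a b := hN1.nonneg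
  have hn2' : ∀ a b, 0 ≤ N2 a b := hN2.nonneg
  have hn3' : ∀ a b, 0 ≤ N3 a b := hN3.nonneg
  have hsq : ∀ a b : ℝ, |a| ≤ b → a ^ 2 ≤ b ^ 2 := fun a b ha => by
    rw [← sq_abs a]
    exact pow_le_pow_left₀ (abs_nonneg a) ha 2
  have bound : ∀ (ι : Type) [Fintype ι] (w f : ι → ℝ) (c B : ℝ), (∀ i, 0 ≤ w i) →
      ∑ i, w i = 1 → 0 ≤ c → (∀ i, |f i| ≤ B) → ∑ i, (c * w i) * f i ^ 2 ≤ c * B ^ 2 := by
    intro ι _ w f c B hw hs hc' hf
    have h1 : ∀ i ∈ Finset.univ, (c * w i) * f i ^ 2 ≤ (c * B ^ 2) * w i := by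
      intro i _
      have h2 := mul_le_mul_of_nonneg_left (hsq _ _ (hf i)) (mul_nonneg hc' (hw i))
      linarith
    refine (Finset.sum_le_sum h1).trans ?_
    rw [← Finset.mul_sum, hs, mul_one]
  have lower : ∀ (ι : Type) [Fintype ι] (w f : ι → ℝ) (c t : ℝ), (∀ i, 0 ≤ w i) →
      ∑ i, w i = 1 → 0 ≤ c → 0 ≤ t → t ≤ ∑ i, w i * |f i| → c * t ^ 2 ≤
        ∑ i, (c * w i) * f i ^ 2 := by
    intro ι _ w f c t hw hs hc' ht hf
    have h1 := wsum_sq (a := fun i => |f i|) hw hs
    have h2 : t ^ 2 ≤ (∑ i, w i * |f i|) ^ 2 := pow_le_pow_left₀ ht hf 2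
    have h3 : ∑ i, (c * w i) * f i ^ 2 = c * ∑ i, w i * |f i| ^ 2 := by
      rw [Finset.mul_sum]
      refine Finset.sum_congr rfl fun i _ => ?_
      rw [sq_abs]
      ring
    rw [h3]
    exact mul_le_mul_of_nonneg_left (h2.trans h1) hc'
  refine ⟨fun a b => (N1 a b + N2 a b) + N3 a b, (hN1.add hN2).add hN3, ?_, ?_, ?_, ?_⟩
  · -- edges
    intro a b hab
    have hl0 : 0 < ℓ s(a, b) := hℓ _ hab
    have hadj := pathDist_adj hℓ hab
    have f1 : N1 (some a) (some b) ≤ 4 * ℓ s(a, b) ^ 2 := by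
      refine bound ι1 w1 (fun i => g1 i a - g1 i b) 4 _ hw1 hs1 (by norm_num) fun i => ?_
      exact (hm1 i a b rfl).trans (max_le ((hu a b).trans hadj) (hHl a b hab))
    have f2 : N2 (some a) (some b) ≤ 16 * ℓ s(a, b) ^ 2 := by
      refine bound ι2 w2 (fun i => g2 i a - g2 i b) 16 _ hw2 hs2 (by norm_num) fun i => ?_
      refine (hm2 i a b rfl).trans (max_le ?_ (hHl a b hab))
      have a1 := hν.lip hc hℓ a b
      have a2 := hν.lip hc hℓ b a
      rw [hd.symm b a] at a2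
      rw [abs_le]; constructor <;> linarith
    have f3 : N3 (some a) (some b) ≤ m ^ 2 * (2 * ℓ s(a, b)) ^ 2 := by
      refine bound κ w (fun i => g i (some a) - g i (some b)) (m ^ 2) _ hw hs (sq_nonneg _)
        fun i => ?_
      refine (hg i _ _).trans ?_
      show 2 * pathDist G ℓ a b ≤ _
      linarith
    show N1 (some a) (some b) + N2 (some a) (some b) + N3 (some a) (some b) ≤ _
    have f4 : 1 * ℓ s(a, b) ^ 2 ≤ m ^ 2 * ℓ s(a, b) ^ 2 :=
      mul_le_mul_of_nonneg_right hmsq (sq_nonneg _)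
    nlinarith
  · -- upper bound at the base point
    intro v
    have f1 : N1 (some v) none ≤ 4 * H v ^ 2 := by
      refine bound ι1 w1 (fun i => g1 i v - 0) 4 _ hw1 hs1 (by norm_num) fun i => ?_
      rw [sub_zero]; exact hb1 i v
    have f2 : N2 (some v) none ≤ 16 * H v ^ 2 := by
      refine bound ι2 w2 (fun i => g2 i v - 0) 16 _ hw2 hs2 (by norm_num) fun i => ?_
      rw [sub_zero]; exact hb2 i v
    have f3 : N3 (some v) none ≤ m ^ 2 * (2 * H v) ^ 2 := by
      refine bound κ w (fun i => g i (some v) - g i none) (m ^ 2) _ hw hs (sq_nonneg _)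
        fun i => hg i _ _
    show N1 (some v) none + N2 (some v) none + N3 (some v) none ≤ _
    have f4 : 1 * H v ^ 2 ≤ m ^ 2 * H v ^ 2 :=
      mul_le_mul_of_nonneg_right hmsq (sq_nonneg _)
    nlinarith
  · -- lower bound at the base point
    intro v
    have f1 : 4 * (1 / 2000 * H v) ^ 2 ≤ N1 (some v) none := by
      refine lower ι1 w1 (fun i => g1 i v - 0) 4 _ hw1 hs1 (by norm_num)
        (mul_nonneg (by norm_num) (hH0 v)) ?_
      refine (hn1 v).trans (le_of_eq ?_)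
      refine Finset.sum_congr rfl fun i _ => ?_
      rw [sub_zero]
    have := hn2' (some v) none
    have := hn3' (some v) none
    show H v ^ 2 ≤ 4000000 * (N1 (some v) none + N2 (some v) none + N3 (some v) none)
    nlinarith [sq_nonneg (H v)]
  · -- separation
    intro x y δ hδ hx hy hxy hxν
    show δ ^ 2 ≤ 4000000 * (N1 (some x) (some y) + N2 (some x) (some y) + N3 (some x) (some y))
    have p1 := hn1' (some x) (some y)
    have p2 := hn2' (some x) (some y)
    have p3 := hn3' (some x) (some y)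
    by_cases hcase : δ / 4 ≤ |pathDist G ℓ x (ν x) - pathDist G ℓ y (ν y)|
    · have h3 : δ / 4 ≤ min |pathDist G ℓ x (ν x) - pathDist G ℓ y (ν y)| (H x + H y) :=
        le_min hcase (by linarith)
      have f2 : 16 * (1 / 2000 * (δ / 4)) ^ 2 ≤ N2 (some x) (some y) := by
        refine lower ι2 w2 (fun i => g2 i x - g2 i y) 16 _ hw2 hs2 (by norm_num)
          (by positivity) ?_
        refine le_trans ?_ (hl2 x y rfl)
        exact mul_le_mul_of_nonneg_left h3 (by norm_num)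
      nlinarith
    push Not at hcase
    have h3 := (abs_lt.1 hcase).1
    have hsy : pathDist G ℓ y (ν y) < 5 / 4 * δ := by linarith
    by_cases hcase2 : δ / 2 ≤ |u x - u y|
    · have h4 : δ / 2 ≤ min |u x - u y| (H x + H y) := le_min hcase2 (by linarith)
      have f2 : 4 * (1 / 2000 * (δ / 2)) ^ 2 ≤ N1 (some x) (some y) := by
        refine lower ι1 w1 (fun i => g1 i x - g1 i y) 4 _ hw1 hs1 (by norm_num)
          (by positivity) ?_
        refine le_trans ?_ (hl1 x y rfl)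
        exact mul_le_mul_of_nonneg_left h4 (by norm_num)
      nlinarith
    push Not at hcase2
    have hin : ∀ a, ∃ i, D i (some a) ≤ pathDist G ℓ a (ν a) := by
      intro a
      obtain ⟨i, hi⟩ := Set.mem_iUnion.1 (hν.mem a)
      exact ⟨i, (min_le_left _ _).trans ((hN i).le a _ hi)⟩
    obtain ⟨i, hi⟩ := hin x
    obtain ⟨j, hj⟩ := hin y
    have h1 := hl (some x) (some y) (15 / 8 * δ) (5 / 4 * δ) ⟨i, by linarith⟩ ⟨j, by linarith⟩ (by
      intro i
      by_contra hlt
      push Not at hlt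
      rw [max_lt_iff, hDs, hDs, min_lt_iff, min_lt_iff] at hlt
      obtain ⟨h1, h2⟩ := hlt
      have h1' : pathDist G ℓ x (N i x) < 15 / 8 * δ := h1.resolve_right (by linarith)
      have h2' : pathDist G ℓ y (N i y) < 15 / 8 * δ := h2.resolve_right (by linarith)
      have h3 := hiso i (N i x) ((hN i).mem x) (N i y) ((hN i).mem y)
      have h4 := hu x (N i x)
      have h5 := hu y (N i y)
      have h6 : |u (N i x) - u (N i y)| ≤ |u x - u y| + |u x - u (N i x)| +
          |u y - u (N i y)| := by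
        have e : u (N i x) - u (N i y) = (u x - u y) + -(u x - u (N i x)) +
          (u y - u (N i y)) := by ring
        rw [e]
        refine (abs_add_three _ _ _).trans ?_
        rw [abs_neg]
      have h7 := hd.tri x (N i x) y
      have h8 := hd.tri (N i x) (N i y) y
      rw [hd.symm (N i y) y] at h8
      linarith)
    have hSn : 0 ≤ ∑ i, w i * |g i (some x) - g i (some y)| :=
      Finset.sum_nonneg fun i _ => mul_nonneg (hw i) (abs_nonneg _)
    have h2 : 12 * ((Nat.log 2 n + 1 : ℕ) : ℝ) * ∑ i, w i * |g i (some x) - g i (some y)| ≤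
        12 * m * ∑ i, w i * |g i (some x) - g i (some y)| :=
      mul_le_mul_of_nonneg_right (by linarith) hSn
    have hm0 : 0 < m := by linarith
    have f3 : m ^ 2 * (5 * δ / (96 * m)) ^ 2 ≤ N3 (some x) (some y) := by
      refine lower κ w (fun i => g i (some x) - g i (some y)) (m ^ 2) _ hw hs (sq_nonneg _)
        (by positivity) ?_
      rw [div_le_iff₀ (by positivity)]
      linarith
    have e : m ^ 2 * (5 * δ / (96 * m)) ^ 2 = 25 / 9216 * δ ^ 2 := by
      field_simp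
      ring
    rw [e] at f3
    nlinarith

end step

end Vale.Agent.P235.SqR
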