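import Vale.Agent.P235.R2.H611.W1Any
import Vale.Agent.P235.R2.H934.TwoFace

/-!
# Plane graphs with one end of the falls and few ends of the climbs: assembly (helper802)
-/

set_option linter.all false

namespace Vale.Agent.P235.SqR

open Vale.Agent.P235 Vale.Agent.P235.Red Vale.Agent.P235.H341W Vale.Agent.P235.Tight
  Vale.Agent.P235.Red.W3

/-- the tight vertex form -/
def CoreT (K₀ : ℝ) : Prop :=
  ∀ {C : ℝ}, 1 ≤ C → MStarLL C → ∀ (V : Type) [Finite V] (G : SimpleGraph V)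
    (σ : Equiv.Perm G.Dart) (ℓ : Sym2 V → ℝ) (h : V → ℝ) (s : V) (B : Finset V),
    G.Connected → PlaneMap G σ → (∀ e ∈ G.edgeSet, 0 < ℓ e) →
    (∀ u v, G.Adj u v → |h u - h v| ≤ ℓ s(u, v)) →
    (∀ v, v ≠ s → ∃ u, G.Adj v u ∧ ℓ s(v, u) = h v - h u) →
    (∀ v, v ∉ B → ∃ u, G.Adj v u ∧ ℓ s(v, u) = h u - h v) →
    EmbedsL1 (pathDist G ℓ)
      (K₀ * C * ((ll (Nat.card V) : ℝ) + 1 + √(Real.log ((B.card : ℝ) + 2))))

/-- a bound for tight functions gives the bound with slopes -/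
theorem tight_to_steep {V : Type} [Finite V] {G : SimpleGraph V} {ℓ : Sym2 V → ℝ} {h : V → ℝ}
    {D : ℝ} {B₁ B₂ : Set V} (hD : 1 ≤ D) (hW : Wide G ℓ h D B₁ B₂) {K : ℝ} (hK : 0 ≤ K)
    (hT : ∀ ℓ' : Sym2 V → ℝ, (∀ e ∈ G.edgeSet, 0 < ℓ' e) →
      (∀ u v, G.Adj u v → |h u - h v| ≤ ℓ' s(u, v)) →
      (∀ v, v ∉ B₁ → ∃ u, G.Adj v u ∧ ℓ' s(v, u) = h v - h u) →
      (∀ v, v ∉ B₂ → ∃ u, G.Adj v u ∧ ℓ' s(v, u) = h u - h v) →
      EmbedsL1 (pathDist G ℓ') K) : EmbedsL1 (pathDist G ℓ) (D * K) := by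
  classical
  have pos : ∀ u v, G.Adj u v → 0 < ℓ s(u, v) := fun u v ha => hW.pos _ (G.mem_edgeSet.2 ha)
  have hD0 : 0 < D := by linarith
  have s1 : ∀ u v, shr ℓ h D s(u, v) = if ℓ s(u, v) ≤ D * |h u - h v| then |h u - h v|
      else ℓ s(u, v) := by
    intro u v
    unfold shr
    by_cases hh : ℓ s(u, v) ≤ D * |h u - h v|
    · rw [if_pos hh]
      exact if_pos hh
    · rw [if_neg hh]
      exact if_neg hh
  have a1 : ∀ u v, G.Adj u v → shr ℓ h D s(u, v) ≤ ℓ s(u, v) := by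
    intro u v ha
    rw [s1]
    split
    · exact hW.lip u v ha
    · exact le_rfl
  have a2 : ∀ u v, G.Adj u v → ℓ s(u, v) ≤ D * shr ℓ h D s(u, v) := by
    intro u v ha
    rw [s1]
    split
    · assumption
    · have := pos u v ha
      nlinarith
  have a3 : ∀ u v, G.Adj u v → 0 < shr ℓ h D s(u, v) := by
    intro u v ha
    have h2 := a2 u v ha
    have h3 := pos u v ha
    by_contra h4
    push Not at h4
    nlinarith
  have steep : ∀ u v, G.Adj u v → ℓ s(u, v) ≤ D * (h v - h u) →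
      shr ℓ h D s(u, v) = h v - h u := by
    intro u v ha h2
    have h3 := pos u v ha
    have h4 : 0 < h v - h u := by
      by_contra h5
      push Not at h5
      nlinarith
    have h6 : |h u - h v| = h v - h u := by
      rw [abs_of_neg (by linarith)]
      ring
    rw [s1, h6, if_pos h2]
  have hE := hT (shr ℓ h D) (fun e he => by
      induction e with
      | _ u v => exact a3 u v he) (fun u v ha => by
      rw [s1]
      split
      · exact le_rfl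
      · exact hW.lip u v ha) (fun v hv => by
      obtain ⟨w, hw, h2⟩ := hW.low v hv
      refine ⟨w, hw, ?_⟩
      rw [Sym2.eq_swap] at h2 ⊢
      exact steep w v hw.symm h2) (fun v hv => by
      obtain ⟨w, hw, h2⟩ := hW.high v hv
      exact ⟨w, hw, steep v w hw h2⟩)
  have e1 : ∀ x y, pathDist G ℓ x y ≤ D * pathDist G (shr ℓ h D) x y :=
    R2.H673.pathDist_le_mul hD0.le (fun u v ha => (pos u v ha).le) a2
  have e2 : ∀ x y, pathDist G (shr ℓ h D) x y ≤ 1 * pathDist G ℓ x y :=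
    R2.H673.pathDist_le_mul zero_le_one (fun u v ha => (a3 u v ha).le)
      (fun u v ha => by rw [one_mul]; exact a1 u v ha)
  refine R2.H673.embedsL1_scale hD0.le hE e1 (fun x y => ?_)
  have h3 : (0 : ℝ) ≤ D * K := by positivity
  have h4 := mul_le_mul_of_nonneg_left (e2 x y) h3
  rw [one_mul] at h4
  calc D * (K * pathDist G (shr ℓ h D) x y) = D * K * pathDist G (shr ℓ h D) x y := by ring
    _ ≤ _ := h4

theorem sqrt_log_mono {a b : ℕ} (hab : a ≤ b) :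
    √(Real.log ((a : ℝ) + 2)) ≤ √(Real.log ((b : ℝ) + 2)) := by
  have h1 : (a : ℝ) ≤ b := by exact_mod_cast hab
  have h2 : (0 : ℝ) ≤ a := Nat.cast_nonneg a
  exact Real.sqrt_le_sqrt (Real.log_le_log (by linarith) (by linarith))

/-- the vertex form with slopes -/
theorem core_steep {K₀ : ℝ} (hK₀ : 0 ≤ K₀) (hcore : CoreT K₀) {C : ℝ} (hC : 1 ≤ C)
    (hM : MStarLL C) {D : ℝ} (hD : 1 ≤ D) (V : Type) [Finite V] (G : SimpleGraph V)
    (σ : Equiv.Perm G.Dart) (ℓ : Sym2 V → ℝ) (h : V → ℝ) (s : V) (B : Finset V)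
    (hP : PlaneMap G σ) (hW : Wide G ℓ h D {s} (B : Set V)) :
    EmbedsL1 (pathDist G ℓ)
      (K₀ * C * D * ((ll (Nat.card V) : ℝ) + 1 + √(Real.log ((B.card : ℝ) + 2)))) := by
  have h1 : (0 : ℝ) ≤ (ll (Nat.card V) : ℝ) := Nat.cast_nonneg _
  have h2 := Real.sqrt_nonneg (Real.log ((B.card : ℝ) + 2))
  have h3 : 0 ≤ K₀ * C * ((ll (Nat.card V) : ℝ) + 1 + √(Real.log ((B.card : ℝ) + 2))) := by
    positivity
  have h4 := tight_to_steep hD hW h3 fun ℓ' q1 q2 q3 q4 =>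
    hcore hC hM V G σ ℓ' h s B hW.conn hP q1 q2 (fun v hv => q3 v hv)
      (fun v hv => q4 v (by simpa using hv))
  have e : D * (K₀ * C * ((ll (Nat.card V) : ℝ) + 1 + √(Real.log ((B.card : ℝ) + 2)))) =
      K₀ * C * D * ((ll (Nat.card V) : ℝ) + 1 + √(Real.log ((B.card : ℝ) + 2))) := by ring
  rwa [e] at h4

/-- the literal face form -/
def FaceForm : Prop :=
  ∀ {D : ℝ}, 1 ≤ D → ∀ F : ℕ → ℕ → ℝ,
    (∀ (V : Type) [Finite V] (G : SimpleGraph V) (σ : Equiv.Perm G.Dart) (ℓ : Sym2 V → ℝ)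
      (h : V → ℝ) (s : V) (B : Finset V), PlaneMap G σ → Wide G ℓ h D {s} (B : Set V) →
      EmbedsL1 (pathDist G ℓ) (F (Nat.card V) B.card)) →
    (∀ a b c d, a ≤ c → b ≤ d → F a b ≤ F c d) →
    ∀ (V : Type) [Finite V] (G : SimpleGraph V) (σ : Equiv.Perm G.Dart) (ℓ : Sym2 V → ℝ)
      (h : V → ℝ) (s : V) (B : Finset V) (M : Finset G.Dart), PlaneMap G σ →
      Wide G ℓ h D {s} ((B : Set V) ∪ ⋃ m ∈ M, onFace σ m) →
      EmbedsL1 (pathDist G ℓ) (F (Nat.card V + M.card) (B.card + M.card))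

/-- **the final form** -/
theorem plane_all_of {K₀ : ℝ} (hK₀ : 0 ≤ K₀) (hcore : CoreT K₀) (hface : FaceForm) {C : ℝ}
    (hC : 1 ≤ C) (hM : MStarLL C) (V : Type) [Finite V] (G : SimpleGraph V)
    (σ : Equiv.Perm G.Dart) (ℓ : Sym2 V → ℝ) (h : V → ℝ) (s : V) (D : ℝ) (M : Finset G.Dart)
    (B : Finset V) (hD : 1 ≤ D) (hc : G.Connected) (hP : PlaneMap G σ)
    (hℓ : ∀ e ∈ G.edgeSet, 0 < ℓ e) (h1 : ∀ u v, G.Adj u v → |h u - h v| ≤ ℓ s(u, v))
    (hlow : ∀ v, v ≠ s → ∃ u, G.Adj v u ∧ ℓ s(v, u) ≤ D * (h v - h u))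
    (hhigh : ∀ v, (∃ u, G.Adj v u ∧ ℓ s(v, u) ≤ D * (h u - h v)) ∨ v ∈ B ∨
      ∃ m ∈ M, v ∈ onFace σ m) :
    EmbedsL1 (pathDist G ℓ) (4 * K₀ * C * D *
      ((ll (Nat.card V) : ℝ) + 1 + √(Real.log ((B.card + M.card : ℕ) + 2)))) := by
  classical
  have := Fintype.ofFinite V
  -- the exceptional vertices
  let E : Finset V := Finset.univ.filter fun v =>
    ¬ (∃ u, G.Adj v u ∧ ℓ s(v, u) ≤ D * (h u - h v)) ∧ v ∉ B
  have hE : ∀ v ∈ E, ∃ m ∈ M, v ∈ onFace σ m := by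
    intro v hv
    obtain ⟨k1, k2⟩ := (Finset.mem_filter.1 hv).2
    rcases hhigh v with k | k | k
    · exact absurd k k1
    · exact absurd k k2
    · exact k
  choose f hf hf' using hE
  let M' : Finset G.Dart := E.attach.image fun v => f v.1 v.2
  have hM'1 : M' ⊆ M := by
    intro m hm
    obtain ⟨v, -, rfl⟩ := Finset.mem_image.1 hm
    exact hf v.1 v.2
  have hM'2 : M'.card ≤ Nat.card V := by
    refine Finset.card_image_le.trans ?_
    rw [Finset.card_attach, Nat.card_eq_fintype_card]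
    exact Finset.card_le_univ _
  have hW : Wide G ℓ h D {s} ((B : Set V) ∪ ⋃ m ∈ M', onFace σ m) := by
    refine ⟨hc, hℓ, h1, fun v hv => hlow v (fun k => hv k), fun v hv => ?_⟩
    by_contra k
    have hvB : v ∉ B := fun k' => hv (Or.inl k')
    have hvE : v ∈ E := Finset.mem_filter.2 ⟨Finset.mem_univ _, k, hvB⟩
    exact hv (Or.inr (Set.mem_iUnion₂.2 ⟨f v hvE, Finset.mem_image.2
      ⟨⟨v, hvE⟩, Finset.mem_attach _ _, rfl⟩, hf' v hvE⟩))
  have hne : Nonempty V := ⟨s⟩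
  have hn1 : 1 ≤ Nat.card V := Nat.card_pos
  have h5 := hface hD (fun n b => K₀ * C * D * ((ll n : ℝ) + 1 + √(Real.log ((b : ℝ) + 2))))
    (fun V _ G σ ℓ h s B hP hW => core_steep hK₀ hcore hC hM hD V G σ ℓ h s B hP hW)
    (fun a b c d hab hcd => by
      have k1 : (ll a : ℝ) ≤ ll c := by exact_mod_cast ll_mono hab
      have k2 := sqrt_log_mono hcd
      have k3 : 0 ≤ K₀ * C * D := by positivity
      exact mul_le_mul_of_nonneg_left (by linarith) k3) V G σ ℓ h s B M' hP hW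
  obtain ⟨Ω, m, μ, g, hg⟩ := h5
  refine ⟨Ω, m, μ, g, fun x y => ⟨(hg x y).1, (hg x y).2.trans ?_⟩⟩
  refine mul_le_mul_of_nonneg_right ?_ (pd_nonneg hℓ x y)
  have k1 : (ll (Nat.card V + M'.card) : ℝ) ≤ (ll (Nat.card V) : ℝ) + 2 := by
    exact_mod_cast ll_add_sq _ hn1 (by nlinarith)
  have k2 : √(Real.log (((B.card + M'.card : ℕ) : ℝ) + 2)) ≤
      √(Real.log (((B.card + M.card : ℕ) : ℝ) + 2)) :=
    sqrt_log_mono (Nat.add_le_add_left (Finset.card_le_card hM'1) _)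
  have k3 : 0 ≤ K₀ * C * D := by positivity
  have k4 : (0 : ℝ) ≤ (ll (Nat.card V) : ℝ) := Nat.cast_nonneg _
  have k5 := Real.sqrt_nonneg (Real.log (((B.card + M.card : ℕ) : ℝ) + 2))
  have k6 : (ll (Nat.card V + M'.card) : ℝ) + 1 + √(Real.log (((B.card + M'.card : ℕ) : ℝ) + 2)) ≤
      4 * ((ll (Nat.card V) : ℝ) + 1 + √(Real.log (((B.card + M.card : ℕ) : ℝ) + 2))) := by
    linarith
  have k7 := mul_le_mul_of_nonneg_left k6 k3
  calc K₀ * C * D * ((ll (Nat.card V + M'.card) : ℝ) + 1 +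
        √(Real.log (((B.card + M'.card : ℕ) : ℝ) + 2))) ≤ _ := k7
    _ = _ := by ring

end Vale.Agent.P235.SqR
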