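import Vale.Agent.P235.R2.H802.T4

/-!
# Faces replaced by vertices (helper802, on helper582's rowCap2 and helper934's cap)
-/

set_option linter.all false

namespace Vale.Agent.P235.SqR

open Vale.Agent.P235 Vale.Agent.P235.Red Vale.Agent.P235.H341W Vale.Agent.P235.Tight
  Vale.Agent.P235.Red.W3

variable {V : Type} {G : SimpleGraph V} {ℓ : Sym2 V → ℝ} {h : V → ℝ} {D : ℝ} {B₁ B₂ : Set V}

theorem wide_mono {B₂' : Set V} (hW : Wide G ℓ h D B₁ B₂) (hB : B₂ ⊆ B₂') :
    Wide G ℓ h D B₁ B₂' :=
  ⟨hW.conn, hW.pos, hW.lip, hW.low, fun v hv => hW.high v fun k => hv (hB k)⟩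

/-- one new top joined to the vertices of `T` -/
theorem wide_capT {T : Set V} (hW : Wide G ℓ h D B₁ B₂) (hD : 1 ≤ D) (hT : T.Nonempty)
    {M H : ℝ} (hM : ∀ x y, pathDist G ℓ x y ≤ M) (hH : ∀ v, M < H - h v) :
    Wide (capG G T) (capL ℓ h H) (capH h H) D (some '' B₁) ({none} ∪ some '' (B₂ \ T)) := by
  obtain ⟨x, hx⟩ := hT
  have hM0 : 0 ≤ M := (pd_nonneg hW.pos x x).trans (hM x x)
  refine ⟨cap_connected hW.conn ⟨x, hx⟩, ?_, ?_, ?_, ?_⟩
  · intro e he
    induction e with
    | _ a b =>
      rcases a with _ | a <;> rcases b with _ | b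
      · exact absurd he (by simp [capG])
      · rw [capL_ns]; exact abs_pos.2 (by linarith [hH b])
      · rw [capL_sn]; exact abs_pos.2 (by linarith [hH a])
      · rw [capL_some]; exact hW.pos _ he
  · rintro (_ | u) (_ | v) ha
    · exact absurd ha (fun h => h)
    · exact le_of_eq rfl
    · show |h u - H| ≤ |H - h u|
      rw [abs_sub_comm]
    · exact hW.lip u v ha
  · rintro (_ | v) hv
    · refine ⟨some x, hx, ?_⟩
      show |H - h x| ≤ D * (H - h x)
      rw [abs_of_nonneg (by linarith [hH x])]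
      exact le_mul_of_one_le_left (by linarith [hH x]) hD
    · obtain ⟨u, hu, h1⟩ := hW.low v (fun h3 => hv ⟨v, h3, rfl⟩)
      exact ⟨some u, hu, h1⟩
  · rintro (_ | v) hv
    · exact absurd (Or.inl rfl) hv
    · by_cases hvT : v ∈ T
      · refine ⟨none, hvT, ?_⟩
        show |H - h v| ≤ D * (H - h v)
        rw [abs_of_nonneg (by linarith [hH v])]
        exact le_mul_of_one_le_left (by linarith [hH v]) hD
      · obtain ⟨u, hu, h1⟩ := hW.high v fun k => hv (Or.inr ⟨v, ⟨k, hvT⟩, rfl⟩)
        exact ⟨some u, hu, h1⟩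

/-- **`FaceForm`** -/
theorem faceForm : FaceForm := by
  classical
  intro D hD F HV hF
  have key : ∀ k : ℕ, ∀ (V : Type) [Finite V] (G : SimpleGraph V) (σ : Equiv.Perm G.Dart)
      (ℓ : Sym2 V → ℝ) (h : V → ℝ) (s : V) (B : Finset V) (M : Finset G.Dart), M.card ≤ k →
      PlaneMap G σ → Wide G ℓ h D {s} ((B : Set V) ∪ ⋃ m ∈ M, onFace σ m) →
      EmbedsL1 (pathDist G ℓ) (F (Nat.card V + k) (B.card + k)) := by
    intro k
    induction k with
    | zero =>
      intro V _ G σ ℓ h s B M hM hP hW
      have h1 : M = ∅ := Finset.card_eq_zero.1 (Nat.le_zero.1 hM)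
      have h2 : ((B : Set V) ∪ ⋃ m ∈ M, onFace σ m) = (B : Set V) := by
        rw [h1]
        simp
      rw [h2] at hW
      exact HV V G σ ℓ h s B hP hW
    | succ k ih =>
      intro V _ G σ ℓ h s B M hM hP hW
      rcases Finset.eq_empty_or_nonempty M with h0 | ⟨m, hm⟩
      · -- no face
        have h2 : ((B : Set V) ∪ ⋃ m ∈ M, onFace σ m) = (B : Set V) := by
          rw [h0]
          simp
        rw [h2] at hW
        obtain ⟨Ω, m, μ, g, hg⟩ := HV V G σ ℓ h s B hP hW
        refine ⟨Ω, m, μ, g, fun x y => ⟨(hg x y).1, (hg x y).2.trans ?_⟩⟩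
        exact mul_le_mul_of_nonneg_right (hF _ _ _ _ (by omega) (by omega))
          (pd_nonneg hW.pos x y)
      · have hne : Nonempty V := ⟨s⟩
        have hT : (onFace σ m).Nonempty := ⟨m.fst, m, Equiv.Perm.SameCycle.refl _ _, rfl⟩
        obtain ⟨σ', hP', h0⟩ := R2.H582.rowCap2 V G σ m (onFace σ m) hW.conn hP hT subset_rfl
        obtain ⟨R, H, h1, h2⟩ := exists_height G ℓ h
        have hW' := wide_capT hW hD hT h1 h2
        have hex : ∀ m₂ : G.Dart, ∃ d' : (capG G (onFace σ m)).Dart,
            ¬ (faceNext σ).SameCycle m m₂ → ∀ v ∈ onFace σ m₂, some v ∈ onFace σ' d' := by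
          intro m₂
          by_cases hs : (faceNext σ).SameCycle m m₂
          · refine ⟨⟨(none, some m.fst), ⟨m, Equiv.Perm.SameCycle.refl _ _, rfl⟩⟩,
              fun k => absurd hs k⟩
          · obtain ⟨d', hd'⟩ := h0 m₂ hs
            exact ⟨d', fun _ => hd'⟩
        choose g hg using hex
        let B' : Finset (Option V) := insert none (B.image some)
        let M' : Finset (capG G (onFace σ m)).Dart := (M.erase m).image g
        have hM' : M'.card ≤ k := by
          refine Finset.card_image_le.trans ?_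
          rw [Finset.card_erase_of_mem hm]
          omega
        have hB' : B'.card ≤ B.card + 1 := by
          refine (Finset.card_insert_le _ _).trans ?_
          exact Nat.add_le_add_right Finset.card_image_le 1
        have hW2 : Wide (capG G (onFace σ m)) (capL ℓ h H) (capH h H) D {some s}
            ((B' : Set (Option V)) ∪ ⋃ m₂ ∈ M', onFace σ' m₂) := by
          rw [Set.image_singleton] at hW'
          refine wide_mono hW' ?_
          rintro a (ha | ⟨v, ⟨hv, hvT⟩, rfl⟩)
          · rw [Set.mem_singleton_iff.1 ha]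
            exact Or.inl (Finset.mem_insert_self _ _)
          · rcases hv with hv | hv
            · exact Or.inl (Finset.mem_insert_of_mem (Finset.mem_image_of_mem some hv))
            · obtain ⟨m₂, hm₂, hv⟩ := Set.mem_iUnion₂.1 hv
              have hs : ¬ (faceNext σ).SameCycle m m₂ := by
                intro k
                obtain ⟨d', k1, k2⟩ := hv
                exact hvT ⟨d', k.trans k1, k2⟩
              have hmm : m₂ ≠ m := by
                rintro rfl
                exact hs (Equiv.Perm.SameCycle.refl _ _)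
              exact Or.inr (Set.mem_iUnion₂.2 ⟨g m₂, Finset.mem_image_of_mem g
                (Finset.mem_erase.2 ⟨hmm, hm₂⟩), hg m₂ hs v hv⟩)
        have hE := ih (Option V) (capG G (onFace σ m)) σ' (capL ℓ h H) (capH h H) (some s) B' M'
          hM' hP' hW2
        rw [Finite.card_option] at hE
        have hE' := embeds_restrict some (fun x y => cap_dist hW.conn hW.pos hT h1 h2 x y) hE
        obtain ⟨Ω, mm, μ, f, hf⟩ := hE'
        refine ⟨Ω, mm, μ, f, fun x y => ⟨(hf x y).1, (hf x y).2.trans ?_⟩⟩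
        exact mul_le_mul_of_nonneg_right (hF _ _ _ _ (by omega) (by omega))
          (pd_nonneg hW.pos x y)
  intro V _ G σ ℓ h s B M hP hW
  exact key M.card V G σ ℓ h s B M le_rfl hP hW

end Vale.Agent.P235.SqR
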